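import Mathlib

/-!
Convolution of absolutely summable sequences on the lattice `ℤ × ℤ`.
-/

open scoped BigOperators

namespace Vale.Agent.Lib.P205.Tor

/-- The dual lattice of the torus. -/
abbrev K2 := ℤ × ℤ

/-- The shear used to reindex convolution sums. -/
def shearEquiv : (K2 × K2) ≃ (K2 × K2) where
  toFun x := (x.2, x.1 - x.2)
  invFun x := (x.1 + x.2, x.1)
  left_inv x := by
    rcases x with ⟨n, k⟩
    simp
  right_inv x := by
    rcases x with ⟨k, l⟩
    simp

theorem summable_conv_pairs {R : Type*} [NormedRing R] [CompleteSpace R] {f g : K2 → R}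
    (hf : Summable fun k => ‖f k‖) (hg : Summable fun k => ‖g k‖) :
    Summable fun x : K2 × K2 => f x.2 * g (x.1 - x.2) := by
  have h := summable_mul_of_summable_norm hf hg
  have h2 := shearEquiv.summable_iff.mpr h
  exact h2

theorem tsum_conv {R : Type*} [NormedRing R] [CompleteSpace R] {f g : K2 → R}
    (hf : Summable fun k => ‖f k‖) (hg : Summable fun k => ‖g k‖) :
    (∑' n, ∑' k, f k * g (n - k)) = (∑' k, f k) * (∑' k, g k) := by
  have h := summable_conv_pairs hf hg
  rw [tsum_mul_tsum_of_summable_norm hf hg]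
  rw [← h.tsum_prod]
  have := shearEquiv.tsum_eq (fun z : K2 × K2 => f z.1 * g z.2)
  simpa [shearEquiv] using this

/-- Convolution. -/
noncomputable def conv (a b : K2 → ℂ) (n : K2) : ℂ := ∑' k, a k * b (n - k)

theorem summable_inner {a b : K2 → ℂ} (ha : Summable fun k => ‖a k‖)
    (hb : Summable fun k => ‖b k‖) (n : K2) :
    Summable fun k => ‖a k * b (n - k)‖ := by
  have h := summable_conv_pairs (f := fun k => ((‖a k‖ : ℝ))) (g := fun k => ((‖b k‖ : ℝ)))
    (by simpa using ha) (by simpa using hb)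
  have h2 := h.prod_factor n
  simpa using h2

/-- The weighted bound for convolution. -/
theorem conv_weight {W : K2 → ℝ} (h1 : ∀ k, 1 ≤ W k) (hsub : ∀ x y, W (x + y) ≤ W x * W y)
    {a b : K2 → ℂ} (ha : Summable fun k => ‖a k‖ * W k) (hb : Summable fun k => ‖b k‖ * W k) :
    (Summable fun n => ‖conv a b n‖ * W n) ∧
      (∑' n, ‖conv a b n‖ * W n) ≤ (∑' k, ‖a k‖ * W k) * (∑' k, ‖b k‖ * W k) := by
  have hW0 : ∀ k, 0 ≤ W k := fun k => le_trans zero_le_one (h1 k)
  have ha0 : Summable fun k => ‖a k‖ :=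
    Summable.of_nonneg_of_le (fun k => norm_nonneg _)
      (fun k => le_mul_of_one_le_right (norm_nonneg _) (h1 k)) ha
  have hb0 : Summable fun k => ‖b k‖ :=
    Summable.of_nonneg_of_le (fun k => norm_nonneg _)
      (fun k => le_mul_of_one_le_right (norm_nonneg _) (h1 k)) hb
  set A : K2 → ℝ := fun k => ‖a k‖ * W k with hA
  set B : K2 → ℝ := fun k => ‖b k‖ * W k with hB
  have hA' : Summable fun k => ‖A k‖ := by
    simpa [hA, abs_of_nonneg (mul_nonneg (norm_nonneg _) (hW0 _))] using ha.norm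
  have hB' : Summable fun k => ‖B k‖ := by
    simpa [hB, abs_of_nonneg (mul_nonneg (norm_nonneg _) (hW0 _))] using hb.norm
  have hpairs := summable_conv_pairs hA' hB'
  have hle : ∀ n, ‖conv a b n‖ * W n ≤ ∑' k, A k * B (n - k) := by
    intro n
    have hs := summable_inner ha0 hb0 n
    have h2 : ‖conv a b n‖ ≤ ∑' k, ‖a k * b (n - k)‖ := norm_tsum_le_tsum_norm hs
    have h3 : (∑' k, ‖a k * b (n - k)‖) * W n = ∑' k, ‖a k * b (n - k)‖ * W n :=
      (tsum_mul_right).symm
    have h4 : ∀ k, ‖a k * b (n - k)‖ * W n ≤ A k * B (n - k) := by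
      intro k
      have hn : W n ≤ W k * W (n - k) := by
        have := hsub k (n - k)
        simpa using this
      have hnn : 0 ≤ ‖a k‖ * ‖b (n - k)‖ := by positivity
      calc ‖a k * b (n - k)‖ * W n = (‖a k‖ * ‖b (n - k)‖) * W n := by rw [norm_mul]
        _ ≤ (‖a k‖ * ‖b (n - k)‖) * (W k * W (n - k)) :=
            mul_le_mul_of_nonneg_left hn hnn
        _ = A k * B (n - k) := by simp only [hA, hB]; ring
    calc ‖conv a b n‖ * W n ≤ (∑' k, ‖a k * b (n - k)‖) * W n :=
          mul_le_mul_of_nonneg_right h2 (hW0 n)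
      _ = ∑' k, ‖a k * b (n - k)‖ * W n := h3
      _ ≤ ∑' k, A k * B (n - k) :=
          Summable.tsum_le_tsum h4 (hs.mul_right _) (hpairs.prod_factor n)
  have hsum : Summable fun n => ∑' k, A k * B (n - k) := hpairs.prod
  refine ⟨Summable.of_nonneg_of_le (fun n => mul_nonneg (norm_nonneg _) (hW0 n)) hle hsum, ?_⟩
  calc (∑' n, ‖conv a b n‖ * W n) ≤ ∑' n, ∑' k, A k * B (n - k) :=
        Summable.tsum_le_tsum hle
          (Summable.of_nonneg_of_le (fun n => mul_nonneg (norm_nonneg _) (hW0 n)) hle hsum) hsum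
    _ = (∑' k, A k) * (∑' k, B k) := tsum_conv hA' hB'

end Vale.Agent.Lib.P205.Tor
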