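import Mathlib
import Vale.Agent.Lib.P205.Tor.Conv

/-!
Rapidly decreasing real-symmetric sequences on `ℤ × ℤ`, which are the Fourier coefficients of
smooth real functions on the torus.
-/

open scoped BigOperators ComplexConjugate Real

namespace Vale.Agent.Lib.P205.Tor

/-- The size of a mode. -/
noncomputable def kn (k : K2) : ℝ := 1 + |(k.1 : ℝ)| + |(k.2 : ℝ)|

theorem one_le_kn (k : K2) : 1 ≤ kn k := by
  unfold kn
  have := abs_nonneg (k.1 : ℝ)
  have := abs_nonneg (k.2 : ℝ)
  linarith

theorem kn_pos (k : K2) : 0 < kn k := lt_of_lt_of_le zero_lt_one (one_le_kn k)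

theorem kn_neg (k : K2) : kn (-k) = kn k := by
  simp [kn]

theorem kn_zero : kn 0 = 1 := by
  simp [kn]

theorem kn_add_le (a b : K2) : kn (a + b) ≤ kn a * kn b := by
  unfold kn
  have h1 : |((a + b).1 : ℝ)| ≤ |(a.1 : ℝ)| + |(b.1 : ℝ)| := by
    simpa using abs_add_le (a.1 : ℝ) (b.1 : ℝ)
  have h2 : |((a + b).2 : ℝ)| ≤ |(a.2 : ℝ)| + |(b.2 : ℝ)| := by
    simpa using abs_add_le (a.2 : ℝ) (b.2 : ℝ)
  have h3 := abs_nonneg (a.1 : ℝ)
  have h4 := abs_nonneg (a.2 : ℝ)
  have h5 := abs_nonneg (b.1 : ℝ)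
  have h6 := abs_nonneg (b.2 : ℝ)
  nlinarith [mul_nonneg h3 h5, mul_nonneg h3 h6, mul_nonneg h4 h5, mul_nonneg h4 h6]

theorem kn_pow_add_le (m : ℕ) (a b : K2) : kn (a + b) ^ m ≤ kn a ^ m * kn b ^ m := by
  rw [← mul_pow]
  exact pow_le_pow_left₀ (kn_pos _).le (kn_add_le a b) m

theorem one_le_kn_pow (m : ℕ) (k : K2) : 1 ≤ kn k ^ m := one_le_pow₀ (one_le_kn k)

/-- Rapid decrease. -/
def Rapid (a : K2 → ℂ) : Prop := ∀ m : ℕ, Summable fun k => ‖a k‖ * kn k ^ m

theorem Rapid.add {a b : K2 → ℂ} (ha : Rapid a) (hb : Rapid b) :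
    Rapid (a + b) := by
  intro m
  refine Summable.of_nonneg_of_le
    (fun k => mul_nonneg (norm_nonneg _) (pow_nonneg (kn_pos k).le m)) (fun k => ?_)
    ((ha m).add (hb m))
  have h := norm_add_le (a k) (b k)
  have hk : 0 ≤ kn k ^ m := pow_nonneg (kn_pos k).le m
  simp only [Pi.add_apply]
  nlinarith

theorem Rapid.smul {a : K2 → ℂ} (c : ℝ) (ha : Rapid a) : Rapid (c • a) := by
  intro m
  have := (ha m).mul_left ‖c‖
  refine this.congr (fun k => ?_)
  simp
  ring

theorem Rapid.conv {a b : K2 → ℂ} (ha : Rapid a) (hb : Rapid b) : Rapid (conv a b) := by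
  intro m
  exact (conv_weight (one_le_kn_pow m) (kn_pow_add_le m) (ha m) (hb m)).1

/-- The space of Fourier coefficient sequences of smooth real functions. -/
def SS : Submodule ℝ (K2 → ℂ) where
  carrier := {a | Rapid a ∧ ∀ k, a (-k) = conj (a k)}
  add_mem' := by
    intro a b ha hb
    refine ⟨ha.1.add hb.1, fun k => ?_⟩
    simp [ha.2 k, hb.2 k]
  zero_mem' := by
    refine ⟨fun m => by simpa using (summable_zero : Summable fun _ : K2 => (0 : ℝ)), fun k => by simp⟩
  smul_mem' := by
    intro c a ha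
    refine ⟨ha.1.smul c, fun k => ?_⟩
    simp [ha.2 k]

/-- The space of Fourier coefficient sequences of smooth real functions. -/
abbrev S := ↥SS

theorem S.rapid (a : S) : Rapid a.1 := a.2.1

theorem S.sym (a : S) (k : K2) : a.1 (-k) = conj (a.1 k) := a.2.2 k

theorem S.summable_norm (a : S) : Summable fun k => ‖a.1 k‖ := by
  simpa using a.rapid 0

@[ext] theorem S.ext {a b : S} (h : ∀ k, a.1 k = b.1 k) : a = b :=
  Subtype.ext (funext h)

/-- The characters of the torus. -/
noncomputable def ch (k : K2) (p : ℝ × ℝ) : ℂ :=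
  Complex.exp (2 * π * Complex.I * ((k.1 : ℂ) * (p.1 : ℂ) + (k.2 : ℂ) * (p.2 : ℂ)))

theorem norm_ch (k : K2) (p : ℝ × ℝ) : ‖ch k p‖ = 1 := by
  unfold ch
  have : 2 * (π : ℂ) * Complex.I * ((k.1 : ℂ) * (p.1 : ℂ) + (k.2 : ℂ) * (p.2 : ℂ))
      = (((2 * π * ((k.1 : ℝ) * p.1 + (k.2 : ℝ) * p.2) : ℝ)) : ℂ) * Complex.I := by
    push_cast
    ring
  rw [this, Complex.norm_exp_ofReal_mul_I]

theorem ch_zero (p : ℝ × ℝ) : ch 0 p = 1 := by
  simp [ch]

theorem ch_add (a b : K2) (p : ℝ × ℝ) : ch (a + b) p = ch a p * ch b p := by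
  unfold ch
  rw [← Complex.exp_add]
  congr 1
  simp only [Prod.fst_add, Prod.snd_add]
  push_cast
  ring

theorem ch_neg (k : K2) (p : ℝ × ℝ) : ch (-k) p = conj (ch k p) := by
  unfold ch
  rw [← Complex.exp_conj]
  congr 1
  simp only [map_mul, map_add, Complex.conj_ofReal, Complex.conj_I, Prod.fst_neg, Prod.snd_neg,
    map_ofNat, map_intCast]
  push_cast
  ring

theorem ch_sub (a b : K2) (p : ℝ × ℝ) (n : K2) (h : n = a + b) : ch n p = ch a p * ch b p := by
  rw [h, ch_add]

/-- The complex value of the Fourier series. -/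
noncomputable def evC (a : S) (p : ℝ × ℝ) : ℂ := ∑' k, a.1 k * ch k p

theorem summable_term_norm (a : S) (p : ℝ × ℝ) : Summable fun k => ‖a.1 k * ch k p‖ := by
  simpa [norm_ch] using a.summable_norm

theorem summable_term (a : S) (p : ℝ × ℝ) : Summable fun k => a.1 k * ch k p :=
  (summable_term_norm a p).of_norm

theorem conj_evC (a : S) (p : ℝ × ℝ) : conj (evC a p) = evC a p := by
  unfold evC
  rw [Complex.conj_tsum]
  have h : ∀ k, conj (a.1 k * ch k p) = a.1 (-k) * ch (-k) p := by
    intro k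
    rw [map_mul, a.sym, ch_neg]
  simp only [h]
  exact (Equiv.neg K2).tsum_eq (fun k => a.1 k * ch k p)

/-- The real function with a given Fourier coefficient sequence. -/
noncomputable def ev (a : S) (p : ℝ × ℝ) : ℝ := (evC a p).re

theorem evC_eq (a : S) (p : ℝ × ℝ) : evC a p = (ev a p : ℂ) := by
  have := conj_evC a p
  rw [Complex.conj_eq_iff_real] at this
  obtain ⟨r, hr⟩ := this
  simp [ev, hr]

theorem ev_add (a b : S) (p : ℝ × ℝ) : ev (a + b) p = ev a p + ev b p := by
  have : evC (a + b) p = evC a p + evC b p := by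
    unfold evC
    rw [← (summable_term a p).tsum_add (summable_term b p)]
    congr 1
    funext k
    simp [add_mul]
  simp [ev, this]

theorem ev_smul (c : ℝ) (a : S) (p : ℝ × ℝ) : ev (c • a) p = c * ev a p := by
  have : evC (c • a) p = (c : ℂ) * evC a p := by
    unfold evC
    rw [← tsum_mul_left]
    congr 1
    funext k
    simp [mul_assoc]
  simp [ev, this]

theorem ev_zero (p : ℝ × ℝ) : ev (0 : S) p = 0 := by
  simp [ev, evC]

theorem ev_neg (a : S) (p : ℝ × ℝ) : ev (-a) p = - ev a p := by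
  have h := ev_add a (-a) p
  rw [add_neg_cancel, ev_zero] at h
  linarith

theorem ev_sub (a b : S) (p : ℝ × ℝ) : ev (a - b) p = ev a p - ev b p := by
  rw [sub_eq_add_neg, ev_add, ev_neg]
  ring

theorem abs_ev_le (a : S) (p : ℝ × ℝ) : |ev a p| ≤ ∑' k, ‖a.1 k‖ := by
  have h1 : |ev a p| ≤ ‖evC a p‖ := by
    rw [evC_eq]
    simp
  have h2 : ‖evC a p‖ ≤ ∑' k, ‖a.1 k * ch k p‖ := norm_tsum_le_tsum_norm (summable_term_norm a p)
  have h3 : (∑' k, ‖a.1 k * ch k p‖) = ∑' k, ‖a.1 k‖ := by
    congr 1
    funext k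
    simp [norm_ch]
  linarith

/-! ### Products -/

/-- The product of two coefficient sequences. -/
noncomputable def mulS (a b : S) : S :=
  ⟨conv a.1 b.1, a.rapid.conv b.rapid, fun n => by
    unfold conv
    rw [Complex.conj_tsum]
    have h : ∀ k, conj (a.1 k * b.1 (n - k)) = a.1 (-k) * b.1 (-n - -k) := by
      intro k
      rw [map_mul, ← a.sym, ← b.sym]
      have : -(n - k) = -n - -k := by
        ext <;> simp <;> ring
      rw [this]
    simp only [h]
    exact ((Equiv.neg K2).tsum_eq (fun k => a.1 k * b.1 (-n - k))).symm⟩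

theorem evC_mulS (a b : S) (p : ℝ × ℝ) : evC (mulS a b) p = evC a p * evC b p := by
  have hf := summable_term_norm a p
  have hg := summable_term_norm b p
  unfold evC
  rw [← tsum_conv hf hg]
  congr 1
  funext n
  show conv a.1 b.1 n * ch n p = _
  unfold conv
  rw [← tsum_mul_right]
  congr 1
  funext k
  have : ch n p = ch k p * ch (n - k) p := by
    rw [← ch_add]
    congr 1
    ext <;> simp
  rw [this]
  ring

theorem ev_mulS (a b : S) (p : ℝ × ℝ) : ev (mulS a b) p = ev a p * ev b p := by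
  have h := evC_mulS a b p
  rw [evC_eq, evC_eq a, evC_eq b] at h
  exact_mod_cast h

/-- The constant function with value one, as a sequence. -/
noncomputable def deltaZero (c : ℝ) : K2 → ℂ := fun k => if k = 0 then (c : ℂ) else 0

theorem summable_deltaZero (c : ℝ) (g : K2 → ℝ) : Summable fun k => ‖deltaZero c k‖ * g k := by
  refine summable_of_ne_finset_zero (s := {0}) (fun k hk => ?_)
  have : k ≠ 0 := by simpa using hk
  simp [deltaZero, this]

/-- Constants. -/
noncomputable def cst (c : ℝ) : S :=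
  ⟨deltaZero c, fun m => summable_deltaZero c _, fun k => by
    by_cases h : k = 0
    · simp [deltaZero, h]
    · have : -k ≠ 0 := by simpa using h
      simp [deltaZero, h, this]⟩

theorem evC_cst (c : ℝ) (p : ℝ × ℝ) : evC (cst c) p = c := by
  unfold evC
  rw [tsum_eq_single 0]
  · simp [cst, deltaZero, ch_zero]
  · intro k hk
    simp [cst, deltaZero, hk]

theorem ev_cst (c : ℝ) (p : ℝ × ℝ) : ev (cst c) p = c := by
  simp [ev, evC_cst]

/-! ### Injectivity of the evaluation -/

theorem integral_exp_int (n : ℤ) :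
    ∫ t in (0 : ℝ)..1, Complex.exp (2 * π * Complex.I * ((n : ℂ) * (t : ℂ))) =
      if n = 0 then 1 else 0 := by
  by_cases h : n = 0
  · simp [h]
  · simp only [h, if_false]
    have hc : (2 * (π : ℂ) * Complex.I * (n : ℂ)) ≠ 0 := by
      have h1 : (π : ℂ) ≠ 0 := by exact_mod_cast Real.pi_ne_zero
      have h2 : (n : ℂ) ≠ 0 := by exact_mod_cast h
      simp [h1, h2, Complex.I_ne_zero]
    have : ∀ t : ℝ, Complex.exp (2 * π * Complex.I * ((n : ℂ) * (t : ℂ))) =
        Complex.exp ((2 * (π : ℂ) * Complex.I * (n : ℂ)) * (t : ℂ)) := by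
      intro t
      ring_nf
    simp only [this]
    rw [integral_exp_mul_complex hc]
    have h1 : Complex.exp (2 * (π : ℂ) * Complex.I * (n : ℂ) * ((1 : ℝ) : ℂ)) = 1 := by
      have := Complex.exp_int_mul_two_pi_mul_I n
      rw [← this]
      congr 1
      push_cast
      ring
    rw [h1]
    simp

/-- Uniqueness of the coefficients of an absolutely convergent Fourier series on the circle. -/
theorem coeff_unique_one {c : ℤ → ℂ} (hc : Summable fun n => ‖c n‖)
    (h0 : ∀ t : ℝ, ∑' n, c n * Complex.exp (2 * π * Complex.I * ((n : ℂ) * (t : ℂ))) = 0)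
    (m : ℤ) : c m = 0 := by
  have hterm : ∀ (n : ℤ) (t : ℝ), ‖c n * Complex.exp (2 * π * Complex.I * ((n : ℂ) * (t : ℂ))) *
      Complex.exp (2 * π * Complex.I * (((-m : ℤ) : ℂ) * (t : ℂ)))‖ = ‖c n‖ := by
    intro n t
    have h1 : ∀ (j : ℤ), ‖Complex.exp (2 * π * Complex.I * ((j : ℂ) * (t : ℂ)))‖ = 1 := by
      intro j
      have : 2 * (π : ℂ) * Complex.I * ((j : ℂ) * (t : ℂ))
          = (((2 * π * ((j : ℝ) * t) : ℝ)) : ℂ) * Complex.I := by
        push_cast
        ring
      rw [this, Complex.norm_exp_ofReal_mul_I]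
    rw [norm_mul, norm_mul, h1, h1]
    ring
  have hsum : HasSum (fun n => ∫ t in (0 : ℝ)..1,
      c n * Complex.exp (2 * π * Complex.I * ((n : ℂ) * (t : ℂ))) *
      Complex.exp (2 * π * Complex.I * (((-m : ℤ) : ℂ) * (t : ℂ))))
      (∫ t in (0 : ℝ)..1, ∑' n, c n * Complex.exp (2 * π * Complex.I * ((n : ℂ) * (t : ℂ))) *
      Complex.exp (2 * π * Complex.I * (((-m : ℤ) : ℂ) * (t : ℂ)))) := by
    apply intervalIntegral.hasSum_integral_of_dominated_convergence
      (bound := fun n (_ : ℝ) => ‖c n‖)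
    · intro n
      exact (by fun_prop : Continuous fun t : ℝ =>
        c n * Complex.exp (2 * π * Complex.I * ((n : ℂ) * (t : ℂ))) *
        Complex.exp (2 * π * Complex.I * (((-m : ℤ) : ℂ) * (t : ℂ)))).aestronglyMeasurable
    · intro n
      exact Filter.Eventually.of_forall fun t _ => le_of_eq (hterm n t)
    · exact Filter.Eventually.of_forall fun t _ => hc
    · exact intervalIntegrable_const
    · refine Filter.Eventually.of_forall fun t _ => ?_
      have hs : Summable fun n : ℤ => c n * Complex.exp (2 * π * Complex.I * ((n : ℂ) * (t : ℂ))) *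
        Complex.exp (2 * π * Complex.I * (((-m : ℤ) : ℂ) * (t : ℂ))) :=
        Summable.of_norm (hc.congr (fun n => (hterm n t).symm))
      exact hs.hasSum
  have hzero : (∫ t in (0 : ℝ)..1, ∑' n, c n * Complex.exp (2 * π * Complex.I * ((n : ℂ) * (t : ℂ))) *
      Complex.exp (2 * π * Complex.I * (((-m : ℤ) : ℂ) * (t : ℂ)))) = 0 := by
    have : ∀ t : ℝ, ∑' n, c n * Complex.exp (2 * π * Complex.I * ((n : ℂ) * (t : ℂ))) *
      Complex.exp (2 * π * Complex.I * (((-m : ℤ) : ℂ) * (t : ℂ))) = 0 := by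
      intro t
      rw [tsum_mul_right, h0 t, zero_mul]
    rw [intervalIntegral.integral_congr (fun t _ => this t)]
    simp
  rw [hzero] at hsum
  have hval : ∀ n : ℤ, (∫ t in (0 : ℝ)..1,
      c n * Complex.exp (2 * π * Complex.I * ((n : ℂ) * (t : ℂ))) *
      Complex.exp (2 * π * Complex.I * (((-m : ℤ) : ℂ) * (t : ℂ)))) =
      if n = m then c n else 0 := by
    intro n
    have h1 : ∀ t : ℝ, c n * Complex.exp (2 * π * Complex.I * ((n : ℂ) * (t : ℂ))) *
      Complex.exp (2 * π * Complex.I * (((-m : ℤ) : ℂ) * (t : ℂ))) =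
      c n * Complex.exp (2 * π * Complex.I * (((n - m : ℤ) : ℂ) * (t : ℂ))) := by
      intro t
      rw [mul_assoc, ← Complex.exp_add]
      congr 2
      push_cast
      ring
    simp only [h1]
    rw [intervalIntegral.integral_const_mul, integral_exp_int]
    by_cases h : n = m
    · simp [h]
    · have : n - m ≠ 0 := sub_ne_zero.mpr h
      simp [h, this]
  simp only [hval] at hsum
  have hs2 : HasSum (fun n => if n = m then c n else 0) (c m) := by
    have := hasSum_ite_eq m (c m)
    convert this using 2 with n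
    by_cases h : n = m
    · simp [h]
    · simp [h]
  exact hs2.unique hsum

theorem ch_eq_prod (k : K2) (s t : ℝ) : ch k (s, t) =
    Complex.exp (2 * π * Complex.I * ((k.1 : ℂ) * (s : ℂ))) *
      Complex.exp (2 * π * Complex.I * ((k.2 : ℂ) * (t : ℂ))) := by
  unfold ch
  rw [← Complex.exp_add]
  congr 1
  ring

theorem evC_injective (a : S) (h : ∀ p, evC a p = 0) (k : K2) : a.1 k = 0 := by
  -- first fix the second variable
  have hs : Summable fun x : ℤ × ℤ => ‖a.1 x‖ := a.summable_norm
  have hinner : ∀ n : ℤ, Summable fun l : ℤ => ‖a.1 (n, l)‖ := fun n => hs.prod_factor n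
  have houter : Summable fun n : ℤ => ∑' l : ℤ, ‖a.1 (n, l)‖ := hs.prod
  have hterm : ∀ (j : ℤ) (t : ℝ), ‖Complex.exp (2 * π * Complex.I * ((j : ℂ) * (t : ℂ)))‖ = 1 := by
    intro j t
    have : 2 * (π : ℂ) * Complex.I * ((j : ℂ) * (t : ℂ))
        = (((2 * π * ((j : ℝ) * t) : ℝ)) : ℂ) * Complex.I := by
      push_cast
      ring
    rw [this, Complex.norm_exp_ofReal_mul_I]
  have step1 : ∀ (t : ℝ) (n : ℤ),
      ∑' l : ℤ, a.1 (n, l) * Complex.exp (2 * π * Complex.I * ((l : ℂ) * (t : ℂ))) = 0 := by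
    intro t
    apply coeff_unique_one
      (c := fun n : ℤ => ∑' l : ℤ, a.1 (n, l) * Complex.exp (2 * π * Complex.I * ((l : ℂ) * (t : ℂ))))
    · refine Summable.of_nonneg_of_le (fun n => norm_nonneg _) (fun n => ?_) houter
      have hs1 : Summable fun l : ℤ =>
          ‖a.1 (n, l) * Complex.exp (2 * π * Complex.I * ((l : ℂ) * (t : ℂ)))‖ := by
        simpa [hterm] using hinner n
      refine (norm_tsum_le_tsum_norm hs1).trans (le_of_eq ?_)
      congr 1
      funext l
      simp [hterm]
    · intro s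
      have hp := h (s, t)
      unfold evC at hp
      have hsum := summable_term a (s, t)
      rw [hsum.tsum_prod] at hp
      rw [← hp]
      congr 1
      funext n
      rw [← tsum_mul_right]
      congr 1
      funext l
      rw [ch_eq_prod]
      ring
  have step2 : ∀ n : ℤ, ∀ l : ℤ, a.1 (n, l) = 0 := by
    intro n l
    exact coeff_unique_one (c := fun l : ℤ => a.1 (n, l)) (hinner n) (fun t => step1 t n) l
  exact step2 k.1 k.2

theorem ev_injective {a b : S} (h : ∀ p, ev a p = ev b p) : a = b := by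
  have h0 : ∀ p, evC (a - b) p = 0 := by
    intro p
    rw [evC_eq, ev_sub, h p]
    simp
  apply S.ext
  intro k
  have := evC_injective (a - b) h0 k
  have h2 : (a - b).1 k = a.1 k - b.1 k := rfl
  rw [h2] at this
  exact sub_eq_zero.mp this

/-! ### The ring structure -/

noncomputable instance : CommRing S :=
  { (inferInstance : AddCommGroup S) with
    mul := mulS
    one := cst 1
    mul_assoc := fun a b c => ev_injective fun p => by
      show ev (mulS (mulS a b) c) p = ev (mulS a (mulS b c)) p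
      simp only [ev_mulS]
      ring
    one_mul := fun a => ev_injective fun p => by
      show ev (mulS (cst 1) a) p = ev a p
      simp [ev_mulS, ev_cst]
    mul_one := fun a => ev_injective fun p => by
      show ev (mulS a (cst 1)) p = ev a p
      simp [ev_mulS, ev_cst]
    left_distrib := fun a b c => ev_injective fun p => by
      show ev (mulS a (b + c)) p = ev (mulS a b + mulS a c) p
      simp only [ev_mulS, ev_add]
      ring
    right_distrib := fun a b c => ev_injective fun p => by
      show ev (mulS (a + b) c) p = ev (mulS a c + mulS b c) p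
      simp only [ev_mulS, ev_add]
      ring
    zero_mul := fun a => ev_injective fun p => by
      show ev (mulS 0 a) p = ev 0 p
      simp [ev_mulS, ev_zero]
    mul_zero := fun a => ev_injective fun p => by
      show ev (mulS a 0) p = ev 0 p
      simp [ev_mulS, ev_zero]
    mul_comm := fun a b => ev_injective fun p => by
      show ev (mulS a b) p = ev (mulS b a) p
      simp only [ev_mulS]
      ring }

theorem mul_apply (a b : S) (n : K2) : (a * b).1 n = conv a.1 b.1 n := rfl

theorem ev_mul (a b : S) (p : ℝ × ℝ) : ev (a * b) p = ev a p * ev b p := ev_mulS a b p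

theorem one_def : (1 : S) = cst 1 := rfl

theorem ev_one (p : ℝ × ℝ) : ev (1 : S) p = 1 := by
  rw [one_def, ev_cst]

theorem ev_pow (a : S) (n : ℕ) (p : ℝ × ℝ) : ev (a ^ n) p = ev a p ^ n := by
  induction n with
  | zero => simp [ev_one]
  | succ n ih => rw [pow_succ, ev_mul, ih, pow_succ]

noncomputable instance : Algebra ℝ S := Algebra.ofModule
  (fun r x y => ev_injective fun p => by
    simp only [ev_mul, ev_smul]
    ring)
  (fun r x y => ev_injective fun p => by
    simp only [ev_mul, ev_smul]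
    ring)

theorem smul_eq_cst_mul (c : ℝ) (a : S) : c • a = cst c * a :=
  ev_injective fun p => by
    simp only [ev_mul, ev_smul, ev_cst]

/-- The mean of a function on the torus. -/
noncomputable def mean (a : S) : ℝ := (a.1 0).re

theorem mean_add (a b : S) : mean (a + b) = mean a + mean b := by
  show ((a.1 0 + b.1 0)).re = _
  simp [mean]

theorem mean_smul (c : ℝ) (a : S) : mean (c • a) = c * mean a := by
  show ((c • a.1 0)).re = _
  simp [mean]

theorem mean_sub (a b : S) : mean (a - b) = mean a - mean b := by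
  show ((a.1 0 - b.1 0)).re = _
  simp [mean]

theorem mean_neg (a : S) : mean (-a) = - mean a := by
  show ((- a.1 0)).re = _
  simp [mean]

theorem mean_cst (c : ℝ) : mean (cst c) = c := by
  show ((deltaZero c 0)).re = _
  simp [deltaZero]

theorem coeff_zero_eq (a : S) : a.1 0 = (mean a : ℂ) := by
  have h := a.sym 0
  rw [neg_zero] at h
  have h2 := Complex.conj_eq_iff_real.mp h.symm
  obtain ⟨r, hr⟩ := h2
  simp [mean, hr]

end Vale.Agent.Lib.P205.Tor
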