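import Mathlib
import Vale.Agent.Lib.P205.Tor.Seq

/-!
Fourier multipliers, directional derivatives, and smoothness of the functions attached to
rapidly decreasing sequences.
-/

open scoped BigOperators ComplexConjugate Real ContDiff

namespace Vale.Agent.Lib.P205.Tor

/-- Polynomial bound for a symbol. -/
def PolyB (m : K2 → ℂ) : Prop := ∃ (C : ℝ) (K : ℕ), ∀ k, ‖m k‖ ≤ C * kn k ^ K

theorem Rapid.mul_symbol {m a : K2 → ℂ} (hm : PolyB m) (ha : Rapid a) :
    Rapid (fun k => m k * a k) := by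
  obtain ⟨C, K, h⟩ := hm
  intro j
  have hs := (ha (j + K)).mul_left C
  refine Summable.of_nonneg_of_le
    (fun k => mul_nonneg (norm_nonneg _) (pow_nonneg (kn_pos k).le j)) (fun k => ?_) hs
  have hk : 0 ≤ kn k ^ j := pow_nonneg (kn_pos k).le j
  have h1 := h k
  calc ‖m k * a k‖ * kn k ^ j = ‖m k‖ * ‖a k‖ * kn k ^ j := by rw [norm_mul]
    _ ≤ (C * kn k ^ K) * ‖a k‖ * kn k ^ j := by
        apply mul_le_mul_of_nonneg_right _ hk
        exact mul_le_mul_of_nonneg_right h1 (norm_nonneg _)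
    _ = C * (‖a k‖ * kn k ^ (j + K)) := by
        rw [pow_add]
        ring

/-- A Fourier multiplier. -/
noncomputable def act (m : K2 → ℂ) (h1 : PolyB m) (h2 : ∀ k, m (-k) = conj (m k)) : S →ₗ[ℝ] S where
  toFun a := ⟨fun k => m k * a.1 k, Rapid.mul_symbol h1 a.rapid, fun k => by
    simp only [h2, a.sym, map_mul]⟩
  map_add' a b := by
    apply S.ext
    intro k
    show m k * (a.1 k + b.1 k) = m k * a.1 k + m k * b.1 k
    ring
  map_smul' c a := by
    apply S.ext
    intro k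
    show m k * (c • a.1 k) = c • (m k * a.1 k)
    simp [mul_left_comm]

theorem act_apply (m : K2 → ℂ) (h1 : PolyB m) (h2 : ∀ k, m (-k) = conj (m k)) (a : S) (k : K2) :
    (act m h1 h2 a).1 k = m k * a.1 k := rfl

/-- The symbol of the derivative in direction `(x, y)`. -/
noncomputable def dsym (x y : ℝ) (k : K2) : ℂ :=
  2 * π * Complex.I * ((x * (k.1 : ℝ) + y * (k.2 : ℝ) : ℝ) : ℂ)

theorem norm_dsym (x y : ℝ) (k : K2) : ‖dsym x y k‖ = 2 * π * |x * (k.1 : ℝ) + y * (k.2 : ℝ)| := by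
  unfold dsym
  have h : ‖(2 * π * Complex.I : ℂ)‖ = 2 * π := by
    simp [abs_of_pos Real.pi_pos]
  rw [norm_mul, h, Complex.norm_real, Real.norm_eq_abs]

theorem abs_lin_le (x y : ℝ) (k : K2) : |x * (k.1 : ℝ) + y * (k.2 : ℝ)| ≤ (|x| + |y|) * kn k := by
  have h1 : |x * (k.1 : ℝ) + y * (k.2 : ℝ)| ≤ |x| * |(k.1 : ℝ)| + |y| * |(k.2 : ℝ)| := by
    refine (abs_add_le _ _).trans ?_
    rw [abs_mul, abs_mul]
  have h3 := abs_nonneg x
  have h4 := abs_nonneg y
  have h5 := abs_nonneg (k.1 : ℝ)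
  have h6 := abs_nonneg (k.2 : ℝ)
  unfold kn
  nlinarith [mul_nonneg h3 h5, mul_nonneg h3 h6, mul_nonneg h4 h5, mul_nonneg h4 h6]

theorem norm_dsym_le (x y : ℝ) (k : K2) : ‖dsym x y k‖ ≤ 2 * π * (|x| + |y|) * kn k := by
  rw [norm_dsym]
  have h := abs_lin_le x y k
  have h0 : 0 ≤ 2 * π := by positivity
  calc 2 * π * |x * (k.1 : ℝ) + y * (k.2 : ℝ)| ≤ 2 * π * ((|x| + |y|) * kn k) :=
        mul_le_mul_of_nonneg_left h h0
    _ = 2 * π * (|x| + |y|) * kn k := by ring

theorem dsym_poly (x y : ℝ) : PolyB (dsym x y) :=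
  ⟨2 * π * (|x| + |y|), 1, fun k => by simpa using norm_dsym_le x y k⟩

theorem dsym_sym (x y : ℝ) (k : K2) : dsym x y (-k) = conj (dsym x y k) := by
  unfold dsym
  simp only [Prod.fst_neg, Prod.snd_neg, map_mul, Complex.conj_I, Complex.conj_ofReal, map_ofNat]
  push_cast
  ring

theorem dsym_add (x y : ℝ) (a b : K2) : dsym x y (a + b) = dsym x y a + dsym x y b := by
  unfold dsym
  simp only [Prod.fst_add, Prod.snd_add]
  push_cast
  ring

theorem dsym_zero (x y : ℝ) : dsym x y 0 = 0 := by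
  simp [dsym]

/-- The derivative in direction `(x, y)`. -/
noncomputable def Dir (x y : ℝ) : S →ₗ[ℝ] S := act (dsym x y) (dsym_poly x y) (dsym_sym x y)

theorem Dir_apply (x y : ℝ) (a : S) (k : K2) : (Dir x y a).1 k = dsym x y k * a.1 k := rfl

theorem Dir_comm (x y x' y' : ℝ) (a : S) : Dir x y (Dir x' y' a) = Dir x' y' (Dir x y a) := by
  apply S.ext
  intro k
  simp only [Dir_apply]
  ring

theorem Dir_linear (x y : ℝ) (a : S) : Dir x y a = x • Dir 1 0 a + y • Dir 0 1 a := by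
  apply S.ext
  intro k
  show dsym x y k * a.1 k = x • (dsym 1 0 k * a.1 k) + y • (dsym 0 1 k * a.1 k)
  unfold dsym
  simp only [Complex.real_smul]
  push_cast
  ring

theorem add_coe (a b : S) (k : K2) : (a + b).1 k = a.1 k + b.1 k := rfl

theorem Dir_mul (x y : ℝ) (a b : S) : Dir x y (a * b) = Dir x y a * b + a * Dir x y b := by
  apply S.ext
  intro n
  rw [add_coe, Dir_apply, mul_apply, mul_apply, mul_apply]
  unfold conv
  have hs1 : Summable fun k => (Dir x y a).1 k * b.1 (n - k) :=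
    (summable_inner (Dir x y a).summable_norm b.summable_norm n).of_norm
  have hs2 : Summable fun k => a.1 k * (Dir x y b).1 (n - k) :=
    (summable_inner a.summable_norm (Dir x y b).summable_norm n).of_norm
  rw [← hs1.tsum_add hs2, ← tsum_mul_left]
  congr 1
  funext k
  simp only [Dir_apply]
  have : dsym x y n = dsym x y k + dsym x y (n - k) := by
    rw [← dsym_add]
    congr 1
    ext <;> simp
  rw [this]
  ring

theorem Dir_cst (x y c : ℝ) : Dir x y (cst c) = 0 := by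
  apply S.ext
  intro k
  rw [Dir_apply]
  by_cases h : k = 0
  · rw [h, dsym_zero]
    simp
  · show _ * (deltaZero c k) = 0
    simp [deltaZero, h]

theorem Dir_one (x y : ℝ) : Dir x y (1 : S) = 0 := Dir_cst x y 1

theorem mean_Dir (x y : ℝ) (a : S) : mean (Dir x y a) = 0 := by
  unfold mean
  rw [Dir_apply, dsym_zero]
  simp

/-- Bounded continuous functions: a bound for the mean. -/
theorem abs_mean_le (a : S) : |mean a| ≤ ‖a.1 0‖ := Complex.abs_re_le_norm _

/-! ### Differentiability -/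

/-- The linear form attached to a mode. -/
noncomputable def ell (k : K2) : (ℝ × ℝ) →L[ℝ] ℂ :=
  ((k.1 : ℝ) • (Complex.ofRealCLM.comp (ContinuousLinearMap.fst ℝ ℝ ℝ))) +
    ((k.2 : ℝ) • (Complex.ofRealCLM.comp (ContinuousLinearMap.snd ℝ ℝ ℝ)))

theorem ell_apply (k : K2) (v : ℝ × ℝ) :
    ell k v = (((k.1 : ℝ) * v.1 + (k.2 : ℝ) * v.2 : ℝ) : ℂ) := by
  simp [ell]

theorem norm_ell_le (k : K2) : ‖ell k‖ ≤ kn k := by
  refine ContinuousLinearMap.opNorm_le_bound _ (kn_pos k).le (fun v => ?_)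
  rw [ell_apply, Complex.norm_real, Real.norm_eq_abs]
  have h1 : |(k.1 : ℝ) * v.1 + (k.2 : ℝ) * v.2| ≤ |(k.1 : ℝ)| * |v.1| + |(k.2 : ℝ)| * |v.2| := by
    refine (abs_add_le _ _).trans ?_
    rw [abs_mul, abs_mul]
  have hv1 : |v.1| ≤ ‖v‖ := by
    simpa [Real.norm_eq_abs] using norm_fst_le v
  have hv2 : |v.2| ≤ ‖v‖ := by
    simpa [Real.norm_eq_abs] using norm_snd_le v
  have h5 := abs_nonneg (k.1 : ℝ)
  have h6 := abs_nonneg (k.2 : ℝ)
  have h7 := norm_nonneg v
  unfold kn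
  nlinarith [mul_le_mul_of_nonneg_left hv1 h5, mul_le_mul_of_nonneg_left hv2 h6]

theorem hasFDerivAt_ch (k : K2) (p : ℝ × ℝ) :
    HasFDerivAt (ch k) (ch k p • ((2 * π * Complex.I : ℂ) • ell k)) p := by
  have h1 : HasFDerivAt (fun q : ℝ × ℝ => (2 * π * Complex.I : ℂ) * ell k q)
      ((2 * π * Complex.I : ℂ) • ell k) p := by
    have := (ell k).hasFDerivAt (x := p)
    exact this.const_mul _
  have h2 := h1.cexp
  have h3 : (fun q : ℝ × ℝ => Complex.exp ((2 * π * Complex.I : ℂ) * ell k q)) = ch k := by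
    funext q
    unfold ch
    rw [ell_apply]
    push_cast
    ring_nf
  rw [h3] at h2
  have h4 : Complex.exp ((2 * π * Complex.I : ℂ) * ell k p) = ch k p := by
    rw [← h3]
  rw [h4] at h2
  exact h2

/-- The derivative of a term of the Fourier series. -/
noncomputable def termD (a : S) (p : ℝ × ℝ) (k : K2) : (ℝ × ℝ) →L[ℝ] ℂ :=
  (a.1 k * ch k p) • ((2 * π * Complex.I : ℂ) • ell k)

theorem norm_termD_le (a : S) (p : ℝ × ℝ) (k : K2) :
    ‖termD a p k‖ ≤ 2 * π * (‖a.1 k‖ * kn k) := by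
  unfold termD
  rw [norm_smul, norm_smul, norm_mul, norm_ch]
  have h1 : ‖(2 * π * Complex.I : ℂ)‖ = 2 * π := by
    simp [abs_of_pos Real.pi_pos]
  rw [h1]
  have h2 := norm_ell_le k
  have h3 : 0 ≤ ‖a.1 k‖ := norm_nonneg _
  have h4 : 0 < 2 * π := by positivity
  calc ‖a.1 k‖ * 1 * (2 * π * ‖ell k‖) = 2 * π * (‖a.1 k‖ * ‖ell k‖) := by ring
    _ ≤ 2 * π * (‖a.1 k‖ * kn k) := by
        apply mul_le_mul_of_nonneg_left _ h4.le
        exact mul_le_mul_of_nonneg_left h2 h3

theorem summable_bound (a : S) : Summable fun k => 2 * π * (‖a.1 k‖ * kn k) := by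
  have := a.rapid 1
  simp only [pow_one] at this
  exact this.mul_left _

theorem termD_apply (a : S) (p : ℝ × ℝ) (k : K2) (v : ℝ × ℝ) :
    termD a p k v = (Dir v.1 v.2 a).1 k * ch k p := by
  unfold termD
  rw [Dir_apply]
  simp only [smul_apply, smul_eq_mul, ell_apply, dsym]
  push_cast
  ring

theorem hasFDerivAt_evC (a : S) (p : ℝ × ℝ) :
    ∃ D : (ℝ × ℝ) →L[ℝ] ℂ, HasFDerivAt (evC a) D p ∧ ∀ v, D v = evC (Dir v.1 v.2 a) p := by
  have hsum : Summable fun k => termD a p k :=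
    Summable.of_norm_bounded (summable_bound a) (norm_termD_le a p)
  refine ⟨∑' k, termD a p k, ?_, fun v => ?_⟩
  · have := hasFDerivAt_tsum (𝕜 := ℝ) (f := fun k q => a.1 k * ch k q)
      (f' := fun k q => termD a q k) (u := fun k => 2 * π * (‖a.1 k‖ * kn k))
      (x₀ := p) (summable_bound a)
      (fun k q => by
        have h := hasFDerivAt_ch k q
        have h2 := h.const_mul (a.1 k)
        have e : termD a q k = a.1 k • ch k q • ((2 * π * Complex.I : ℂ) • ell k) := by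
          unfold termD
          rw [mul_smul]
        rw [e]
        exact h2)
      (fun k q => norm_termD_le a q k) (summable_term a p) p
    exact this
  · have := (ContinuousLinearMap.apply ℝ ℂ v).map_tsum hsum
    simp only [ContinuousLinearMap.apply_apply] at this
    rw [this]
    unfold evC
    congr 1
    funext k
    exact termD_apply a p k v

/-- The derivative of the real function attached to a sequence. -/
noncomputable def dev (a : S) (p : ℝ × ℝ) : (ℝ × ℝ) →L[ℝ] ℝ :=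
  (ev (Dir 1 0 a) p) • (ContinuousLinearMap.fst ℝ ℝ ℝ) +
    (ev (Dir 0 1 a) p) • (ContinuousLinearMap.snd ℝ ℝ ℝ)

theorem dev_apply (a : S) (p v : ℝ × ℝ) : dev a p v = ev (Dir v.1 v.2 a) p := by
  rw [Dir_linear v.1 v.2 a, ev_add, ev_smul, ev_smul]
  simp [dev]
  ring

theorem hasFDerivAt_ev (a : S) (p : ℝ × ℝ) : HasFDerivAt (ev a) (dev a p) p := by
  obtain ⟨D, hD, hv⟩ := hasFDerivAt_evC a p
  have h := Complex.reCLM.hasFDerivAt.comp p hD
  have h2 : (Complex.reCLM.comp D) = dev a p := by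
    ext <;> simp [dev_apply, hv, ev]
  rw [h2] at h
  exact h

theorem fderiv_ev (a : S) : fderiv ℝ (ev a) = dev a :=
  funext fun p => (hasFDerivAt_ev a p).fderiv

theorem differentiable_ev (a : S) : Differentiable ℝ (ev a) :=
  fun p => (hasFDerivAt_ev a p).differentiableAt

theorem contDiff_ev_nat (n : ℕ) : ∀ a : S, ContDiff ℝ n (ev a) := by
  induction n with
  | zero =>
    intro a
    exact contDiff_zero.mpr (differentiable_ev a).continuous
  | succ n ih =>
    intro a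
    have : ((n + 1 : ℕ) : WithTop ℕ∞) = (n : WithTop ℕ∞) + 1 := by
      push_cast
      rfl
    rw [this, contDiff_succ_iff_fderiv]
    refine ⟨differentiable_ev a, by simp, ?_⟩
    rw [fderiv_ev]
    unfold dev
    exact ((ih _).smul contDiff_const).add ((ih _).smul contDiff_const)

theorem contDiff_ev (a : S) : ContDiff ℝ ∞ (ev a) :=
  contDiff_infty.mpr fun n => contDiff_ev_nat n a

theorem ch_periodic_fst (k : K2) (p : ℝ × ℝ) : ch k (p.1 + 1, p.2) = ch k p := by
  unfold ch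
  have h1 : 2 * (π : ℂ) * Complex.I * ((k.1 : ℂ) * (((p.1 + 1 : ℝ)) : ℂ) + (k.2 : ℂ) * (p.2 : ℂ)) =
      2 * (π : ℂ) * Complex.I * ((k.1 : ℂ) * (p.1 : ℂ) + (k.2 : ℂ) * (p.2 : ℂ)) +
        (k.1 : ℂ) * (2 * π * Complex.I) := by
    push_cast
    ring
  simp only
  rw [h1, Complex.exp_add, Complex.exp_int_mul_two_pi_mul_I, mul_one]

theorem ch_periodic_snd (k : K2) (p : ℝ × ℝ) : ch k (p.1, p.2 + 1) = ch k p := by
  unfold ch
  have h1 : 2 * (π : ℂ) * Complex.I * ((k.1 : ℂ) * (p.1 : ℂ) + (k.2 : ℂ) * (((p.2 + 1 : ℝ)) : ℂ)) =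
      2 * (π : ℂ) * Complex.I * ((k.1 : ℂ) * (p.1 : ℂ) + (k.2 : ℂ) * (p.2 : ℂ)) +
        (k.2 : ℂ) * (2 * π * Complex.I) := by
    push_cast
    ring
  simp only
  rw [h1, Complex.exp_add, Complex.exp_int_mul_two_pi_mul_I, mul_one]

theorem ev_periodic_fst (a : S) (s t : ℝ) : ev a (s + 1, t) = ev a (s, t) := by
  unfold ev evC
  congr 2
  funext k
  rw [ch_periodic_fst k (s, t)]

theorem ev_periodic_snd (a : S) (s t : ℝ) : ev a (s, t + 1) = ev a (s, t) := by
  unfold ev evC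
  congr 2
  funext k
  rw [ch_periodic_snd k (s, t)]

/-! ### Two trigonometric elements -/

/-- The sequence of `cos (2 π t)`. -/
noncomputable def cosSeq : K2 → ℂ := fun k =>
  if k = (0, 1) then (1 / 2 : ℂ) else if k = (0, -1) then (1 / 2 : ℂ) else 0

/-- The sequence of `sin (2 π t)`. -/
noncomputable def sinSeq : K2 → ℂ := fun k =>
  if k = (0, 1) then (-Complex.I / 2 : ℂ) else if k = (0, -1) then (Complex.I / 2 : ℂ) else 0

theorem cosSeq_zero {k : K2} (h : k ∉ ({(0, 1), (0, -1)} : Finset K2)) : cosSeq k = 0 := by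
  simp only [Finset.mem_insert, Finset.mem_singleton, not_or] at h
  simp [cosSeq, h.1, h.2]

theorem sinSeq_zero {k : K2} (h : k ∉ ({(0, 1), (0, -1)} : Finset K2)) : sinSeq k = 0 := by
  simp only [Finset.mem_insert, Finset.mem_singleton, not_or] at h
  simp [sinSeq, h.1, h.2]

theorem neg_eq_pair1 {k : K2} : (-k = (0, 1)) ↔ k = (0, -1) := by
  constructor
  · intro h
    have := congrArg Neg.neg h
    simpa using this
  · rintro rfl
    simp

theorem neg_eq_pair2 {k : K2} : (-k = (0, -1)) ↔ k = (0, 1) := by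
  constructor
  · intro h
    have := congrArg Neg.neg h
    simpa using this
  · rintro rfl
    simp

/-- The element `cos (2 π t)`. -/
noncomputable def C0 : S :=
  ⟨cosSeq, fun m => summable_of_ne_finset_zero (s := {(0, 1), (0, -1)}) (fun k hk => by
      simp [cosSeq_zero hk]), fun k => by
    by_cases h1 : k = (0, 1)
    · subst h1
      simp [cosSeq, map_ofNat]
    · by_cases h2 : k = (0, -1)
      · subst h2
        simp [cosSeq, map_ofNat]
      · simp [cosSeq, h1, h2, neg_eq_pair1, neg_eq_pair2]⟩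

/-- The element `sin (2 π t)`. -/
noncomputable def S0 : S :=
  ⟨sinSeq, fun m => summable_of_ne_finset_zero (s := {(0, 1), (0, -1)}) (fun k hk => by
      simp [sinSeq_zero hk]), fun k => by
    by_cases h1 : k = (0, 1)
    · subst h1
      simp [sinSeq, Complex.conj_I, map_ofNat]
    · by_cases h2 : k = (0, -1)
      · subst h2
        simp [sinSeq, Complex.conj_I, map_ofNat]
      · simp [sinSeq, h1, h2, neg_eq_pair1, neg_eq_pair2]⟩

theorem ch_01 (p : ℝ × ℝ) : ch (0, 1) p = Complex.exp (((2 * π * p.2 : ℝ) : ℂ) * Complex.I) := by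
  unfold ch
  congr 1
  push_cast
  ring

theorem ch_0m1 (p : ℝ × ℝ) :
    ch (0, -1) p = Complex.exp (-(((2 * π * p.2 : ℝ) : ℂ) * Complex.I)) := by
  unfold ch
  congr 1
  push_cast
  ring

theorem evC_C0 (p : ℝ × ℝ) : evC C0 p = Real.cos (2 * π * p.2) := by
  unfold evC
  rw [tsum_eq_sum (s := {(0, 1), (0, -1)}) (fun k hk => by
    show cosSeq k * ch k p = 0
    simp [cosSeq_zero hk])]
  have hne : ((0, 1) : K2) ≠ (0, -1) := by simp
  rw [Finset.sum_pair hne]
  show cosSeq (0, 1) * ch (0, 1) p + cosSeq (0, -1) * ch (0, -1) p = _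
  have h1 : cosSeq (0, 1) = 1 / 2 := by simp [cosSeq]
  have h2 : cosSeq (0, -1) = 1 / 2 := by simp [cosSeq]
  rw [h1, h2, ch_01, ch_0m1, Complex.ofReal_cos, Complex.cos]
  rw [neg_mul] 
  ring

theorem evC_S0 (p : ℝ × ℝ) : evC S0 p = Real.sin (2 * π * p.2) := by
  unfold evC
  rw [tsum_eq_sum (s := {(0, 1), (0, -1)}) (fun k hk => by
    show sinSeq k * ch k p = 0
    simp [sinSeq_zero hk])]
  have hne : ((0, 1) : K2) ≠ (0, -1) := by simp
  rw [Finset.sum_pair hne]
  show sinSeq (0, 1) * ch (0, 1) p + sinSeq (0, -1) * ch (0, -1) p = _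
  have h1 : sinSeq (0, 1) = -Complex.I / 2 := by simp [sinSeq]
  have h2 : sinSeq (0, -1) = Complex.I / 2 := by simp [sinSeq]
  rw [h1, h2, ch_01, ch_0m1, Complex.ofReal_sin, Complex.sin]
  rw [neg_mul]
  have hI : Complex.I * Complex.I = -1 := Complex.I_mul_I
  ring_nf

theorem ev_C0 (p : ℝ × ℝ) : ev C0 p = Real.cos (2 * π * p.2) := by
  simp [ev, evC_C0, -Complex.ofReal_cos]

theorem ev_S0 (p : ℝ × ℝ) : ev S0 p = Real.sin (2 * π * p.2) := by
  simp [ev, evC_S0, -Complex.ofReal_sin]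

end Vale.Agent.Lib.P205.Tor
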