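import Mathlib
import Vale.Agent.Lib.P205.Tor.Deriv

/-!
Weighted `ℓ¹` Banach algebras of Fourier coefficient sequences.
-/

open scoped BigOperators ComplexConjugate Real ContDiff

namespace Vale.Agent.Lib.P205.Tor

/-- A submultiplicative weight of superpolynomial growth. -/
structure Wt where
  w : K2 → ℝ
  one_le : ∀ k, 1 ≤ w k
  w_zero : w 0 = 1
  sub : ∀ a b, w (a + b) ≤ w a * w b
  neg : ∀ k, w (-k) = w k
  superpoly : ∀ m : ℕ, ∃ C : ℝ, ∀ k, kn k ^ m ≤ C * w k

namespace Wt

variable (W : Wt)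

/-- The weight counting `j` extra derivatives. -/
noncomputable def wj (j : ℕ) (k : K2) : ℝ := W.w k * kn k ^ j

theorem one_le_wj (j : ℕ) (k : K2) : 1 ≤ W.wj j k :=
  one_le_mul_of_one_le_of_one_le (W.one_le k) (one_le_kn_pow j k)

theorem wj_pos (j : ℕ) (k : K2) : 0 < W.wj j k := lt_of_lt_of_le zero_lt_one (W.one_le_wj j k)

theorem wj_zero (j : ℕ) : W.wj j 0 = 1 := by
  simp [wj, W.w_zero, kn_zero]

theorem wj_sub (j : ℕ) (a b : K2) : W.wj j (a + b) ≤ W.wj j a * W.wj j b := by
  unfold wj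
  have h1 := W.sub a b
  have h2 := kn_pow_add_le j a b
  have h3 : 0 ≤ kn (a + b) ^ j := pow_nonneg (kn_pos _).le j
  have h4 : 0 ≤ W.w a * W.w b := mul_nonneg (le_trans zero_le_one (W.one_le a))
    (le_trans zero_le_one (W.one_le b))
  calc W.w (a + b) * kn (a + b) ^ j ≤ (W.w a * W.w b) * (kn a ^ j * kn b ^ j) :=
        mul_le_mul h1 h2 h3 h4
    _ = _ := by ring

theorem wj_neg (j : ℕ) (k : K2) : W.wj j (-k) = W.wj j k := by
  simp [wj, W.neg, kn_neg]

theorem wj_mono {i j : ℕ} (h : i ≤ j) (k : K2) : W.wj i k ≤ W.wj j k := by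
  unfold wj
  apply mul_le_mul_of_nonneg_left _ (le_trans zero_le_one (W.one_le k))
  exact pow_le_pow_right₀ (one_le_kn k) h

theorem wj_succ (j : ℕ) (k : K2) : W.wj (j + 1) k = W.wj j k * kn k := by
  simp [wj, pow_succ, mul_assoc]

theorem wj_succ2 (j : ℕ) (k : K2) : W.wj (j + 2) k = W.wj j k * kn k ^ 2 := by
  simp [wj, pow_add, mul_assoc]

end Wt

/-- The coefficient sequences of finite weighted `ℓ¹` norm. -/
def Xsub (W : Wt) (j : ℕ) : Submodule ℝ S where
  carrier := {a | Summable fun k => ‖a.1 k‖ * W.wj j k}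
  add_mem' := by
    intro a b ha hb
    refine Summable.of_nonneg_of_le
      (fun k => mul_nonneg (norm_nonneg _) (W.wj_pos j k).le) (fun k => ?_) (Summable.add ha hb)
    have h := norm_add_le (a.1 k) (b.1 k)
    have hk := (W.wj_pos j k).le
    show ‖a.1 k + b.1 k‖ * W.wj j k ≤ _
    nlinarith
  zero_mem' := by
    show Summable fun k => ‖(0 : K2 → ℂ) k‖ * W.wj j k
    simpa using (summable_zero : Summable fun _ : K2 => (0 : ℝ))
  smul_mem' := by
    intro c a ha
    have := Summable.mul_left ‖c‖ ha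
    refine this.congr (fun k => ?_)
    show ‖c‖ * (‖a.1 k‖ * W.wj j k) = ‖c • a.1 k‖ * W.wj j k
    rw [norm_smul]
    ring

/-- The Banach space of sequences with weight `W` and `j` extra derivatives. -/
def X (W : Wt) (j : ℕ) : Type := ↥(Xsub W j)

noncomputable instance (W : Wt) (j : ℕ) : AddCommGroup (X W j) :=
  inferInstanceAs (AddCommGroup ↥(Xsub W j))

noncomputable instance (W : Wt) (j : ℕ) : Module ℝ (X W j) :=
  inferInstanceAs (Module ℝ ↥(Xsub W j))

variable {W : Wt} {j : ℕ}

/-- The underlying coefficient sequence. -/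
def tS (a : X W j) : S := Subtype.val a

/-- Construct an element from a sequence of finite weighted norm. -/
def mkX (a : S) (h : Summable fun k => ‖a.1 k‖ * W.wj j k) : X W j := ⟨a, h⟩

@[simp] theorem tS_mkX (a : S) (h : Summable fun k => ‖a.1 k‖ * W.wj j k) :
    tS (mkX a h : X W j) = a := rfl

theorem X.ext' {a b : X W j} (h : tS a = tS b) : a = b := Subtype.ext h

theorem tS_add (a b : X W j) : tS (a + b) = tS a + tS b := rfl
theorem tS_sub (a b : X W j) : tS (a - b) = tS a - tS b := rfl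
theorem tS_neg (a : X W j) : tS (-a) = - tS a := rfl
theorem tS_zero : tS (0 : X W j) = 0 := rfl
theorem tS_smul (c : ℝ) (a : X W j) : tS (c • a) = c • tS a := rfl

theorem X.summ (a : X W j) : Summable fun k => ‖(tS a).1 k‖ * W.wj j k := a.2

noncomputable instance : Norm (X W j) := ⟨fun a => ∑' k, ‖(tS a).1 k‖ * W.wj j k⟩

theorem X.norm_def (a : X W j) : ‖a‖ = ∑' k, ‖(tS a).1 k‖ * W.wj j k := rfl

theorem X.core (W : Wt) (j : ℕ) : NormedSpace.Core ℝ (X W j) where
  norm_nonneg a := tsum_nonneg fun k => mul_nonneg (norm_nonneg _) (W.wj_pos j k).le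
  norm_smul c a := by
    rw [X.norm_def, X.norm_def, ← tsum_mul_left]
    congr 1
    funext k
    show ‖c • (tS a).1 k‖ * W.wj j k = _
    rw [norm_smul]
    ring
  norm_triangle a b := by
    rw [X.norm_def, X.norm_def, X.norm_def, ← (X.summ a).tsum_add (X.summ b)]
    refine Summable.tsum_le_tsum (fun k => ?_) (X.summ (a + b)) ((X.summ a).add (X.summ b))
    have h := norm_add_le ((tS a).1 k) ((tS b).1 k)
    have hk := (W.wj_pos j k).le
    show ‖(tS a).1 k + (tS b).1 k‖ * W.wj j k ≤ _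
    nlinarith
  norm_eq_zero_iff a := by
    constructor
    · intro h
      rw [X.norm_def] at h
      have hs := (X.summ a).hasSum
      rw [h] at hs
      have h0 := (hasSum_zero_iff_of_nonneg
        (fun k => mul_nonneg (norm_nonneg _) (W.wj_pos j k).le)).mp hs
      apply X.ext'
      apply S.ext
      intro k
      have h1 := congrFun h0 k
      simp only [Pi.zero_apply, mul_eq_zero, norm_eq_zero] at h1
      rcases h1 with h1 | h1
      · exact h1
      · exact absurd h1 (W.wj_pos j k).ne'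
    · rintro rfl
      rw [X.norm_def]
      simp [tS_zero]

noncomputable instance : NormedAddCommGroup (X W j) := NormedAddCommGroup.ofCore (X.core W j)

noncomputable instance : NormedSpace ℝ (X W j) := NormedSpace.ofCore (X.core W j)

theorem X.norm_coeff_le (a : X W j) (k : K2) : ‖(tS a).1 k‖ * W.wj j k ≤ ‖a‖ :=
  (X.summ a).le_tsum k (fun l _ => mul_nonneg (norm_nonneg _) (W.wj_pos j l).le)

/-! ### Completeness -/

/-- The isometric embedding into `ℓ¹`. -/
noncomputable def toLpFun (a : X W j) : lp (fun _ : K2 => ℂ) 1 :=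
  ⟨fun k => (tS a).1 k * (W.wj j k : ℂ), by
    apply memℓp_gen
    simp only [ENNReal.toReal_one, Real.rpow_one, norm_mul, Complex.norm_real, Real.norm_eq_abs,
      abs_of_pos (W.wj_pos j _)]
    exact X.summ a⟩

theorem toLpFun_apply (a : X W j) (k : K2) : (toLpFun a : K2 → ℂ) k = (tS a).1 k * (W.wj j k : ℂ) :=
  rfl

theorem norm_lp_one (b : lp (fun _ : K2 => ℂ) 1) : ‖b‖ = ∑' k, ‖(b : K2 → ℂ) k‖ := by
  rw [lp.norm_eq_tsum_rpow (by simp)]
  simp

theorem norm_toLpFun (a : X W j) : ‖toLpFun a‖ = ‖a‖ := by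
  rw [norm_lp_one, X.norm_def]
  congr 1
  funext k
  rw [toLpFun_apply, norm_mul, Complex.norm_real, Real.norm_eq_abs, abs_of_pos (W.wj_pos j k)]

/-- The embedding as an additive map. -/
noncomputable def toLpHom : X W j →+ lp (fun _ : K2 => ℂ) 1 where
  toFun := toLpFun
  map_zero' := by
    apply Subtype.ext
    funext k
    show (tS (0 : X W j)).1 k * (W.wj j k : ℂ) = 0
    simp [tS_zero]
  map_add' a b := by
    apply Subtype.ext
    funext k
    show (tS (a + b)).1 k * (W.wj j k : ℂ) = (tS a).1 k * (W.wj j k : ℂ) + (tS b).1 k * (W.wj j k : ℂ)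
    rw [tS_add, add_coe]
    ring

theorem isometry_toLpHom : Isometry (toLpHom : X W j → lp (fun _ : K2 => ℂ) 1) :=
  AddMonoidHomClass.isometry_of_norm _ norm_toLpFun

theorem range_toLpHom :
    Set.range (toLpHom : X W j → lp (fun _ : K2 => ℂ) 1) =
      {b : lp (fun _ : K2 => ℂ) 1 | ∀ k, (b : K2 → ℂ) (-k) = conj ((b : K2 → ℂ) k)} := by
  ext b
  constructor
  · rintro ⟨a, rfl⟩ k
    show (tS a).1 (-k) * (W.wj j (-k) : ℂ) = conj ((tS a).1 k * (W.wj j k : ℂ))
    rw [(tS a).sym, W.wj_neg, map_mul, Complex.conj_ofReal]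
  · intro hb
    have hb1 : Summable fun k => ‖(b : K2 → ℂ) k‖ := by
      have := (lp.memℓp b).summable (by simp)
      simpa using this
    -- the coefficient sequence
    let a0 : K2 → ℂ := fun k => (b : K2 → ℂ) k / (W.wj j k : ℂ)
    have hnorm : ∀ k, ‖a0 k‖ * W.wj j k = ‖(b : K2 → ℂ) k‖ := by
      intro k
      have hw := W.wj_pos j k
      simp only [a0, norm_div, Complex.norm_real, Real.norm_eq_abs, abs_of_pos hw]
      field_simp
    have hr : Rapid a0 := by
      intro m
      obtain ⟨D, hD⟩ := W.superpoly m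
      have hs := hb1.mul_left (|D|)
      refine Summable.of_nonneg_of_le
        (fun k => mul_nonneg (norm_nonneg _) (pow_nonneg (kn_pos k).le m)) (fun k => ?_) hs
      have hw := W.wj_pos j k
      have h1 : kn k ^ m ≤ |D| * W.wj j k := by
        have h2 := hD k
        have h3 : W.w k ≤ W.wj j k := by
          have := W.wj_mono (Nat.zero_le j) k
          simpa [Wt.wj] using this
        have h4 : 0 ≤ W.w k := le_trans zero_le_one (W.one_le k)
        calc kn k ^ m ≤ D * W.w k := h2
          _ ≤ |D| * W.w k := mul_le_mul_of_nonneg_right (le_abs_self D) h4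
          _ ≤ |D| * W.wj j k := mul_le_mul_of_nonneg_left h3 (abs_nonneg D)
      calc ‖a0 k‖ * kn k ^ m ≤ ‖a0 k‖ * (|D| * W.wj j k) :=
            mul_le_mul_of_nonneg_left h1 (norm_nonneg _)
        _ = |D| * (‖a0 k‖ * W.wj j k) := by ring
        _ = |D| * ‖(b : K2 → ℂ) k‖ := by rw [hnorm]
    have hsym : ∀ k, a0 (-k) = conj (a0 k) := by
      intro k
      simp only [a0, hb k, W.wj_neg, map_div₀, Complex.conj_ofReal]
    let a1 : S := ⟨a0, hr, hsym⟩
    have hsum : Summable fun k => ‖a1.1 k‖ * W.wj j k := by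
      refine hb1.congr (fun k => ?_)
      exact (hnorm k).symm
    refine ⟨mkX a1 hsum, ?_⟩
    apply Subtype.ext
    funext k
    show a0 k * (W.wj j k : ℂ) = (b : K2 → ℂ) k
    have hw : (W.wj j k : ℂ) ≠ 0 := by exact_mod_cast (W.wj_pos j k).ne'
    simp only [a0]
    field_simp

theorem isClosed_sym :
    IsClosed {b : lp (fun _ : K2 => ℂ) 1 | ∀ k, (b : K2 → ℂ) (-k) = conj ((b : K2 → ℂ) k)} := by
  have : {b : lp (fun _ : K2 => ℂ) 1 | ∀ k, (b : K2 → ℂ) (-k) = conj ((b : K2 → ℂ) k)} =
      ⋂ k, {b : lp (fun _ : K2 => ℂ) 1 | (b : K2 → ℂ) (-k) = conj ((b : K2 → ℂ) k)} := by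
    ext b
    simp
  rw [this]
  refine isClosed_iInter fun k => isClosed_eq ?_ ?_
  · exact (lp.evalCLM ℝ (fun _ : K2 => ℂ) 1 (-k)).continuous
  · exact Complex.continuous_conj.comp (lp.evalCLM ℝ (fun _ : K2 => ℂ) 1 k).continuous

instance : CompleteSpace (X W j) := by
  have h := completeSpace_iff_isComplete_range
    (isometry_toLpHom (W := W) (j := j)).isUniformInducing
  rw [h, range_toLpHom]
  exact isClosed_sym.isComplete

/-! ### Products and other operations -/

/-- Products of elements. -/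
noncomputable def mulX (a b : X W j) : X W j :=
  mkX (tS a * tS b) (conv_weight (W.one_le_wj j) (W.wj_sub j) (X.summ a) (X.summ b)).1

@[simp] theorem tS_mulX (a b : X W j) : tS (mulX a b) = tS a * tS b := rfl

theorem norm_mulX_le (a b : X W j) : ‖mulX a b‖ ≤ ‖a‖ * ‖b‖ :=
  (conv_weight (W.one_le_wj j) (W.wj_sub j) (X.summ a) (X.summ b)).2

theorem mulX_add (a b c : X W j) : mulX a (b + c) = mulX a b + mulX a c :=
  X.ext' (by simp [tS_add, mul_add])

theorem add_mulX (a b c : X W j) : mulX (a + b) c = mulX a c + mulX b c :=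
  X.ext' (by simp [tS_add, add_mul])

theorem mulX_sub (a b c : X W j) : mulX a (b - c) = mulX a b - mulX a c :=
  X.ext' (by simp [tS_sub, mul_sub])

theorem sub_mulX (a b c : X W j) : mulX (a - b) c = mulX a c - mulX b c :=
  X.ext' (by simp [tS_sub, sub_mul])

/-- The unit element. -/
noncomputable def oneX : X W j := mkX 1 (by
  refine summable_of_ne_finset_zero (s := {0}) (fun k hk => ?_)
  have h : k ≠ 0 := by simpa using hk
  have : (1 : S).1 k = 0 := by
    rw [one_def]
    show deltaZero 1 k = 0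
    simp [deltaZero, h]
  simp [this])

@[simp] theorem tS_oneX : tS (oneX : X W j) = 1 := rfl

theorem norm_oneX : ‖(oneX : X W j)‖ = 1 := by
  rw [X.norm_def, tsum_eq_single 0]
  · have : (1 : S).1 0 = 1 := by
      rw [one_def]
      show deltaZero 1 0 = 1
      simp [deltaZero]
    simp [this, W.wj_zero]
  · intro k hk
    have : (1 : S).1 k = 0 := by
      rw [one_def]
      show deltaZero 1 k = 0
      simp [deltaZero, hk]
    simp [this]

/-- Powers of elements. -/
noncomputable def powX (a : X W j) : ℕ → X W j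
  | 0 => oneX
  | n + 1 => mulX (powX a n) a

@[simp] theorem tS_powX (a : X W j) (n : ℕ) : tS (powX a n) = tS a ^ n := by
  induction n with
  | zero => simp [powX]
  | succ n ih => simp [powX, ih, pow_succ]

theorem norm_powX_le (a : X W j) (n : ℕ) : ‖powX a n‖ ≤ ‖a‖ ^ n := by
  induction n with
  | zero => simp [powX, norm_oneX]
  | succ n ih =>
    calc ‖powX a (n + 1)‖ ≤ ‖powX a n‖ * ‖a‖ := norm_mulX_le _ _
      _ ≤ ‖a‖ ^ n * ‖a‖ := mul_le_mul_of_nonneg_right ih (norm_nonneg _)
      _ = ‖a‖ ^ (n + 1) := by ring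

theorem norm_powX_sub_le (a b : X W j) {ρ : ℝ} (ha : ‖a‖ ≤ ρ) (hb : ‖b‖ ≤ ρ) (n : ℕ) :
    ‖powX a n - powX b n‖ ≤ n * ρ ^ (n - 1) * ‖a - b‖ := by
  have hρ : 0 ≤ ρ := le_trans (norm_nonneg _) ha
  induction n with
  | zero => simp [powX]
  | succ n ih =>
    have e : powX a (n + 1) - powX b (n + 1) =
        mulX (powX a n - powX b n) a + mulX (powX b n) (a - b) := by
      apply X.ext'
      simp [powX, tS_add, tS_sub]
      ring
    rw [e]
    have h1 : ‖mulX (powX a n - powX b n) a‖ ≤ n * ρ ^ (n - 1) * ‖a - b‖ * ρ :=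
      (norm_mulX_le _ _).trans (mul_le_mul ih ha (norm_nonneg _)
        (mul_nonneg (mul_nonneg (Nat.cast_nonneg _) (pow_nonneg hρ _)) (norm_nonneg _)))
    have h2 : ‖mulX (powX b n) (a - b)‖ ≤ ρ ^ n * ‖a - b‖ :=
      (norm_mulX_le _ _).trans (mul_le_mul_of_nonneg_right
        ((norm_powX_le b n).trans (pow_le_pow_left₀ (norm_nonneg _) hb n)) (norm_nonneg _))
    have h3 : ((n : ℝ) * ρ ^ (n - 1)) * ρ = n * ρ ^ n := by
      cases n with
      | zero => simp
      | succ m =>
        simp only [Nat.add_sub_cancel]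
        rw [pow_succ]
        ring
    calc ‖mulX (powX a n - powX b n) a + mulX (powX b n) (a - b)‖
        ≤ n * ρ ^ (n - 1) * ‖a - b‖ * ρ + ρ ^ n * ‖a - b‖ := (norm_add_le _ _).trans (add_le_add h1 h2)
      _ = ((n : ℝ) * ρ ^ (n - 1)) * ρ * ‖a - b‖ + ρ ^ n * ‖a - b‖ := by ring
      _ = _ := by
        rw [h3]
        simp only [Nat.add_sub_cancel]
        push_cast
        ring

/-- Inclusion between the spaces with different numbers of derivatives. -/
noncomputable def incl {i j : ℕ} (h : i ≤ j) : X W j →L[ℝ] X W i :=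
  LinearMap.mkContinuous
    { toFun := fun a => mkX (tS a) (Summable.of_nonneg_of_le
        (fun k => mul_nonneg (norm_nonneg _) (W.wj_pos i k).le)
        (fun k => mul_le_mul_of_nonneg_left (W.wj_mono h k) (norm_nonneg _)) (X.summ a))
      map_add' := fun a b => rfl
      map_smul' := fun c a => rfl }
    1 (fun a => by
      rw [one_mul, X.norm_def, X.norm_def]
      exact Summable.tsum_le_tsum
        (fun k => mul_le_mul_of_nonneg_left (W.wj_mono h k) (norm_nonneg _))
        (Summable.of_nonneg_of_le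
        (fun k => mul_nonneg (norm_nonneg _) (W.wj_pos i k).le)
        (fun k => mul_le_mul_of_nonneg_left (W.wj_mono h k) (norm_nonneg _)) (X.summ a))
        (X.summ a))

theorem tS_incl_aux {i j : ℕ} (h : i ≤ j) (a : X W j) : tS (incl h a) = tS a := rfl

@[simp] theorem tS_incl {i j : ℕ} (h : i ≤ j) (a : X W j) : tS (incl h a) = tS a := by
  rw [tS_incl_aux]

/-- A Fourier multiplier between weighted spaces. -/
noncomputable def actX {i j : ℕ} (m : K2 → ℂ) (h1 : PolyB m) (h2 : ∀ k, m (-k) = conj (m k))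
    (C : ℝ) (hb : ∀ k, ‖m k‖ * W.wj i k ≤ C * W.wj j k) : X W j →L[ℝ] X W i :=
  have key : ∀ a : X W j, Summable fun k => ‖(act m h1 h2 (tS a)).1 k‖ * W.wj i k := fun a =>
    Summable.of_nonneg_of_le (fun k => mul_nonneg (norm_nonneg _) (W.wj_pos i k).le)
      (fun k => by
        rw [act_apply, norm_mul]
        calc ‖m k‖ * ‖(tS a).1 k‖ * W.wj i k = (‖m k‖ * W.wj i k) * ‖(tS a).1 k‖ := by ring
          _ ≤ (C * W.wj j k) * ‖(tS a).1 k‖ := mul_le_mul_of_nonneg_right (hb k) (norm_nonneg _)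
          _ = C * (‖(tS a).1 k‖ * W.wj j k) := by ring)
      ((X.summ a).mul_left C)
  LinearMap.mkContinuous
    { toFun := fun a => mkX (act m h1 h2 (tS a)) (key a)
      map_add' := fun a b => X.ext' (by
        simp only [tS_mkX, tS_add, map_add])
      map_smul' := fun c a => X.ext' (by
        simp only [tS_mkX, tS_smul, map_smul, RingHom.id_apply]) }
    C (fun a => by
      show ‖(mkX (act m h1 h2 (tS a)) (key a) : X W i)‖ ≤ _
      rw [X.norm_def, X.norm_def, ← tsum_mul_left]
      refine Summable.tsum_le_tsum (fun k => ?_) (key a) ((X.summ a).mul_left C)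
      simp only [tS_mkX]
      rw [act_apply, norm_mul]
      calc ‖m k‖ * ‖(tS a).1 k‖ * W.wj i k = (‖m k‖ * W.wj i k) * ‖(tS a).1 k‖ := by ring
        _ ≤ (C * W.wj j k) * ‖(tS a).1 k‖ := mul_le_mul_of_nonneg_right (hb k) (norm_nonneg _)
        _ = C * (‖(tS a).1 k‖ * W.wj j k) := by ring)

theorem tS_actX {i j : ℕ} (m : K2 → ℂ) (h1 : PolyB m) (h2 : ∀ k, m (-k) = conj (m k))
    (C : ℝ) (hb : ∀ k, ‖m k‖ * W.wj i k ≤ C * W.wj j k) (a : X W j) :
    tS (actX m h1 h2 C hb a) = act m h1 h2 (tS a) := rfl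

/-- The derivative in direction `(x, y)` between weighted spaces. -/
noncomputable def DirX (x y : ℝ) (j : ℕ) : X W (j + 1) →L[ℝ] X W j :=
  actX (dsym x y) (dsym_poly x y) (dsym_sym x y) (2 * π * (|x| + |y|)) (fun k => by
    rw [W.wj_succ]
    have h := norm_dsym_le x y k
    have hw := (W.wj_pos j k).le
    calc ‖dsym x y k‖ * W.wj j k ≤ (2 * π * (|x| + |y|) * kn k) * W.wj j k :=
          mul_le_mul_of_nonneg_right h hw
      _ = _ := by ring)

theorem tS_DirX (x y : ℝ) (j : ℕ) (a : X W (j + 1)) : tS (DirX x y j a) = Dir x y (tS a) := rfl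

/-- The mean value. -/
noncomputable def meanX : X W j →L[ℝ] ℝ :=
  LinearMap.mkContinuous
    { toFun := fun a => mean (tS a)
      map_add' := fun a b => by rw [tS_add, mean_add]
      map_smul' := fun c a => by
        rw [tS_smul, mean_smul]
        rfl }
    1 (fun a => by
      rw [one_mul]
      show |mean (tS a)| ≤ ‖a‖
      refine (abs_mean_le _).trans ?_
      have := X.norm_coeff_le a 0
      rwa [W.wj_zero, mul_one] at this)

theorem meanX_apply (a : X W j) : meanX a = mean (tS a) := rfl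

theorem summable_norm_of_X (a : X W j) : Summable fun k => ‖(tS a).1 k‖ := (tS a).summable_norm

theorem tsum_norm_le_X (a : X W j) : ∑' k, ‖(tS a).1 k‖ ≤ ‖a‖ := by
  rw [X.norm_def]
  exact Summable.tsum_le_tsum
    (fun k => le_mul_of_one_le_right (norm_nonneg _) (W.one_le_wj j k))
    (summable_norm_of_X a) (X.summ a)

/-- Evaluation at a point as a continuous linear functional. -/
noncomputable def evX (p : ℝ × ℝ) : X W j →L[ℝ] ℝ :=
  LinearMap.mkContinuous
    { toFun := fun a => ev (tS a) p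
      map_add' := fun a b => by rw [tS_add, ev_add]
      map_smul' := fun c a => by
        rw [tS_smul, ev_smul]
        rfl }
    1 (fun a => by
      rw [one_mul]
      show |ev (tS a) p| ≤ ‖a‖
      exact (abs_ev_le _ _).trans (tsum_norm_le_X a))

theorem evX_apply (p : ℝ × ℝ) (a : X W j) : evX p a = ev (tS a) p := rfl

theorem abs_ev_le_X (a : X W j) (p : ℝ × ℝ) : |ev (tS a) p| ≤ ‖a‖ :=
  (abs_ev_le _ _).trans (tsum_norm_le_X a)

end Vale.Agent.Lib.P205.Tor
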