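import Mathlib
import Vale.Agent.Lib.P205.Tor.Weight

/-!
The flat geometry of a lattice, its orthonormal derivations, and the inverse Laplacian.
-/

open scoped BigOperators ComplexConjugate Real ContDiff

namespace Vale.Agent.Lib.P205.Tor

/-- The shape of a lattice: `(1, 0)` and `(t1, t2)` span the lattice in orthonormal coordinates. -/
structure Geo where
  t1 : ℝ
  t2 : ℝ
  t2pos : 0 < t2

namespace Geo

variable (G : Geo)

/-- The first component of the direction of the second derivation. -/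
noncomputable def a2 : ℝ := -G.t1 / G.t2

/-- The second component of the direction of the second derivation. -/
noncomputable def b2 : ℝ := 1 / G.t2

/-- The first orthonormal derivation. -/
noncomputable def D1 (_G : Geo) : S →ₗ[ℝ] S := Dir 1 0

/-- The second orthonormal derivation. -/
noncomputable def D2 : S →ₗ[ℝ] S := Dir G.a2 G.b2

/-- Minus the symbol of the flat Laplacian. -/
noncomputable def rho (k : K2) : ℝ :=
  (2 * π) ^ 2 * ((k.1 : ℝ) ^ 2 + (G.a2 * (k.1 : ℝ) + G.b2 * (k.2 : ℝ)) ^ 2)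

/-- A size constant of the lattice. -/
noncomputable def L : ℝ := 1 + |G.t1| + G.t2

theorem L_pos : 0 < G.L := by
  unfold L
  have := abs_nonneg G.t1
  have := G.t2pos
  linarith

theorem int_pair_ge_one {k : K2} (hk : k ≠ 0) : 1 ≤ |(k.1 : ℝ)| + |(k.2 : ℝ)| := by
  by_cases h1 : k.1 = 0
  · have h2 : k.2 ≠ 0 := by
      intro h
      exact hk (Prod.ext h1 h)
    have : (1 : ℝ) ≤ |(k.2 : ℝ)| := by
      have := Int.one_le_abs h2
      exact_mod_cast this
    have h3 := abs_nonneg (k.1 : ℝ)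
    linarith
  · have : (1 : ℝ) ≤ |(k.1 : ℝ)| := by
      have := Int.one_le_abs h1
      exact_mod_cast this
    have h3 := abs_nonneg (k.2 : ℝ)
    linarith

theorem kn_sq_le {k : K2} (hk : k ≠ 0) : kn k ^ 2 ≤ G.L ^ 2 * G.rho k := by
  set u : ℝ := (k.1 : ℝ) with hu
  set v : ℝ := G.a2 * (k.1 : ℝ) + G.b2 * (k.2 : ℝ) with hv
  have ht := G.t2pos
  have hk2 : (k.2 : ℝ) = G.t2 * v + G.t1 * u := by
    simp only [hv, hu, a2, b2]
    field_simp
    ring
  have h1 : |(k.2 : ℝ)| ≤ G.t2 * |v| + |G.t1| * |u| := by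
    rw [hk2]
    refine (abs_add_le _ _).trans ?_
    rw [abs_mul, abs_mul, abs_of_pos ht]
  have h2 := int_pair_ge_one hk
  have hU := abs_nonneg u
  have hV := abs_nonneg v
  have hT := abs_nonneg G.t1
  have hL : 0 < G.L := G.L_pos
  have h3 : kn k ≤ 2 * G.L * (|u| + |v|) := by
    have : kn k = 1 + |u| + |(k.2 : ℝ)| := rfl
    rw [this]
    unfold L
    nlinarith [mul_nonneg hT hU, mul_nonneg hT hV, mul_nonneg ht.le hU, mul_nonneg ht.le hV]
  have h4 : kn k ^ 2 ≤ (2 * G.L * (|u| + |v|)) ^ 2 :=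
    pow_le_pow_left₀ (kn_pos k).le h3 2
  have h5 : (|u| + |v|) ^ 2 ≤ 2 * (u ^ 2 + v ^ 2) := by
    have e1 : |u| ^ 2 = u ^ 2 := sq_abs u
    have e2 : |v| ^ 2 = v ^ 2 := sq_abs v
    nlinarith [sq_nonneg (|u| - |v|)]
  have hpi : (8 : ℝ) ≤ (2 * π) ^ 2 := by
    have := Real.pi_gt_three
    nlinarith
  have hnn : 0 ≤ u ^ 2 + v ^ 2 := by positivity
  have h6 : G.rho k = (2 * π) ^ 2 * (u ^ 2 + v ^ 2) := rfl
  rw [h6]
  have hLL : 0 ≤ G.L ^ 2 := by positivity
  calc kn k ^ 2 ≤ (2 * G.L * (|u| + |v|)) ^ 2 := h4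
    _ = 4 * G.L ^ 2 * (|u| + |v|) ^ 2 := by ring
    _ ≤ 4 * G.L ^ 2 * (2 * (u ^ 2 + v ^ 2)) :=
        mul_le_mul_of_nonneg_left h5 (by positivity)
    _ = G.L ^ 2 * (8 * (u ^ 2 + v ^ 2)) := by ring
    _ ≤ G.L ^ 2 * ((2 * π) ^ 2 * (u ^ 2 + v ^ 2)) := by
        apply mul_le_mul_of_nonneg_left _ hLL
        exact mul_le_mul_of_nonneg_right hpi hnn

theorem rho_pos {k : K2} (hk : k ≠ 0) : 0 < G.rho k := by
  have h1 := G.kn_sq_le hk
  have h2 : 0 < kn k ^ 2 := by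
    have := kn_pos k
    positivity
  have h3 : 0 < G.L ^ 2 := by
    have := G.L_pos
    positivity
  by_contra h
  push Not at h
  have : G.L ^ 2 * G.rho k ≤ 0 := mul_nonpos_of_nonneg_of_nonpos h3.le h
  linarith

theorem rho_neg (k : K2) : G.rho (-k) = G.rho k := by
  unfold rho
  simp only [Prod.fst_neg, Prod.snd_neg, Int.cast_neg]
  ring

/-- The symbol of the inverse of the Laplacian on functions of mean zero. -/
noncomputable def lsym (k : K2) : ℂ := if k = 0 then 0 else ((-1 / G.rho k : ℝ) : ℂ)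

theorem norm_lsym_mul_le (k : K2) : ‖G.lsym k‖ * kn k ^ 2 ≤ G.L ^ 2 := by
  by_cases hk : k = 0
  · simp [lsym, hk]
    positivity
  · have hr := G.rho_pos hk
    have h1 := G.kn_sq_le hk
    simp only [lsym, hk, if_false, Complex.norm_real, Real.norm_eq_abs]
    rw [abs_div, abs_of_pos hr]
    simp only [abs_neg, abs_one]
    rw [div_mul_eq_mul_div, one_mul, div_le_iff₀ hr]
    exact h1

theorem norm_lsym_le (k : K2) : ‖G.lsym k‖ ≤ G.L ^ 2 := by
  have h := G.norm_lsym_mul_le k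
  have h2 : 1 ≤ kn k ^ 2 := one_le_kn_pow 2 k
  have h3 : ‖G.lsym k‖ * 1 ≤ ‖G.lsym k‖ * kn k ^ 2 :=
    mul_le_mul_of_nonneg_left h2 (norm_nonneg _)
  linarith

theorem lsym_poly : PolyB G.lsym :=
  ⟨G.L ^ 2, 0, fun k => by simpa using G.norm_lsym_le k⟩

theorem lsym_sym (k : K2) : G.lsym (-k) = conj (G.lsym k) := by
  by_cases hk : k = 0
  · simp [lsym, hk]
  · have hk' : -k ≠ 0 := by simpa using hk
    simp only [lsym, hk, hk', if_false, G.rho_neg, Complex.conj_ofReal]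

/-- The inverse Laplacian. -/
noncomputable def Lp : S →ₗ[ℝ] S := act G.lsym G.lsym_poly G.lsym_sym

theorem Lp_apply (a : S) (k : K2) : (G.Lp a).1 k = G.lsym k * a.1 k := rfl

theorem mean_Lp (a : S) : mean (G.Lp a) = 0 := by
  unfold mean
  rw [Lp_apply]
  simp [lsym]

theorem dsym_sq_add (k : K2) :
    dsym 1 0 k * dsym 1 0 k + dsym G.a2 G.b2 k * dsym G.a2 G.b2 k = ((- G.rho k : ℝ) : ℂ) := by
  unfold dsym rho
  push_cast
  have hI : Complex.I * Complex.I = -1 := Complex.I_mul_I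
  have : ∀ x y : ℂ, 2 * (π : ℂ) * Complex.I * x * (2 * (π : ℂ) * Complex.I * x) +
      2 * (π : ℂ) * Complex.I * y * (2 * (π : ℂ) * Complex.I * y) =
      (Complex.I * Complex.I) * ((2 * (π : ℂ)) ^ 2 * (x ^ 2 + y ^ 2)) := by
    intro x y
    ring
  simp only [one_mul, zero_mul, add_zero]
  rw [this, hI]
  ring

theorem lap_Lp (a : S) : G.D1 (G.D1 (G.Lp a)) + G.D2 (G.D2 (G.Lp a)) = a - cst (mean a) := by
  apply S.ext
  intro k
  rw [add_coe]
  show dsym 1 0 k * (dsym 1 0 k * (G.lsym k * a.1 k)) +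
    dsym G.a2 G.b2 k * (dsym G.a2 G.b2 k * (G.lsym k * a.1 k)) = a.1 k - deltaZero (mean a) k
  by_cases hk : k = 0
  · subst hk
    simp only [dsym_zero, deltaZero, if_true, ← coeff_zero_eq]
    simp
  · have hr := (G.rho_pos hk).ne'
    have hr' : (G.rho k : ℂ) ≠ 0 := by exact_mod_cast hr
    have h1 : dsym 1 0 k * (dsym 1 0 k * (G.lsym k * a.1 k)) +
        dsym G.a2 G.b2 k * (dsym G.a2 G.b2 k * (G.lsym k * a.1 k)) =
        (dsym 1 0 k * dsym 1 0 k + dsym G.a2 G.b2 k * dsym G.a2 G.b2 k) * (G.lsym k * a.1 k) := by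
      ring
    rw [h1, dsym_sq_add]
    simp only [lsym, hk, if_false, deltaZero, sub_zero]
    push_cast
    field_simp

/-- Solving the flat Cauchy-Riemann system: first equation. -/
theorem cr_first (f1 f2 : S) :
    G.D1 (G.D1 (G.Lp f1) + G.D2 (G.Lp f2)) - G.D2 (G.D1 (G.Lp f2) - G.D2 (G.Lp f1)) =
      f1 - cst (mean f1) := by
  rw [← G.lap_Lp f1]
  simp only [map_add, map_sub]
  have : G.D1 (G.D2 (G.Lp f2)) = G.D2 (G.D1 (G.Lp f2)) := Dir_comm _ _ _ _ _
  rw [this]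
  abel

/-- Solving the flat Cauchy-Riemann system: second equation. -/
theorem cr_second (f1 f2 : S) :
    G.D2 (G.D1 (G.Lp f1) + G.D2 (G.Lp f2)) + G.D1 (G.D1 (G.Lp f2) - G.D2 (G.Lp f1)) =
      f2 - cst (mean f2) := by
  rw [← G.lap_Lp f2]
  simp only [map_add, map_sub]
  have : G.D1 (G.D2 (G.Lp f1)) = G.D2 (G.D1 (G.Lp f1)) := Dir_comm _ _ _ _ _
  rw [this]
  abel

variable {W : Wt}

/-- The inverse Laplacian between weighted spaces. -/
noncomputable def LpX (j : ℕ) : X W j →L[ℝ] X W (j + 2) :=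
  actX G.lsym G.lsym_poly G.lsym_sym (G.L ^ 2) (fun k => by
    rw [W.wj_succ2]
    have h := G.norm_lsym_mul_le k
    have hw := (W.wj_pos j k).le
    calc ‖G.lsym k‖ * (W.wj j k * kn k ^ 2) = (‖G.lsym k‖ * kn k ^ 2) * W.wj j k := by ring
      _ ≤ _ := mul_le_mul_of_nonneg_right h hw)

theorem tS_LpX (j : ℕ) (a : X W j) : tS (G.LpX j a) = G.Lp (tS a) := rfl

/-- The symbol of the operator `D Δ⁻¹`. -/
noncomputable def gsym (x y : ℝ) (k : K2) : ℂ := dsym x y k * G.lsym k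

theorem gsym_poly (x y : ℝ) : PolyB (G.gsym x y) := by
  refine ⟨2 * π * (|x| + |y|) * G.L ^ 2, 1, fun k => ?_⟩
  rw [gsym, norm_mul, pow_one]
  have h1 := norm_dsym_le x y k
  have h2 := G.norm_lsym_le k
  calc ‖dsym x y k‖ * ‖G.lsym k‖ ≤ (2 * π * (|x| + |y|) * kn k) * G.L ^ 2 :=
        mul_le_mul h1 h2 (norm_nonneg _) (by positivity [kn_pos k])
    _ = _ := by ring

theorem gsym_sym (x y : ℝ) (k : K2) : G.gsym x y (-k) = conj (G.gsym x y k) := by
  simp only [gsym, map_mul, dsym_sym, lsym_sym]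

/-- The operator `D Δ⁻¹` between weighted spaces. -/
noncomputable def GX (x y : ℝ) (j : ℕ) : X W j →L[ℝ] X W (j + 1) :=
  actX (G.gsym x y) (G.gsym_poly x y) (G.gsym_sym x y) (2 * π * (|x| + |y|) * G.L ^ 2) (fun k => by
    rw [W.wj_succ, gsym, norm_mul]
    have h1 := norm_dsym_le x y k
    have h2 := G.norm_lsym_mul_le k
    have hw := (W.wj_pos j k).le
    have hc : 0 ≤ 2 * π * (|x| + |y|) := by positivity
    have h3 : ‖dsym x y k‖ * ‖G.lsym k‖ * kn k ≤ 2 * π * (|x| + |y|) * G.L ^ 2 := by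
      calc ‖dsym x y k‖ * ‖G.lsym k‖ * kn k ≤ (2 * π * (|x| + |y|) * kn k) * ‖G.lsym k‖ * kn k := by
            apply mul_le_mul_of_nonneg_right _ (kn_pos k).le
            exact mul_le_mul_of_nonneg_right h1 (norm_nonneg _)
        _ = 2 * π * (|x| + |y|) * (‖G.lsym k‖ * kn k ^ 2) := by ring
        _ ≤ _ := mul_le_mul_of_nonneg_left h2 hc
    calc ‖dsym x y k‖ * ‖G.lsym k‖ * (W.wj j k * kn k) =
          (‖dsym x y k‖ * ‖G.lsym k‖ * kn k) * W.wj j k := by ring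
      _ ≤ _ := mul_le_mul_of_nonneg_right h3 hw)

theorem tS_GX (x y : ℝ) (j : ℕ) (a : X W j) : tS (G.GX x y j a) = Dir x y (G.Lp (tS a)) := by
  apply S.ext
  intro k
  show (G.gsym x y k) * (tS a).1 k = dsym x y k * (G.lsym k * (tS a).1 k)
  unfold gsym
  ring

/-- The first derivation between weighted spaces. -/
noncomputable def DX1 (_G : Geo) (j : ℕ) : X W (j + 1) →L[ℝ] X W j := DirX 1 0 j

/-- The second derivation between weighted spaces. -/
noncomputable def DX2 (j : ℕ) : X W (j + 1) →L[ℝ] X W j := DirX G.a2 G.b2 j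

theorem tS_DX1 (j : ℕ) (a : X W (j + 1)) : tS (G.DX1 j a) = G.D1 (tS a) := rfl

theorem tS_DX2 (j : ℕ) (a : X W (j + 1)) : tS (G.DX2 j a) = G.D2 (tS a) := rfl

/-- The first solution operator between weighted spaces. -/
noncomputable def GX1 (j : ℕ) : X W j →L[ℝ] X W (j + 1) := G.GX 1 0 j

/-- The second solution operator between weighted spaces. -/
noncomputable def GX2 (j : ℕ) : X W j →L[ℝ] X W (j + 1) := G.GX G.a2 G.b2 j

theorem tS_GX1 (j : ℕ) (a : X W j) : tS (G.GX1 j a) = G.D1 (G.Lp (tS a)) := G.tS_GX _ _ _ _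

theorem tS_GX2 (j : ℕ) (a : X W j) : tS (G.GX2 j a) = G.D2 (G.Lp (tS a)) := G.tS_GX _ _ _ _

end Geo

end Vale.Agent.Lib.P205.Tor
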