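import Mathlib
import Vale.Agent.Lib.P205.Tor.Lap

/-!
Maps which are bounded and Lipschitz on a set, and power series in the weighted Banach algebras.
-/

open scoped BigOperators ComplexConjugate Real ContDiff Nat

namespace Vale.Agent.Lib.P205.Tor

/-- A map which is bounded and Lipschitz on a set. -/
structure LB {A B : Type*} [NormedAddCommGroup A] [NormedAddCommGroup B] (s : Set A) (f : A → B) :
    Prop where
  bdd : ∃ C : ℝ, 0 ≤ C ∧ ∀ x ∈ s, ‖f x‖ ≤ C
  lip : ∃ L : ℝ, 0 ≤ L ∧ ∀ x ∈ s, ∀ y ∈ s, ‖f x - f y‖ ≤ L * ‖x - y‖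

namespace LB

variable {A B C' : Type*} [NormedAddCommGroup A] [NormedAddCommGroup B] [NormedAddCommGroup C']
  {s : Set A}

theorem const (b : B) : LB s (fun _ : A => b) :=
  ⟨⟨‖b‖, norm_nonneg _, fun _ _ => le_rfl⟩, ⟨0, le_rfl, fun x _ y _ => by simp⟩⟩

theorem id' {R : ℝ} (hR : ∀ x ∈ s, ‖x‖ ≤ R) : LB s (fun x : A => x) := by
  refine ⟨⟨|R|, abs_nonneg _, fun x hx => (hR x hx).trans (le_abs_self R)⟩,
    ⟨1, zero_le_one, fun x _ y _ => by simp⟩⟩

theorem add {f g : A → B} (hf : LB s f) (hg : LB s g) : LB s (fun x => f x + g x) := by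
  obtain ⟨⟨C1, h1, hC1⟩, ⟨L1, h2, hL1⟩⟩ := hf
  obtain ⟨⟨C2, h3, hC2⟩, ⟨L2, h4, hL2⟩⟩ := hg
  refine ⟨⟨C1 + C2, add_nonneg h1 h3, fun x hx => ?_⟩,
    ⟨L1 + L2, add_nonneg h2 h4, fun x hx y hy => ?_⟩⟩
  · exact (norm_add_le _ _).trans (add_le_add (hC1 x hx) (hC2 x hx))
  · have e : f x + g x - (f y + g y) = (f x - f y) + (g x - g y) := by abel
    rw [e, add_mul]
    exact (norm_add_le _ _).trans (add_le_add (hL1 x hx y hy) (hL2 x hx y hy))

theorem neg {f : A → B} (hf : LB s f) : LB s (fun x => - f x) := by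
  obtain ⟨⟨C1, h1, hC1⟩, ⟨L1, h2, hL1⟩⟩ := hf
  refine ⟨⟨C1, h1, fun x hx => by simpa using hC1 x hx⟩, ⟨L1, h2, fun x hx y hy => ?_⟩⟩
  have e : - f x - - f y = -(f x - f y) := by abel
  rw [e, norm_neg]
  exact hL1 x hx y hy

theorem sub {f g : A → B} (hf : LB s f) (hg : LB s g) : LB s (fun x => f x - g x) := by
  simpa [sub_eq_add_neg] using hf.add hg.neg

theorem comp {t : Set B} {g : B → C'} {f : A → B} (hg : LB t g) (hf : LB s f)
    (hmaps : ∀ x ∈ s, f x ∈ t) : LB s (fun x => g (f x)) := by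
  obtain ⟨⟨C1, h1, hC1⟩, ⟨L1, h2, hL1⟩⟩ := hg
  obtain ⟨_, ⟨L2, h4, hL2⟩⟩ := hf
  refine ⟨⟨C1, h1, fun x hx => hC1 _ (hmaps x hx)⟩,
    ⟨L1 * L2, mul_nonneg h2 h4, fun x hx y hy => ?_⟩⟩
  refine (hL1 _ (hmaps x hx) _ (hmaps y hy)).trans ?_
  rw [mul_assoc]
  exact mul_le_mul_of_nonneg_left (hL2 x hx y hy) h2

section Real

variable {B1 B2 : Type*} [NormedAddCommGroup B1] [NormedSpace ℝ B1]
  [NormedAddCommGroup B2] [NormedSpace ℝ B2]

theorem clm (T : B1 →L[ℝ] B2) {f : A → B1} (hf : LB s f) : LB s (fun x => T (f x)) := by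
  obtain ⟨⟨C1, h1, hC1⟩, ⟨L1, h2, hL1⟩⟩ := hf
  refine ⟨⟨‖T‖ * C1, mul_nonneg (norm_nonneg _) h1, fun x hx => ?_⟩,
    ⟨‖T‖ * L1, mul_nonneg (norm_nonneg _) h2, fun x hx y hy => ?_⟩⟩
  · exact (T.le_opNorm _).trans (mul_le_mul_of_nonneg_left (hC1 x hx) (norm_nonneg _))
  · rw [← map_sub, mul_assoc]
    exact (T.le_opNorm _).trans (mul_le_mul_of_nonneg_left (hL1 x hx y hy) (norm_nonneg _))

theorem smul {g : A → ℝ} {f : A → B1} (hg : LB s g) (hf : LB s f) :
    LB s (fun x => g x • f x) := by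
  obtain ⟨⟨C1, h1, hC1⟩, ⟨L1, h2, hL1⟩⟩ := hg
  obtain ⟨⟨C2, h3, hC2⟩, ⟨L2, h4, hL2⟩⟩ := hf
  refine ⟨⟨C1 * C2, mul_nonneg h1 h3, fun x hx => ?_⟩,
    ⟨L1 * C2 + C1 * L2, by positivity, fun x hx y hy => ?_⟩⟩
  · rw [norm_smul]
    exact mul_le_mul (hC1 x hx) (hC2 x hx) (norm_nonneg _) h1
  · have e : g x • f x - g y • f y = (g x - g y) • f x + g y • (f x - f y) := by
      rw [sub_smul, smul_sub]
      abel
    rw [e]
    refine (norm_add_le _ _).trans ?_
    rw [norm_smul, norm_smul, add_mul, mul_assoc, mul_assoc]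
    have hd := norm_nonneg (x - y)
    refine add_le_add ?_ ?_
    · calc ‖g x - g y‖ * ‖f x‖ ≤ (L1 * ‖x - y‖) * C2 :=
            mul_le_mul (hL1 x hx y hy) (hC2 x hx) (norm_nonneg _) (by positivity)
        _ = L1 * (C2 * ‖x - y‖) := by ring
    · calc ‖g y‖ * ‖f x - f y‖ ≤ C1 * (L2 * ‖x - y‖) :=
            mul_le_mul (hC1 y hy) (hL2 x hx y hy) (norm_nonneg _) h1

theorem mulR {g h : A → ℝ} (hg : LB s g) (hh : LB s h) : LB s (fun x => g x * h x) := by
  simpa [smul_eq_mul] using hg.smul hh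

end Real

end LB

/-! ### Products in the weighted spaces -/

variable {W : Wt} {j : ℕ}

theorem LB.mul {A : Type*} [NormedAddCommGroup A] {s : Set A} {f g : A → X W j}
    (hf : LB s f) (hg : LB s g) : LB s (fun x => mulX (f x) (g x)) := by
  obtain ⟨⟨C1, h1, hC1⟩, ⟨L1, h2, hL1⟩⟩ := hf
  obtain ⟨⟨C2, h3, hC2⟩, ⟨L2, h4, hL2⟩⟩ := hg
  refine ⟨⟨C1 * C2, mul_nonneg h1 h3, fun x hx => ?_⟩,
    ⟨L1 * C2 + C1 * L2, by positivity, fun x hx y hy => ?_⟩⟩
  · exact (norm_mulX_le _ _).trans (mul_le_mul (hC1 x hx) (hC2 x hx) (norm_nonneg _) h1)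
  · have e : mulX (f x) (g x) - mulX (f y) (g y) =
        mulX (f x - f y) (g x) + mulX (f y) (g x - g y) := by
      rw [sub_mulX, mulX_sub]
      abel
    rw [e]
    refine (norm_add_le _ _).trans ?_
    rw [add_mul, mul_assoc, mul_assoc]
    have hd := norm_nonneg (x - y)
    refine add_le_add ?_ ?_
    · calc ‖mulX (f x - f y) (g x)‖ ≤ ‖f x - f y‖ * ‖g x‖ := norm_mulX_le _ _
        _ ≤ (L1 * ‖x - y‖) * C2 :=
            mul_le_mul (hL1 x hx y hy) (hC2 x hx) (norm_nonneg _) (by positivity)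
        _ = L1 * (C2 * ‖x - y‖) := by ring
    · calc ‖mulX (f y) (g x - g y)‖ ≤ ‖f y‖ * ‖g x - g y‖ := norm_mulX_le _ _
        _ ≤ C1 * (L2 * ‖x - y‖) :=
            mul_le_mul (hC1 y hy) (hL2 x hx y hy) (norm_nonneg _) h1

/-! ### Power series -/

/-- A power series, with coefficients `c i` and exponents `d i`, converges well at radius `ρ`. -/
structure PSGood (c : ℕ → ℝ) (d : ℕ → ℕ) (ρ : ℝ) : Prop where
  h0 : Summable fun i => |c i| * ρ ^ d i
  h1 : Summable fun i => |c i| * ((d i : ℝ) * ρ ^ (d i - 1))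

/-- The value of a power series in a weighted Banach algebra. -/
noncomputable def psX (c : ℕ → ℝ) (d : ℕ → ℕ) (a : X W j) : X W j := ∑' i, c i • powX a (d i)

theorem ps_norm_term (c : ℕ → ℝ) (d : ℕ → ℕ) {ρ : ℝ} {a : X W j} (ha : ‖a‖ ≤ ρ) (i : ℕ) :
    ‖c i • powX a (d i)‖ ≤ |c i| * ρ ^ d i := by
  rw [norm_smul, Real.norm_eq_abs]
  exact mul_le_mul_of_nonneg_left
    ((norm_powX_le a _).trans (pow_le_pow_left₀ (norm_nonneg _) ha _)) (abs_nonneg _)

theorem ps_summable {c : ℕ → ℝ} {d : ℕ → ℕ} {ρ : ℝ} (h : PSGood c d ρ) {a : X W j} (ha : ‖a‖ ≤ ρ) :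
    Summable fun i => c i • powX a (d i) :=
  Summable.of_norm_bounded h.h0 (ps_norm_term c d ha)

theorem norm_psX_le {c : ℕ → ℝ} {d : ℕ → ℕ} {ρ : ℝ} (h : PSGood c d ρ) {a : X W j} (ha : ‖a‖ ≤ ρ) :
    ‖psX c d a‖ ≤ ∑' i, |c i| * ρ ^ d i :=
  tsum_of_norm_bounded h.h0.hasSum (ps_norm_term c d ha)

theorem psX_sub_le {c : ℕ → ℝ} {d : ℕ → ℕ} {ρ : ℝ} (h : PSGood c d ρ) {a b : X W j}
    (ha : ‖a‖ ≤ ρ) (hb : ‖b‖ ≤ ρ) :
    ‖psX c d a - psX c d b‖ ≤ (∑' i, |c i| * ((d i : ℝ) * ρ ^ (d i - 1))) * ‖a - b‖ := by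
  unfold psX
  rw [← (ps_summable h ha).tsum_sub (ps_summable h hb)]
  have hbd : ∀ i, ‖c i • powX a (d i) - c i • powX b (d i)‖ ≤
      (|c i| * ((d i : ℝ) * ρ ^ (d i - 1))) * ‖a - b‖ := by
    intro i
    rw [← smul_sub, norm_smul, Real.norm_eq_abs, mul_assoc]
    exact mul_le_mul_of_nonneg_left (norm_powX_sub_le a b ha hb _) (abs_nonneg _)
  have := tsum_of_norm_bounded (h.h1.hasSum.mul_right ‖a - b‖) hbd
  exact this

theorem LB.ps {A : Type*} [NormedAddCommGroup A] {s : Set A} {c : ℕ → ℝ} {d : ℕ → ℕ} {ρ : ℝ}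
    (h : PSGood c d ρ) {f : A → X W j} (hf : LB s f) (hρ : ∀ x ∈ s, ‖f x‖ ≤ ρ) :
    LB s (fun x => psX c d (f x)) := by
  obtain ⟨_, ⟨L1, h2, hL1⟩⟩ := hf
  have hT : 0 ≤ ∑' i, |c i| * ρ ^ d i ∨ True := Or.inr trivial
  refine ⟨⟨|∑' i, |c i| * ρ ^ d i|, abs_nonneg _, fun x hx =>
      (norm_psX_le h (hρ x hx)).trans (le_abs_self _)⟩,
    ⟨|∑' i, |c i| * ((d i : ℝ) * ρ ^ (d i - 1))| * L1, mul_nonneg (abs_nonneg _) h2,
      fun x hx y hy => ?_⟩⟩
  refine (psX_sub_le h (hρ x hx) (hρ y hy)).trans ?_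
  rw [mul_assoc]
  refine (mul_le_mul_of_nonneg_right (le_abs_self _) (norm_nonneg _)).trans ?_
  exact mul_le_mul_of_nonneg_left (hL1 x hx y hy) (abs_nonneg _)

theorem ev_psX {c : ℕ → ℝ} {d : ℕ → ℕ} {ρ : ℝ} (h : PSGood c d ρ) {a : X W j} (ha : ‖a‖ ≤ ρ)
    (p : ℝ × ℝ) : ev (tS (psX c d a)) p = ∑' i, c i * ev (tS a) p ^ d i := by
  have h1 := (evX (W := W) (j := j) p).map_tsum (ps_summable h ha)
  rw [evX_apply] at h1
  rw [show psX c d a = ∑' i, c i • powX a (d i) from rfl, h1]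
  congr 1
  funext i
  rw [map_smul, evX_apply, tS_powX, ev_pow]
  rfl

/-! ### Concrete series -/

theorem summable_pow_fact (ρ : ℝ) : Summable fun n : ℕ => ρ ^ n / (n ! : ℝ) :=
  Real.summable_pow_div_factorial ρ

theorem summable_deriv_fact (ρ : ℝ) :
    Summable fun n : ℕ => (1 / (n ! : ℝ)) * ((n : ℝ) * ρ ^ (n - 1)) := by
  rw [← summable_nat_add_iff 1]
  refine (summable_pow_fact ρ).congr (fun n => ?_)
  simp only [Nat.add_sub_cancel]
  have h1 : ((n + 1)! : ℝ) = ((n : ℝ) + 1) * (n ! : ℝ) := by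
    rw [Nat.factorial_succ]
    push_cast
    ring
  have h2 : (n ! : ℝ) ≠ 0 := by positivity
  have h3 : ((n : ℝ) + 1) ≠ 0 := by positivity
  rw [h1]
  push_cast
  field_simp

/-- The exponential series. -/
noncomputable def expC (n : ℕ) : ℝ := 1 / (n ! : ℝ)

theorem expC_abs (n : ℕ) : |expC n| = 1 / (n ! : ℝ) := by
  unfold expC
  rw [abs_of_nonneg (by positivity)]

theorem expGood {ρ : ℝ} : PSGood expC id ρ := by
  constructor
  · refine (summable_pow_fact ρ).congr (fun n => ?_)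
    rw [expC_abs]
    simp [div_eq_mul_inv, mul_comm]
  · refine (summable_deriv_fact ρ).congr (fun n => ?_)
    rw [expC_abs]
    simp

/-- The exponential in a weighted algebra. -/
noncomputable def expX (a : X W j) : X W j := psX expC id a

theorem ev_expX (a : X W j) (p : ℝ × ℝ) : ev (tS (expX a)) p = Real.exp (ev (tS a) p) := by
  unfold expX
  rw [ev_psX expGood (le_refl _)]
  have h := NormedSpace.expSeries_div_hasSum_exp (ev (tS a) p)
  rw [← Real.exp_eq_exp_ℝ] at h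
  rw [← h.tsum_eq]
  congr 1
  funext n
  simp only [expC, id]
  ring

/-- The coefficients of the series for `log (1 + t)`. -/
noncomputable def logC (n : ℕ) : ℝ := (-1) ^ n / ((n : ℝ) + 1)

/-- The exponents of the series for `log (1 + t)`. -/
def logD (n : ℕ) : ℕ := n + 1

theorem logC_abs (n : ℕ) : |logC n| = 1 / ((n : ℝ) + 1) := by
  unfold logC
  rw [abs_div, abs_pow, abs_neg, abs_one, one_pow, abs_of_pos (by positivity)]

theorem logGood {ρ : ℝ} (h0 : 0 ≤ ρ) (h1 : ρ < 1) : PSGood logC logD ρ := by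
  have hg := summable_geometric_of_lt_one h0 h1
  constructor
  · have hg2 : Summable fun n : ℕ => ρ ^ (n + 1) := (summable_nat_add_iff 1).mpr hg
    refine Summable.of_nonneg_of_le (fun n => by positivity) (fun n => ?_) hg2
    rw [logC_abs]
    simp only [logD]
    have h2 : 1 / ((n : ℝ) + 1) ≤ 1 := by
      rw [div_le_one (by positivity)]
      have : (0 : ℝ) ≤ n := Nat.cast_nonneg n
      linarith
    calc 1 / ((n : ℝ) + 1) * ρ ^ (n + 1) ≤ 1 * ρ ^ (n + 1) :=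
          mul_le_mul_of_nonneg_right h2 (by positivity)
      _ = _ := one_mul _
  · refine hg.congr (fun n => ?_)
    rw [logC_abs]
    simp only [logD, Nat.add_sub_cancel]
    push_cast
    have h3 : ((n : ℝ) + 1) ≠ 0 := by positivity
    field_simp

/-- The function `log (1 + t)` in a weighted algebra. -/
noncomputable def log1X (a : X W j) : X W j := psX logC logD a

theorem ev_log1X {a : X W j} (ha : ‖a‖ < 1) (p : ℝ × ℝ) :
    ev (tS (log1X a)) p = Real.log (1 + ev (tS a) p) := by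
  unfold log1X
  rw [ev_psX (logGood (norm_nonneg a) ha) (le_refl _)]
  set t := ev (tS a) p with ht
  have hlt : |t| < 1 := lt_of_le_of_lt (abs_ev_le_X a p) ha
  have hlt2 : |-t| < 1 := by rwa [abs_neg]
  have h := Real.hasSum_pow_div_log_of_abs_lt_one hlt2
  have h2 : HasSum (fun n : ℕ => logC n * t ^ logD n) (Real.log (1 + t)) := by
    have h3 := h.neg
    rw [neg_neg, sub_neg_eq_add] at h3
    refine h3.congr_fun ?_ |> fun h4 => h4
    intro n
    simp only [logC, logD]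
    have h5 : (-t) ^ (n + 1) = (-1) ^ (n + 1) * t ^ (n + 1) := by
      rw [← mul_pow]
      ring
    rw [h5]
    have h6 : ((n : ℝ) + 1) ≠ 0 := by positivity
    field_simp
    ring
  exact h2.tsum_eq

/-! ### Cosine and sine -/

/-- The coefficients of the cosine. -/
noncomputable def cosC (n : ℕ) : ℝ := (-1) ^ n / ((2 * n)! : ℝ)

/-- The coefficients of the sine. -/
noncomputable def sinC (n : ℕ) : ℝ := (-1) ^ n / ((2 * n + 1)! : ℝ)

theorem cosC_abs (n : ℕ) : |cosC n| = 1 / ((2 * n)! : ℝ) := by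
  unfold cosC
  rw [abs_div, abs_pow, abs_neg, abs_one, one_pow, abs_of_pos (by positivity)]

theorem sinC_abs (n : ℕ) : |sinC n| = 1 / ((2 * n + 1)! : ℝ) := by
  unfold sinC
  rw [abs_div, abs_pow, abs_neg, abs_one, one_pow, abs_of_pos (by positivity)]

theorem cosGood {ρ : ℝ} : PSGood cosC (fun n => 2 * n) ρ := by
  have hinj : Function.Injective (fun n : ℕ => 2 * n) := by
    intro a b h
    simpa using h
  constructor
  · refine ((summable_pow_fact ρ).comp_injective hinj).congr (fun n => ?_)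
    rw [cosC_abs]
    simp [div_eq_mul_inv, mul_comm]
  · refine ((summable_deriv_fact ρ).comp_injective hinj).congr (fun n => ?_)
    rw [cosC_abs]
    simp

theorem sinGood {ρ : ℝ} : PSGood sinC (fun n => 2 * n + 1) ρ := by
  have hinj : Function.Injective (fun n : ℕ => 2 * n + 1) := by
    intro a b h
    simpa using h
  constructor
  · refine ((summable_pow_fact ρ).comp_injective hinj).congr (fun n => ?_)
    rw [sinC_abs]
    simp [div_eq_mul_inv, mul_comm]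
  · refine ((summable_deriv_fact ρ).comp_injective hinj).congr (fun n => ?_)
    rw [sinC_abs]
    simp

/-- The cosine in a weighted algebra. -/
noncomputable def cosX (a : X W j) : X W j := psX cosC (fun n => 2 * n) a

/-- The sine in a weighted algebra. -/
noncomputable def sinX (a : X W j) : X W j := psX sinC (fun n => 2 * n + 1) a

theorem ev_cosX (a : X W j) (p : ℝ × ℝ) : ev (tS (cosX a)) p = Real.cos (ev (tS a) p) := by
  unfold cosX
  rw [ev_psX cosGood (le_refl _)]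
  rw [← (Real.hasSum_cos (ev (tS a) p)).tsum_eq]
  congr 1
  funext n
  simp only [cosC]
  ring

theorem ev_sinX (a : X W j) (p : ℝ × ℝ) : ev (tS (sinX a)) p = Real.sin (ev (tS a) p) := by
  unfold sinX
  rw [ev_psX sinGood (le_refl _)]
  rw [← (Real.hasSum_sin (ev (tS a) p)).tsum_eq]
  congr 1
  funext n
  simp only [sinC]
  ring

end Vale.Agent.Lib.P205.Tor
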