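import Mathlib
import Vale.Agent.Lib.P205.Tor.Calc

/-!
The algebra behind the fixed point: the flat coframe and the Gauss type operator `Cop`.
-/

open scoped BigOperators ComplexConjugate Real ContDiff

namespace Vale.Agent.Lib.P205.Tor

namespace Geo

variable (G : Geo)

theorem D1_mul (a b : S) : G.D1 (a * b) = G.D1 a * b + a * G.D1 b := Dir_mul 1 0 a b
theorem D2_mul (a b : S) : G.D2 (a * b) = G.D2 a * b + a * G.D2 b := Dir_mul _ _ a b
theorem D1_one : G.D1 (1 : S) = 0 := Dir_one _ _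
theorem D2_one : G.D2 (1 : S) = 0 := Dir_one _ _
theorem D1_cst (c : ℝ) : G.D1 (cst c) = 0 := Dir_cst _ _ c
theorem D2_cst (c : ℝ) : G.D2 (cst c) = 0 := Dir_cst _ _ c
theorem D12_comm (a : S) : G.D1 (G.D2 a) = G.D2 (G.D1 a) := Dir_comm _ _ _ _ a
theorem mean_D1 (a : S) : mean (G.D1 a) = 0 := mean_Dir _ _ a
theorem mean_D2 (a : S) : mean (G.D2 a) = 0 := mean_Dir _ _ a

end Geo

/-- The Gauss type operator. -/
noncomputable def Cop (G : Geo) (t11 t12 t22 : S) : S :=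
  -((1 / 2 : ℝ) • G.D2 (G.D2 t11)) + G.D1 (G.D2 t12) - (1 / 2 : ℝ) • G.D1 (G.D1 t22)

theorem Cop_closed (G : Geo) (a1 a2 : S) (h : G.D2 a1 = G.D1 a2) :
    Cop G (a1 * a1) (a1 * a2) (a2 * a2) = G.D1 a1 * G.D2 a2 - G.D1 a2 * G.D1 a2 := by
  have hc := G.D12_comm a2
  apply ev_injective
  intro p
  unfold Cop
  simp only [G.D1_mul, G.D2_mul, map_add, h, hc, ev_add, ev_sub, ev_neg, ev_mul, ev_smul]
  ring

theorem Cop_mul (G : Geo) (y t11 t12 t22 : S) :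
    Cop G (y * t11) (y * t12) (y * t22) = y * Cop G t11 t12 t22 +
      (-(G.D2 y * G.D2 t11) + G.D1 y * G.D2 t12 + G.D2 y * G.D1 t12 - G.D1 y * G.D1 t22) +
      (-((1 / 2 : ℝ) • (G.D2 (G.D2 y) * t11)) + G.D1 (G.D2 y) * t12 -
        (1 / 2 : ℝ) • (G.D1 (G.D1 y) * t22)) := by
  apply ev_injective
  intro p
  unfold Cop
  simp only [G.D1_mul, G.D2_mul, map_add, ev_add, ev_sub, ev_neg, ev_mul, ev_smul]
  ring

theorem Cop_add (G : Geo) (a b c a' b' c' : S) :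
    Cop G (a + a') (b + b') (c + c') = Cop G a b c + Cop G a' b' c' := by
  apply ev_injective
  intro p
  unfold Cop
  simp only [map_add, ev_add, ev_sub, ev_neg, ev_mul, ev_smul]
  ring

theorem Cop_sub (G : Geo) (a b c a' b' c' : S) :
    Cop G (a - a') (b - b') (c - c') = Cop G a b c - Cop G a' b' c' := by
  apply ev_injective
  intro p
  unfold Cop
  simp only [map_sub, ev_add, ev_sub, ev_neg, ev_mul, ev_smul]
  ring

theorem Cop_smul (G : Geo) (r : ℝ) (a b c : S) :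
    Cop G (r • a) (r • b) (r • c) = r • Cop G a b c := by
  apply ev_injective
  intro p
  unfold Cop
  simp only [map_smul, ev_add, ev_sub, ev_neg, ev_mul, ev_smul]
  ring

theorem mean_Cop (G : Geo) (a b c : S) : mean (Cop G a b c) = 0 := by
  unfold Cop
  rw [mean_sub, mean_add, mean_neg, mean_smul, mean_smul, G.mean_D2, G.mean_D1, G.mean_D1]
  ring

/-- The unknowns of the fixed point problem together with the data. -/
structure Sy where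
  Om : S
  Oi : S
  yh : S
  p1 : S
  p2 : S
  s1 : S
  s2 : S
  m1 : ℝ
  m2 : ℝ
  e : ℝ

namespace Sy

variable (G : Geo) (σ : Sy)

/-- The conformal factor. -/
noncomputable def y : S := σ.Om + σ.yh

noncomputable def v11 : S := cst σ.m1 + G.D1 σ.p1
noncomputable def v12 : S := cst σ.m2 + G.D2 σ.p1
noncomputable def v21 : S := G.D1 σ.p2
noncomputable def v22 : S := G.D2 σ.p2

noncomputable def a1 : S := 1 + σ.e • v11 G σ
noncomputable def a2 : S := σ.e • v12 G σ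
noncomputable def b1 : S := σ.e • v21 G σ
noncomputable def b2 : S := 1 + σ.e • v22 G σ

noncomputable def Q11 : S := G.D1 σ.s1 * G.D1 σ.s1 + G.D1 σ.s2 * G.D1 σ.s2
noncomputable def Q12 : S := G.D1 σ.s1 * G.D2 σ.s1 + G.D1 σ.s2 * G.D2 σ.s2
noncomputable def Q22 : S := G.D2 σ.s1 * G.D2 σ.s1 + G.D2 σ.s2 * G.D2 σ.s2

/-- The bilinear form built from the first derivatives of the amplitudes. -/
noncomputable def Rf (u1 u2 w1 w2 : S) : S :=
  σ.Oi * Q22 G σ * u1 * w1 + -(σ.Oi * Q12 G σ) * (u1 * w2 + u2 * w1) + σ.Oi * Q11 G σ * u2 * w2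

noncomputable def f1 : S :=
  (1 / 2 : ℝ) • (Rf G σ (a1 G σ) (a2 G σ) (a1 G σ) (a2 G σ) -
      Rf G σ (b1 G σ) (b2 G σ) (b1 G σ) (b2 G σ)) -
    (1 / 2 : ℝ) • (v11 G σ * v11 G σ + v12 G σ * v12 G σ - v21 G σ * v21 G σ - v22 G σ * v22 G σ)

noncomputable def f2 : S :=
  Rf G σ (a1 G σ) (a2 G σ) (b1 G σ) (b2 G σ) - (v11 G σ * v21 G σ + v12 G σ * v22 G σ)

noncomputable def Gh11 : S := (2 : ℝ) • v11 G σ + σ.e • (v11 G σ * v11 G σ + v21 G σ * v21 G σ)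
noncomputable def Gh12 : S := v12 G σ + v21 G σ + σ.e • (v11 G σ * v12 G σ + v21 G σ * v22 G σ)
noncomputable def Gh22 : S := (2 : ℝ) • v22 G σ + σ.e • (v12 G σ * v12 G σ + v22 G σ * v22 G σ)

noncomputable def h111 : S := G.D1 (G.D1 σ.p1)
noncomputable def h112 : S := G.D1 (G.D2 σ.p1)
noncomputable def h122 : S := G.D2 (G.D2 σ.p1)
noncomputable def h211 : S := G.D1 (G.D1 σ.p2)
noncomputable def h212 : S := G.D1 (G.D2 σ.p2)
noncomputable def h222 : S := G.D2 (G.D2 σ.p2)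

noncomputable def g1 : S := (2 : ℝ) • (a1 G σ * h112 G σ + b1 G σ * h212 G σ)
noncomputable def g2 : S :=
  h112 G σ * a2 G σ + a1 G σ * h122 G σ + h212 G σ * b2 G σ + b1 G σ * h222 G σ
noncomputable def g3 : S :=
  h111 G σ * a2 G σ + a1 G σ * h112 G σ + h211 G σ * b2 G σ + b1 G σ * h212 G σ
noncomputable def g4 : S := (2 : ℝ) • (a2 G σ * h112 G σ + b2 G σ * h212 G σ)

noncomputable def Ch : S :=
  h111 G σ * h122 G σ - h112 G σ * h112 G σ + (h211 G σ * h222 G σ - h212 G σ * h212 G σ)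

noncomputable def Rem : S :=
  σ.e • (y σ * Ch G σ) - G.D2 (y σ) * g1 G σ + G.D1 (y σ) * g2 G σ + G.D2 (y σ) * g3 G σ -
    G.D1 (y σ) * g4 G σ - (1 / 2 : ℝ) • (G.D2 (G.D2 (y σ)) * Gh11 G σ) +
    G.D1 (G.D2 (y σ)) * Gh12 G σ - (1 / 2 : ℝ) • (G.D1 (G.D1 (y σ)) * Gh22 G σ)

noncomputable def detS : S :=
  G.D1 (G.D1 σ.s1) * G.D2 (G.D2 σ.s1) - G.D1 (G.D2 σ.s1) * G.D1 (G.D2 σ.s1) +
    (G.D1 (G.D1 σ.s2) * G.D2 (G.D2 σ.s2) - G.D1 (G.D2 σ.s2) * G.D1 (G.D2 σ.s2))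

noncomputable def mu : ℝ := mean (y σ * Gh11 G σ) + σ.e * mean (Q11 G σ)

noncomputable def G11 : S := a1 G σ * a1 G σ + b1 G σ * b1 G σ
noncomputable def G12 : S := a1 G σ * a2 G σ + b1 G σ * b2 G σ
noncomputable def G22 : S := a2 G σ * a2 G σ + b2 G σ * b2 G σ

noncomputable def E11 : S := σ.Om - (σ.e * σ.e) • Q11 G σ - y σ * G11 G σ
noncomputable def E12 : S := -((σ.e * σ.e) • Q12 G σ) - y σ * G12 G σ
noncomputable def E22 : S := σ.Om - (σ.e * σ.e) • Q22 G σ - y σ * G22 G σ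

/-- The equations of the fixed point. -/
structure FP : Prop where
  hO : σ.Om * σ.Oi = 1
  hy : σ.yh = σ.e • ((2 : ℝ) • G.Lp (Rem G σ + σ.e • detS G σ) - cst (mu G σ))
  hp1 : σ.p1 = σ.e • (G.D1 (G.Lp (f1 G σ)) + G.D2 (G.Lp (f2 G σ)))
  hp2 : σ.p2 = σ.e • (G.D1 (G.Lp (f2 G σ)) - G.D2 (G.Lp (f1 G σ)))
  hm1 : σ.m1 = σ.e * mean (f1 G σ)
  hm2 : σ.m2 = σ.e * mean (f2 G σ)

variable {G σ}

theorem cr1 (h : FP G σ) : v11 G σ - v22 G σ = σ.e • f1 G σ := by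
  have e1 := congrArg G.D1 h.hp1
  have e2 := congrArg G.D2 h.hp2
  rw [map_smul] at e1 e2
  have e3 : G.D1 σ.p1 - G.D2 σ.p2 = σ.e • (f1 G σ - cst (mean (f1 G σ))) := by
    rw [e1, e2, ← smul_sub, G.cr_first]
  have e4 : v11 G σ - v22 G σ = cst σ.m1 + (G.D1 σ.p1 - G.D2 σ.p2) := by
    unfold v11 v22
    abel
  rw [e4, e3, h.hm1]
  apply ev_injective
  intro p
  simp only [ev_add, ev_sub, ev_smul, ev_cst]
  ring

theorem cr2 (h : FP G σ) : v12 G σ + v21 G σ = σ.e • f2 G σ := by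
  have e1 := congrArg G.D2 h.hp1
  have e2 := congrArg G.D1 h.hp2
  rw [map_smul] at e1 e2
  have e3 : G.D2 σ.p1 + G.D1 σ.p2 = σ.e • (f2 G σ - cst (mean (f2 G σ))) := by
    rw [e1, e2, ← smul_add, G.cr_second]
  have e4 : v12 G σ + v21 G σ = cst σ.m2 + (G.D2 σ.p1 + G.D1 σ.p2) := by
    unfold v12 v21
    abel
  rw [e4, e3, h.hm2]
  apply ev_injective
  intro p
  simp only [ev_add, ev_sub, ev_smul, ev_cst]
  ring

/-- The first conformality identity, with the derivative correction. -/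
theorem form1 (h : FP G σ) (p : ℝ × ℝ) :
    ev (a1 G σ) p ^ 2 + ev (a2 G σ) p ^ 2 - ev (b1 G σ) p ^ 2 - ev (b2 G σ) p ^ 2 =
      (σ.e * σ.e) * (ev (Rf G σ (a1 G σ) (a2 G σ) (a1 G σ) (a2 G σ)) p -
        ev (Rf G σ (b1 G σ) (b2 G σ) (b1 G σ) (b2 G σ)) p) := by
  have hc := congrArg (fun x => ev x p) (cr1 h)
  simp only [ev_sub, ev_smul] at hc
  have hf : ev (f1 G σ) p = (1 / 2) * (ev (Rf G σ (a1 G σ) (a2 G σ) (a1 G σ) (a2 G σ)) p -
        ev (Rf G σ (b1 G σ) (b2 G σ) (b1 G σ) (b2 G σ)) p) -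
      (1 / 2) * (ev (v11 G σ) p * ev (v11 G σ) p + ev (v12 G σ) p * ev (v12 G σ) p -
        ev (v21 G σ) p * ev (v21 G σ) p - ev (v22 G σ) p * ev (v22 G σ) p) := by
    unfold f1
    simp only [ev_sub, ev_add, ev_smul, ev_mul]
  rw [hf] at hc
  have ha1 : ev (a1 G σ) p = 1 + σ.e * ev (v11 G σ) p := by
    unfold a1
    simp only [ev_add, ev_smul, ev_one]
  have ha2 : ev (a2 G σ) p = σ.e * ev (v12 G σ) p := by
    unfold a2
    simp only [ev_smul]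
  have hb1 : ev (b1 G σ) p = σ.e * ev (v21 G σ) p := by
    unfold b1
    simp only [ev_smul]
  have hb2 : ev (b2 G σ) p = 1 + σ.e * ev (v22 G σ) p := by
    unfold b2
    simp only [ev_add, ev_smul, ev_one]
  rw [ha1, ha2, hb1, hb2]
  generalize ev (Rf G σ (a1 G σ) (a2 G σ) (a1 G σ) (a2 G σ)) p = r1 at *
  generalize ev (Rf G σ (b1 G σ) (b2 G σ) (b1 G σ) (b2 G σ)) p = r2 at *
  linear_combination 2 * σ.e * hc

/-- The second conformality identity, with the derivative correction. -/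
theorem form2 (h : FP G σ) (p : ℝ × ℝ) :
    ev (a1 G σ) p * ev (b1 G σ) p + ev (a2 G σ) p * ev (b2 G σ) p =
      (σ.e * σ.e) * ev (Rf G σ (a1 G σ) (a2 G σ) (b1 G σ) (b2 G σ)) p := by
  have hc := congrArg (fun x => ev x p) (cr2 h)
  simp only [ev_add, ev_smul] at hc
  have hf : ev (f2 G σ) p = ev (Rf G σ (a1 G σ) (a2 G σ) (b1 G σ) (b2 G σ)) p -
      (ev (v11 G σ) p * ev (v21 G σ) p + ev (v12 G σ) p * ev (v22 G σ) p) := by
    unfold f2
    simp only [ev_sub, ev_add, ev_mul]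
  rw [hf] at hc
  have ha1 : ev (a1 G σ) p = 1 + σ.e * ev (v11 G σ) p := by
    unfold a1
    simp only [ev_add, ev_smul, ev_one]
  have ha2 : ev (a2 G σ) p = σ.e * ev (v12 G σ) p := by
    unfold a2
    simp only [ev_smul]
  have hb1 : ev (b1 G σ) p = σ.e * ev (v21 G σ) p := by
    unfold b1
    simp only [ev_smul]
  have hb2 : ev (b2 G σ) p = 1 + σ.e * ev (v22 G σ) p := by
    unfold b2
    simp only [ev_add, ev_smul, ev_one]
  rw [ha1, ha2, hb1, hb2]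
  generalize ev (Rf G σ (a1 G σ) (a2 G σ) (b1 G σ) (b2 G σ)) p = r1 at *
  linear_combination σ.e * hc

theorem hO_ev (h : FP G σ) (p : ℝ × ℝ) : ev σ.Om p * ev σ.Oi p = 1 := by
  have := congrArg (fun x => ev x p) h.hO
  simpa only [ev_mul, ev_one] using this

/-- Pointwise proportionality of the error and of the metric of the coframe. -/
theorem prop1 (h : FP G σ) (p : ℝ × ℝ) :
    (ev (G11 G σ) p * ev (G22 G σ) p - ev (G12 G σ) p ^ 2) *
      (ev (E11 G σ) p * ev (G22 G σ) p - ev (E22 G σ) p * ev (G11 G σ) p) = 0 := by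
  have h1 := form1 h p
  have h2 := form2 h p
  have h3 := hO_ev h p
  unfold Rf at h1 h2
  unfold E11 E22 G11 G22 G12
  simp only [ev_add, ev_sub, ev_neg, ev_mul, ev_smul] at h1 h2 ⊢
  generalize ev (a1 G σ) p = a₁ at *
  generalize ev (a2 G σ) p = a₂ at *
  generalize ev (b1 G σ) p = b₁ at *
  generalize ev (b2 G σ) p = b₂ at *
  generalize ev σ.Om p = O at *
  generalize ev σ.Oi p = Oi at *
  generalize ev (Q11 G σ) p = q11 at *
  generalize ev (Q12 G σ) p = q12 at *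
  generalize ev (Q22 G σ) p = q22 at *
  generalize ev (y σ) p = Y at *
  generalize σ.e = e at *
  have hW : ∀ u1 u2 w1 w2 : ℝ, O * (Oi * q22 * u1 * w1 + -(Oi * q12) * (u1 * w2 + u2 * w1) +
      Oi * q11 * u2 * w2) = q22 * u1 * w1 - q12 * (u1 * w2 + u2 * w1) + q11 * u2 * w2 := by
    intro u1 u2 w1 w2
    linear_combination (q22 * u1 * w1 - q12 * (u1 * w2 + u2 * w1) + q11 * u2 * w2) * h3
  have hP : O * (a₁ ^ 2 + a₂ ^ 2 - b₁ ^ 2 - b₂ ^ 2) = (e * e) *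
      ((q22 * a₁ * a₁ - q12 * (a₁ * a₂ + a₂ * a₁) + q11 * a₂ * a₂) -
       (q22 * b₁ * b₁ - q12 * (b₁ * b₂ + b₂ * b₁) + q11 * b₂ * b₂)) := by
    rw [h1, ← hW a₁ a₂ a₁ a₂, ← hW b₁ b₂ b₁ b₂]
    ring
  have hQ : O * (a₁ * b₁ + a₂ * b₂) = (e * e) *
      (q22 * a₁ * b₁ - q12 * (a₁ * b₂ + a₂ * b₁) + q11 * a₂ * b₂) := by
    rw [h2, ← hW a₁ a₂ b₁ b₂]
    ring
  clear h1 h2 h3 hW
  have e1 : (a₁ * a₁ + b₁ * b₁) * (a₂ * a₂ + b₂ * b₂) - (a₁ * a₂ + b₁ * b₂) ^ 2 =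
      (a₁ * b₂ - a₂ * b₁) ^ 2 := by ring
  linear_combination
    ((b₁ ^ 2) * (a₂ * a₂ + b₂ * b₂) - (b₂ ^ 2) * (a₁ * a₁ + b₁ * b₁)) * hP +
    (-2 * a₁ * b₁ * (a₂ * a₂ + b₂ * b₂) + 2 * a₂ * b₂ * (a₁ * a₁ + b₁ * b₁)) * hQ

theorem prop2 (h : FP G σ) (p : ℝ × ℝ) :
    (ev (G11 G σ) p * ev (G22 G σ) p - ev (G12 G σ) p ^ 2) *
      (ev (E12 G σ) p * (ev (G11 G σ) p + ev (G22 G σ) p) -
        (ev (E11 G σ) p + ev (E22 G σ) p) * ev (G12 G σ) p) = 0 := by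
  have h1 := form1 h p
  have h2 := form2 h p
  have h3 := hO_ev h p
  unfold Rf at h1 h2
  unfold E11 E22 E12 G11 G22 G12
  simp only [ev_add, ev_sub, ev_neg, ev_mul, ev_smul] at h1 h2 ⊢
  generalize ev (a1 G σ) p = a₁ at *
  generalize ev (a2 G σ) p = a₂ at *
  generalize ev (b1 G σ) p = b₁ at *
  generalize ev (b2 G σ) p = b₂ at *
  generalize ev σ.Om p = O at *
  generalize ev σ.Oi p = Oi at *
  generalize ev (Q11 G σ) p = q11 at *
  generalize ev (Q12 G σ) p = q12 at *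
  generalize ev (Q22 G σ) p = q22 at *
  generalize ev (y σ) p = Y at *
  generalize σ.e = e at *
  have hW : ∀ u1 u2 w1 w2 : ℝ, O * (Oi * q22 * u1 * w1 + -(Oi * q12) * (u1 * w2 + u2 * w1) +
      Oi * q11 * u2 * w2) = q22 * u1 * w1 - q12 * (u1 * w2 + u2 * w1) + q11 * u2 * w2 := by
    intro u1 u2 w1 w2
    linear_combination (q22 * u1 * w1 - q12 * (u1 * w2 + u2 * w1) + q11 * u2 * w2) * h3
  have hP : O * (a₁ ^ 2 + a₂ ^ 2 - b₁ ^ 2 - b₂ ^ 2) = (e * e) *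
      ((q22 * a₁ * a₁ - q12 * (a₁ * a₂ + a₂ * a₁) + q11 * a₂ * a₂) -
       (q22 * b₁ * b₁ - q12 * (b₁ * b₂ + b₂ * b₁) + q11 * b₂ * b₂)) := by
    rw [h1, ← hW a₁ a₂ a₁ a₂, ← hW b₁ b₂ b₁ b₂]
    ring
  have hQ : O * (a₁ * b₁ + a₂ * b₂) = (e * e) *
      (q22 * a₁ * b₁ - q12 * (a₁ * b₂ + a₂ * b₁) + q11 * a₂ * b₂) := by
    rw [h2, ← hW a₁ a₂ b₁ b₂]
    ring
  clear h1 h2 h3 hW
  linear_combination
    ((b₁ * b₂) * (a₁ * a₁ + b₁ * b₁ + (a₂ * a₂ + b₂ * b₂)) - (b₁ ^ 2 + b₂ ^ 2) * (a₁ * a₂ + b₁ * b₂)) * hP +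
    (-(a₂ * b₁ + a₁ * b₂) * (a₁ * a₁ + b₁ * b₁ + (a₂ * a₂ + b₂ * b₂)) + 2 * (a₁ * b₁ + a₂ * b₂) * (a₁ * a₂ + b₁ * b₂)) * hQ

theorem D1_a1 : G.D1 (a1 G σ) = σ.e • h111 G σ := by
  unfold a1 v11 h111
  simp only [map_add, map_smul, G.D1_one, G.D1_cst, zero_add]

theorem D2_a1 : G.D2 (a1 G σ) = σ.e • h112 G σ := by
  unfold a1 v11 h112
  simp only [map_add, map_smul, G.D2_one, G.D2_cst, zero_add, G.D12_comm]

theorem D1_a2 : G.D1 (a2 G σ) = σ.e • h112 G σ := by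
  unfold a2 v12 h112
  simp only [map_add, map_smul, G.D1_cst, zero_add]

theorem D2_a2 : G.D2 (a2 G σ) = σ.e • h122 G σ := by
  unfold a2 v12 h122
  simp only [map_add, map_smul, G.D2_cst, zero_add]

theorem D1_b1 : G.D1 (b1 G σ) = σ.e • h211 G σ := by
  unfold b1 v21 h211
  simp only [map_smul]

theorem D2_b1 : G.D2 (b1 G σ) = σ.e • h212 G σ := by
  unfold b1 v21 h212
  simp only [map_smul, G.D12_comm]

theorem D1_b2 : G.D1 (b2 G σ) = σ.e • h212 G σ := by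
  unfold b2 v22 h212
  simp only [map_add, map_smul, G.D1_one, zero_add]

theorem D2_b2 : G.D2 (b2 G σ) = σ.e • h222 G σ := by
  unfold b2 v22 h222
  simp only [map_add, map_smul, G.D2_one, zero_add]

theorem Cop_G : Cop G (G11 G σ) (G12 G σ) (G22 G σ) = (σ.e * σ.e) • Ch G σ := by
  unfold G11 G12 G22
  rw [Cop_add, Cop_closed G _ _ (by rw [D2_a1, D1_a2]), Cop_closed G _ _ (by rw [D2_b1, D1_b2]),
    D1_a1, D2_a2, D1_a2, D1_b1, D2_b2, D1_b2]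
  apply ev_injective
  intro p
  unfold Ch
  simp only [ev_add, ev_sub, ev_mul, ev_smul]
  ring

theorem Cop_Q : Cop G (Q11 G σ) (Q12 G σ) (Q22 G σ) = detS G σ := by
  unfold Q11 Q12 Q22 detS
  rw [Cop_add, Cop_closed G _ _ (G.D12_comm σ.s1).symm, Cop_closed G _ _ (G.D12_comm σ.s2).symm]

theorem G11_eq : G11 G σ = 1 + σ.e • Gh11 G σ := by
  apply ev_injective
  intro p
  unfold G11 Gh11 a1 b1
  simp only [ev_add, ev_mul, ev_smul, ev_one]
  ring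

theorem G12_eq : G12 G σ = σ.e • Gh12 G σ := by
  apply ev_injective
  intro p
  unfold G12 Gh12 a1 a2 b1 b2
  simp only [ev_add, ev_mul, ev_smul, ev_one]
  ring

theorem G22_eq : G22 G σ = 1 + σ.e • Gh22 G σ := by
  apply ev_injective
  intro p
  unfold G22 Gh22 a2 b2
  simp only [ev_add, ev_mul, ev_smul, ev_one]
  ring

theorem D2_G11 : G.D2 (G11 G σ) = σ.e • g1 G σ := by
  unfold G11 g1
  rw [map_add, G.D2_mul, G.D2_mul, D2_a1, D2_b1]
  apply ev_injective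
  intro p
  simp only [ev_add, ev_mul, ev_smul]
  ring

theorem D2_G12 : G.D2 (G12 G σ) = σ.e • g2 G σ := by
  unfold G12 g2
  rw [map_add, G.D2_mul, G.D2_mul, D2_a1, D2_a2, D2_b1, D2_b2]
  apply ev_injective
  intro p
  simp only [ev_add, ev_mul, ev_smul]
  ring

theorem D1_G12 : G.D1 (G12 G σ) = σ.e • g3 G σ := by
  unfold G12 g3
  rw [map_add, G.D1_mul, G.D1_mul, D1_a1, D1_a2, D1_b1, D1_b2]
  apply ev_injective
  intro p
  simp only [ev_add, ev_mul, ev_smul]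
  ring

theorem D1_G22 : G.D1 (G22 G σ) = σ.e • g4 G σ := by
  unfold G22 g4
  rw [map_add, G.D1_mul, G.D1_mul, D1_a2, D1_b2]
  apply ev_injective
  intro p
  simp only [ev_add, ev_mul, ev_smul]
  ring

theorem Cop_yG : Cop G (y σ * G11 G σ) (y σ * G12 G σ) (y σ * G22 G σ) =
    σ.e • Rem G σ - (1 / 2 : ℝ) • (G.D2 (G.D2 (y σ)) + G.D1 (G.D1 (y σ))) := by
  rw [Cop_mul, Cop_G, D2_G11, D2_G12, D1_G12, D1_G22, G11_eq, G12_eq, G22_eq]
  apply ev_injective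
  intro p
  unfold Rem
  simp only [ev_add, ev_sub, ev_neg, ev_mul, ev_smul, ev_one]
  ring

theorem lap_yh (h : FP G σ) : G.D1 (G.D1 σ.yh) + G.D2 (G.D2 σ.yh) =
    (σ.e * 2) • (Rem G σ + σ.e • detS G σ -
      cst (mean (Rem G σ + σ.e • detS G σ))) := by
  rw [← G.lap_Lp]
  have e1 := congrArg (fun x => G.D1 (G.D1 x)) h.hy
  have e2 := congrArg (fun x => G.D2 (G.D2 x)) h.hy
  simp only [map_smul, map_sub, G.D1_cst, G.D2_cst, map_zero, sub_zero] at e1 e2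
  rw [e1, e2]
  apply ev_injective
  intro p
  simp only [ev_add, ev_smul]
  ring

theorem Cop_E_eq (h : FP G σ) : Cop G (E11 G σ) (E12 G σ) (E22 G σ) =
    cst (-(σ.e * mean (Rem G σ + σ.e • detS G σ))) := by
  have hE12 : E12 G σ = (0 - (σ.e * σ.e) • Q12 G σ) - y σ * G12 G σ := by
    unfold E12
    rw [zero_sub]
  unfold E11
  rw [hE12]
  unfold E22
  rw [Cop_sub, Cop_sub, Cop_smul, Cop_Q, Cop_yG]
  have hl := lap_yh h
  have hy1 : G.D1 (G.D1 (y σ)) = G.D1 (G.D1 σ.Om) + G.D1 (G.D1 σ.yh) := by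
    unfold y
    simp only [map_add]
  have hy2 : G.D2 (G.D2 (y σ)) = G.D2 (G.D2 σ.Om) + G.D2 (G.D2 σ.yh) := by
    unfold y
    simp only [map_add]
  rw [hy1, hy2]
  apply ev_injective
  intro p
  have hl2 := congrArg (fun x => ev x p) hl
  simp only [ev_add, ev_sub, ev_smul, ev_cst] at hl2
  unfold Cop
  simp only [map_zero, ev_add, ev_sub, ev_neg, ev_smul, ev_cst, ev_zero]
  simp only [mean_add] at hl2 ⊢
  linear_combination (1 / 2) * hl2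

theorem Cop_E (h : FP G σ) : Cop G (E11 G σ) (E12 G σ) (E22 G σ) = 0 := by
  have h1 := Cop_E_eq h
  have h2 := mean_Cop G (E11 G σ) (E12 G σ) (E22 G σ)
  rw [h1, mean_cst] at h2
  rw [h1, h2]
  apply ev_injective
  intro p
  simp [ev_cst, ev_zero]

theorem mean_E11 (h : FP G σ) : mean (E11 G σ) = 0 := by
  have e1 : E11 G σ = -σ.yh - (σ.e * σ.e) • Q11 G σ - σ.e • (y σ * Gh11 G σ) := by
    unfold E11
    rw [G11_eq]
    apply ev_injective
    intro p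
    unfold y
    simp only [ev_add, ev_sub, ev_neg, ev_mul, ev_smul, ev_one]
    ring
  have e2 : mean σ.yh = - (σ.e * mu G σ) := by
    conv_lhs => rw [h.hy]
    rw [mean_smul, mean_sub, mean_smul, G.mean_Lp, mean_cst]
    ring
  rw [e1, mean_sub, mean_sub, mean_neg, mean_smul, mean_smul, e2]
  unfold mu
  ring

end Sy

/-! ### From proportionality and the Gauss constraint to vanishing -/

section Vanish

variable {W : Wt} {j : ℕ}

theorem coeff_bound (G : Geo) (A B D : S) (hC : Cop G A B D = 0) (hM : mean A = 0) (k : K2) :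
    ‖A.1 k + D.1 k‖ ≤ 2 * ‖B.1 k‖ + ‖A.1 k - D.1 k‖ := by
  by_cases hk : k = 0
  · subst hk
    have hA : A.1 0 = 0 := by
      rw [coeff_zero_eq, hM]
      simp
    rw [hA]
    simp only [zero_add, zero_sub, norm_neg]
    have := norm_nonneg (B.1 0)
    linarith
  · have hc := congrArg (fun x : S => x.1 k) hC
    have hr := G.rho_pos hk
    set ξ₁ : ℝ := (k.1 : ℝ) with hξ₁
    set ξ₂ : ℝ := G.a2 * (k.1 : ℝ) + G.b2 * (k.2 : ℝ) with hξ₂
    have hr2 : G.rho k = (2 * π) ^ 2 * (ξ₁ ^ 2 + ξ₂ ^ 2) := rfl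
    have hpos : 0 < ξ₁ ^ 2 + ξ₂ ^ 2 := by
      rw [hr2] at hr
      have hpi : 0 < (2 * π) ^ 2 := by positivity
      exact (pos_iff_pos_of_mul_pos hr).mp hpi
    have hs1 : dsym 1 0 k = 2 * π * Complex.I * (ξ₁ : ℂ) := by
      unfold dsym
      simp [hξ₁]
    have hs2 : dsym G.a2 G.b2 k = 2 * π * Complex.I * (ξ₂ : ℂ) := rfl
    have hval : (Cop G A B D).1 k = -((1 / 2 : ℝ) • (dsym G.a2 G.b2 k * (dsym G.a2 G.b2 k * A.1 k))) +
        dsym 1 0 k * (dsym G.a2 G.b2 k * B.1 k) -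
        (1 / 2 : ℝ) • (dsym 1 0 k * (dsym 1 0 k * D.1 k)) := rfl
    have hzero : (0 : S).1 k = 0 := rfl
    simp only [hzero] at hc
    rw [hval, hs1, hs2] at hc
    have hI : Complex.I * Complex.I = -1 := Complex.I_mul_I
    have hpi : (π : ℂ) ≠ 0 := by exact_mod_cast Real.pi_ne_zero
    have hkey : ((ξ₂ : ℂ)) ^ 2 * A.1 k - 2 * ξ₁ * ξ₂ * B.1 k + (ξ₁ : ℂ) ^ 2 * D.1 k = 0 := by
      have h4 : (2 * (π : ℂ) ^ 2) * (((ξ₂ : ℂ)) ^ 2 * A.1 k - 2 * ξ₁ * ξ₂ * B.1 k +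
          (ξ₁ : ℂ) ^ 2 * D.1 k) = 0 := by
        simp only [Complex.real_smul] at hc
        push_cast at hc
        have h5 : (2 * (π : ℂ) ^ 2) * (((ξ₂ : ℂ)) ^ 2 * A.1 k - 2 * ξ₁ * ξ₂ * B.1 k +
          (ξ₁ : ℂ) ^ 2 * D.1 k) = -(1 / 2 * (2 * ↑π * Complex.I * ↑ξ₂ * (2 * ↑π * Complex.I * ↑ξ₂ * A.1 k))) +
            2 * ↑π * Complex.I * ↑ξ₁ * (2 * ↑π * Complex.I * ↑ξ₂ * B.1 k) -
            1 / 2 * (2 * ↑π * Complex.I * ↑ξ₁ * (2 * ↑π * Complex.I * ↑ξ₁ * D.1 k)) := by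
          linear_combination ((2 * (π : ℂ) ^ 2) * (((ξ₂ : ℂ)) ^ 2 * A.1 k - 2 * ξ₁ * ξ₂ * B.1 k +
            (ξ₁ : ℂ) ^ 2 * D.1 k)) * hI
        rw [h5]
        exact hc
      have h6 : (2 * (π : ℂ) ^ 2) ≠ 0 := by
        simp [hpi]
      exact (mul_eq_zero.mp h4).resolve_left h6
    have hid : ((ξ₁ ^ 2 + ξ₂ ^ 2 : ℝ) : ℂ) * (A.1 k + D.1 k) =
        ((4 * ξ₁ * ξ₂ : ℝ) : ℂ) * B.1 k + ((ξ₁ ^ 2 - ξ₂ ^ 2 : ℝ) : ℂ) * (A.1 k - D.1 k) := by
      push_cast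
      linear_combination 2 * hkey
    have hn := congrArg norm hid
    rw [norm_mul, Complex.norm_real, Real.norm_eq_abs, abs_of_pos hpos] at hn
    have h7 : (ξ₁ ^ 2 + ξ₂ ^ 2) * ‖A.1 k + D.1 k‖ ≤
        (ξ₁ ^ 2 + ξ₂ ^ 2) * (2 * ‖B.1 k‖ + ‖A.1 k - D.1 k‖) := by
      rw [hn]
      refine (norm_add_le _ _).trans ?_
      rw [norm_mul, norm_mul, Complex.norm_real, Complex.norm_real, Real.norm_eq_abs,
        Real.norm_eq_abs]
      have h8 : |4 * ξ₁ * ξ₂| ≤ 2 * (ξ₁ ^ 2 + ξ₂ ^ 2) := by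
        rw [abs_le]
        constructor <;> nlinarith [sq_nonneg (ξ₁ - ξ₂), sq_nonneg (ξ₁ + ξ₂)]
      have h9 : |ξ₁ ^ 2 - ξ₂ ^ 2| ≤ ξ₁ ^ 2 + ξ₂ ^ 2 := by
        rw [abs_le]
        constructor <;> nlinarith [sq_nonneg ξ₁, sq_nonneg ξ₂]
      have h10 := norm_nonneg (B.1 k)
      have h11 := norm_nonneg (A.1 k - D.1 k)
      have h12 := mul_le_mul_of_nonneg_right h8 h10
      have h13 := mul_le_mul_of_nonneg_right h9 h11
      nlinarith
    exact le_of_mul_le_mul_left h7 hpos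

theorem vanish (G : Geo) (E11 E12 E22 g11 g12 g22 : X W j) {ν : ℝ} (hν : ν ≤ 1 / 8)
    (hg11 : ‖g11‖ ≤ ν) (hg12 : ‖g12‖ ≤ ν) (hg22 : ‖g22‖ ≤ ν)
    (hA : tS E11 * (1 + tS g22) = tS E22 * (1 + tS g11))
    (hB : tS E12 * (1 + tS g11 + (1 + tS g22)) = (tS E11 + tS E22) * tS g12)
    (hC : Cop G (tS E11) (tS E12) (tS E22) = 0) (hM : mean (tS E11) = 0) :
    tS E11 = 0 ∧ tS E12 = 0 ∧ tS E22 = 0 := by
  have hnu : 0 ≤ ν := le_trans (norm_nonneg _) hg11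
  have hd : E11 - E22 = mulX E22 g11 - mulX E11 g22 := by
    apply X.ext'
    simp only [tS_sub, tS_mulX]
    linear_combination hA
  have h2B : (2 : ℝ) • E12 = mulX (E11 + E22) g12 - mulX E12 (g11 + g22) := by
    apply X.ext'
    simp only [tS_sub, tS_mulX, tS_smul, tS_add, two_smul]
    linear_combination hB
  have h2A : (2 : ℝ) • E11 = (E11 + E22) + (E11 - E22) := by
    rw [two_smul]
    abel
  have h2D : (2 : ℝ) • E22 = (E11 + E22) - (E11 - E22) := by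
    rw [two_smul]
    abel
  have hn2 : ∀ a : X W j, ‖(2 : ℝ) • a‖ = 2 * ‖a‖ := by
    intro a
    rw [norm_smul]
    simp
  set T := ‖E11 + E22‖ with hT
  set Dd := ‖E11 - E22‖ with hDd
  set Aa := ‖E12‖ with hAa
  have hT0 : 0 ≤ T := norm_nonneg _
  have hD0 : 0 ≤ Dd := norm_nonneg _
  have hA0 : 0 ≤ Aa := norm_nonneg _
  have b1 : 2 * ‖E11‖ ≤ T + Dd := by
    rw [← hn2, h2A]
    exact norm_add_le _ _
  have b2 : 2 * ‖E22‖ ≤ T + Dd := by
    rw [← hn2, h2D]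
    exact norm_sub_le _ _
  have b3 : Dd ≤ ‖E22‖ * ν + ‖E11‖ * ν := by
    rw [hDd, hd]
    refine (norm_sub_le _ _).trans (add_le_add ?_ ?_)
    · exact (norm_mulX_le _ _).trans (mul_le_mul_of_nonneg_left hg11 (norm_nonneg _))
    · exact (norm_mulX_le _ _).trans (mul_le_mul_of_nonneg_left hg22 (norm_nonneg _))
  have b4 : 2 * Aa ≤ T * ν + Aa * (ν + ν) := by
    rw [hAa, ← hn2, h2B]
    refine (norm_sub_le _ _).trans (add_le_add ?_ ?_)
    · exact (norm_mulX_le _ _).trans (mul_le_mul_of_nonneg_left hg12 (norm_nonneg _))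
    · refine (norm_mulX_le _ _).trans (mul_le_mul_of_nonneg_left ?_ (norm_nonneg _))
      exact (norm_add_le _ _).trans (add_le_add hg11 hg22)
  have b5 : T ≤ 2 * Aa + Dd := by
    rw [hT, hAa, hDd, X.norm_def, X.norm_def, X.norm_def, ← tsum_mul_left,
      ← (((X.summ E12).mul_left 2).tsum_add (X.summ (E11 - E22)))]
    refine Summable.tsum_le_tsum (fun k => ?_) (X.summ _) (((X.summ E12).mul_left 2).add (X.summ _))
    have hw := (W.wj_pos j k).le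
    have hc := coeff_bound G (tS E11) (tS E12) (tS E22) hC hM k
    show ‖(tS E11).1 k + (tS E22).1 k‖ * W.wj j k ≤
      2 * (‖(tS E12).1 k‖ * W.wj j k) + ‖(tS E11).1 k - (tS E22).1 k‖ * W.wj j k
    nlinarith
  have c1 : ‖E22‖ * ν + ‖E11‖ * ν ≤ (T + Dd) * (1 / 8) := by
    have h1 : (‖E22‖ + ‖E11‖) * ν ≤ (T + Dd) * (1 / 8) :=
      mul_le_mul (by linarith) hν hnu (by positivity)
    linarith
  have c2 : T * ν + Aa * (ν + ν) ≤ T * (1 / 8) + Aa * (1 / 8 + 1 / 8) := by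
    refine add_le_add (mul_le_mul_of_nonneg_left hν hT0) (mul_le_mul_of_nonneg_left ?_ hA0)
    linarith
  have hTz : T = 0 := by linarith
  have hDz : Dd = 0 := by linarith
  have hAz : Aa = 0 := by linarith
  have e1 : E11 + E22 = 0 := norm_eq_zero.mp hTz
  have e2 : E11 - E22 = 0 := norm_eq_zero.mp hDz
  have e3 : E12 = 0 := norm_eq_zero.mp hAz
  have e4 : (2 : ℝ) • E11 = 0 := by
    rw [h2A, e1, e2, add_zero]
  have e5 : (2 : ℝ) • E22 = 0 := by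
    rw [h2D, e1, e2, sub_zero]
  have e6 : E11 = 0 := by
    have := smul_eq_zero.mp e4
    simpa using this
  have e7 : E22 = 0 := by
    have := smul_eq_zero.mp e5
    simpa using this
  rw [e6, e3, e7]
  exact ⟨rfl, rfl, rfl⟩

end Vanish

/-- The conclusion of the algebra: the fixed point gives the exact conformal identity. -/
theorem Sy.E_zero {G : Geo} {σ : Sy} (h : Sy.FP G σ) {W : Wt} {j : ℕ}
    (E11 E12 E22 g11 g12 g22 : X W j)
    (h11 : tS E11 = Sy.E11 G σ) (h12 : tS E12 = Sy.E12 G σ) (h22 : tS E22 = Sy.E22 G σ)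
    (k11 : tS g11 = σ.e • Sy.Gh11 G σ) (k12 : tS g12 = σ.e • Sy.Gh12 G σ)
    (k22 : tS g22 = σ.e • Sy.Gh22 G σ)
    (b11 : ‖g11‖ ≤ 1 / 8) (b12 : ‖g12‖ ≤ 1 / 8) (b22 : ‖g22‖ ≤ 1 / 8) :
    Sy.E11 G σ = 0 ∧ Sy.E12 G σ = 0 ∧ Sy.E22 G σ = 0 := by
  have hdet : ∀ p, ev (Sy.G11 G σ) p * ev (Sy.G22 G σ) p - ev (Sy.G12 G σ) p ^ 2 ≠ 0 := by
    intro p
    have e1 : ev (Sy.G11 G σ) p = 1 + ev (tS g11) p := by
      rw [Sy.G11_eq, k11, ev_add, ev_one]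
    have e2 : ev (Sy.G12 G σ) p = ev (tS g12) p := by
      rw [Sy.G12_eq, k12]
    have e3 : ev (Sy.G22 G σ) p = 1 + ev (tS g22) p := by
      rw [Sy.G22_eq, k22, ev_add, ev_one]
    rw [e1, e2, e3]
    have c1 := abs_le.mp ((abs_ev_le_X g11 p).trans b11)
    have c2 := abs_le.mp ((abs_ev_le_X g12 p).trans b12)
    have c3 := abs_le.mp ((abs_ev_le_X g22 p).trans b22)
    have : 0 < (1 + ev (tS g11) p) * (1 + ev (tS g22) p) - ev (tS g12) p ^ 2 := by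
      nlinarith [c1.1, c1.2, c2.1, c2.2, c3.1, c3.2]
    exact this.ne'
  have hA : tS E11 * (1 + tS g22) = tS E22 * (1 + tS g11) := by
    rw [h11, h22, k11, k22, ← Sy.G11_eq, ← Sy.G22_eq]
    apply ev_injective
    intro p
    have := (mul_eq_zero.mp (Sy.prop1 h p)).resolve_left (hdet p)
    simp only [ev_mul]
    linarith
  have hB : tS E12 * (1 + tS g11 + (1 + tS g22)) = (tS E11 + tS E22) * tS g12 := by
    rw [h11, h12, h22, k11, k12, k22, ← Sy.G11_eq, ← Sy.G22_eq, ← Sy.G12_eq]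
    apply ev_injective
    intro p
    have := (mul_eq_zero.mp (Sy.prop2 h p)).resolve_left (hdet p)
    simp only [ev_mul, ev_add]
    linarith
  have hC : Cop G (tS E11) (tS E12) (tS E22) = 0 := by
    rw [h11, h12, h22]
    exact Sy.Cop_E h
  have hM : mean (tS E11) = 0 := by
    rw [h11]
    exact Sy.mean_E11 h
  obtain ⟨r1, r2, r3⟩ := vanish G E11 E12 E22 g11 g12 g22 (le_refl _) b11 b12 b22 hA hB hC hM
  rw [← h11, ← h12, ← h22]
  exact ⟨r1, r2, r3⟩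

end Vale.Agent.Lib.P205.Tor
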