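import Mathlib
import Vale.Agent.Lib.P205.Tor.Seq

/-!
Fourier coefficients of smooth doubly periodic functions: every smooth periodic real function on
the plane is the value of a rapidly decreasing real-symmetric coefficient sequence.
-/

open scoped BigOperators ComplexConjugate Real ContDiff
open MeasureTheory

namespace Vale.Agent.Lib.P205.Tor

namespace Input

/-- The one dimensional characters. -/
noncomputable def ee (n : ℤ) (x : ℝ) : ℂ := Complex.exp (2 * π * Complex.I * n * x)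

theorem continuous_ee (n : ℤ) : Continuous (ee n) := by
  unfold ee
  fun_prop

theorem norm_ee (n : ℤ) (x : ℝ) : ‖ee n x‖ = 1 := by
  unfold ee
  have : 2 * (π : ℂ) * Complex.I * n * x = ((2 * π * n * x : ℝ) : ℂ) * Complex.I := by
    push_cast
    ring
  rw [this, Complex.norm_exp_ofReal_mul_I]

theorem ee_one (n : ℤ) : ee n 1 = 1 := by
  unfold ee
  have : 2 * (π : ℂ) * Complex.I * n * ((1 : ℝ) : ℂ) = n * (2 * π * Complex.I) := by
    push_cast
    ring
  rw [this, Complex.exp_int_mul_two_pi_mul_I]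

theorem ee_zero (n : ℤ) : ee n 0 = 1 := by
  simp [ee]

theorem ee_add_one (n : ℤ) (x : ℝ) : ee n (x + 1) = ee n x := by
  unfold ee
  have : 2 * (π : ℂ) * Complex.I * n * ((x + 1 : ℝ) : ℂ)
      = 2 * π * Complex.I * n * x + n * (2 * π * Complex.I) := by
    push_cast
    ring
  rw [this, Complex.exp_add, Complex.exp_int_mul_two_pi_mul_I, mul_one]

theorem conj_ee (n : ℤ) (x : ℝ) : conj (ee n x) = ee (-n) x := by
  unfold ee
  rw [← Complex.exp_conj]
  congr 1
  simp only [map_mul, Complex.conj_ofReal, Complex.conj_I, map_ofNat, map_intCast]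
  push_cast
  ring

theorem hasDerivAt_ee (n : ℤ) (x : ℝ) :
    HasDerivAt (ee n) (2 * π * Complex.I * n * ee n x) x := by
  unfold ee
  have h1 : HasDerivAt (fun y : ℝ => (2 * π * Complex.I * n : ℂ) * ((y : ℝ) : ℂ))
      (2 * π * Complex.I * n) x := by
    have := (Complex.ofRealCLM.hasDerivAt (x := x)).const_mul (2 * π * Complex.I * n : ℂ)
    simpa using this
  have h2 := h1.cexp
  convert h2 using 1
  ring

/-- One dimensional Fourier inversion with summable coefficients. -/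
theorem hasSum_oneD (g : ℝ → ℂ) (hg : Continuous g) (hp : Function.Periodic g 1)
    (hs : Summable fun n : ℤ => ∫ x in (0 : ℝ)..1, ee (-n) x * g x) (x : ℝ) :
    HasSum (fun n : ℤ => (∫ y in (0 : ℝ)..1, ee (-n) y * g y) * ee n x) (g x) := by
  let F : C(UnitAddCircle, ℂ) := ⟨hp.lift, continuous_coinduced_dom.mpr hg⟩
  have hcoef : ∀ n, fourierCoeff F n = ∫ y in (0 : ℝ)..1, ee (-n) y * g y := by
    intro n
    rw [fourierCoeff_eq_intervalIntegral _ n 0]
    simp only [one_div, inv_one, one_smul, zero_add, smul_eq_mul]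
    apply intervalIntegral.integral_congr
    intro y _
    have h1 : F (y : UnitAddCircle) = g y := rfl
    have h2 : fourier (-n) (y : UnitAddCircle) = ee (-n) y := by
      rw [fourier_coe_apply]
      unfold ee
      congr 1
      simp
    simp only [h1, h2]
  have h := has_pointwise_sum_fourier_series_of_summable (f := F)
    ((summable_congr hcoef).mpr hs) (x : UnitAddCircle)
  have h1 : F (x : UnitAddCircle) = g x := rfl
  rw [h1] at h
  have h3 : (fun n : ℤ => (∫ y in (0 : ℝ)..1, ee (-n) y * g y) * ee n x)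
      = fun i => fourierCoeff F i • fourier i (x : UnitAddCircle) := by
    funext n
    have h2 : fourier n (x : UnitAddCircle) = ee n x := by
      rw [fourier_coe_apply]
      unfold ee
      congr 1
      simp
    rw [hcoef, h2, smul_eq_mul]
  rw [h3]
  exact h

/-- Integration by parts against a character. -/
theorem parts {u u' : ℝ → ℂ} (hu : ∀ x, HasDerivAt u (u' x) x) (hc : Continuous u')
    (hp : u 1 = u 0) (n : ℤ) :
    (∫ x in (0 : ℝ)..1, ee (-n) x * u' x)
      = (2 * π * Complex.I * n) * ∫ x in (0 : ℝ)..1, ee (-n) x * u x := by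
  have hcu : Continuous u := continuous_iff_continuousAt.mpr fun x => (hu x).continuousAt
  have h := intervalIntegral.integral_mul_deriv_eq_deriv_mul (a := 0) (b := 1)
    (u := u) (v := ee (-n)) (u' := u') (v' := fun x => 2 * π * Complex.I * (-n : ℤ) * ee (-n) x)
    (fun x _ => hu x) (fun x _ => hasDerivAt_ee (-n) x)
    (hc.intervalIntegrable _ _)
    (((continuous_ee (-n)).const_mul _).intervalIntegrable _ _)
  have h1 : (∫ x in (0 : ℝ)..1, u x * (2 * π * Complex.I * (-n : ℤ) * ee (-n) x))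
      = -(2 * π * Complex.I * n) * ∫ x in (0 : ℝ)..1, ee (-n) x * u x := by
    rw [← intervalIntegral.integral_const_mul]
    apply intervalIntegral.integral_congr
    intro x _
    simp only []
    push_cast
    ring
  have h2 : (∫ x in (0 : ℝ)..1, u' x * ee (-n) x) = ∫ x in (0 : ℝ)..1, ee (-n) x * u' x := by
    apply intervalIntegral.integral_congr
    intro x _
    simp only [mul_comm]
  rw [h1, ee_one, ee_zero, hp, h2] at h
  have h3 : (u 0 * 1 - u 0 * 1 : ℂ) = 0 := by ring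
  rw [h3] at h
  linear_combination h

/-- Fubini on the unit square for continuous functions. -/
theorem square_swap (G : ℝ × ℝ → ℂ) (hG : Continuous G) :
    (∫ s in (0 : ℝ)..1, ∫ t in (0 : ℝ)..1, G (s, t)) = ∫ t in (0 : ℝ)..1, ∫ s in (0 : ℝ)..1, G (s, t) := by
  have h01 : (0 : ℝ) ≤ 1 := zero_le_one
  simp only [intervalIntegral.integral_of_le h01]
  have hint : Integrable (Function.uncurry fun s t => G (s, t))
      ((volume.restrict (Set.Ioc (0 : ℝ) 1)).prod (volume.restrict (Set.Ioc (0 : ℝ) 1))) := by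
    rw [Measure.prod_restrict]
    have hc : Continuous (Function.uncurry fun s t => G (s, t)) := hG
    have hK : IsCompact (Set.Icc (0 : ℝ) 1 ×ˢ Set.Icc (0 : ℝ) 1) := isCompact_Icc.prod isCompact_Icc
    have := hc.continuousOn.integrableOn_compact (μ := (volume : Measure ℝ).prod (volume : Measure ℝ)) hK
    exact this.mono_set (Set.prod_mono Set.Ioc_subset_Icc_self Set.Ioc_subset_Icc_self)
  exact integral_integral_swap hint

/-- Smooth periodic functions. -/
structure IsPer (F : ℝ × ℝ → ℝ) : Prop where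
  smooth : ContDiff ℝ ∞ F
  per1 : ∀ s t, F (s + 1, t) = F (s, t)
  per2 : ∀ s t, F (s, t + 1) = F (s, t)

/-- The first partial derivative. -/
noncomputable def D1 (F : ℝ × ℝ → ℝ) : ℝ × ℝ → ℝ := fun p => fderiv ℝ F p (1, 0)

/-- The second partial derivative. -/
noncomputable def D2 (F : ℝ × ℝ → ℝ) : ℝ × ℝ → ℝ := fun p => fderiv ℝ F p (0, 1)

theorem contDiff_dir {F : ℝ × ℝ → ℝ} (hF : ContDiff ℝ ∞ F) (v : ℝ × ℝ) :
    ContDiff ℝ ∞ fun p => fderiv ℝ F p v := by
  have h1 : ContDiff ℝ ∞ (fderiv ℝ F) := hF.fderiv_right (by simp)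
  exact h1.clm_apply contDiff_const

theorem fderiv_per {F : ℝ × ℝ → ℝ} (a : ℝ × ℝ) (h : ∀ p, F (p + a) = F p) (p : ℝ × ℝ) :
    fderiv ℝ F (p + a) = fderiv ℝ F p := by
  have h1 : (fun x => F (x + a)) = F := funext h
  have h2 := fderiv_comp_add_right (𝕜 := ℝ) (f := F) (x := p) a
  rw [h1] at h2
  exact h2.symm

theorem IsPer.D1 {F : ℝ × ℝ → ℝ} (h : IsPer F) : IsPer (D1 F) where
  smooth := contDiff_dir h.smooth _
  per1 s t := by
    have := fderiv_per (F := F) (1, 0) (fun p => by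
      rcases p with ⟨a, b⟩
      simpa using h.per1 a b) (s, t)
    have h2 : ((s, t) : ℝ × ℝ) + (1, 0) = (s + 1, t) := by simp
    rw [h2] at this
    show fderiv ℝ F (s + 1, t) (1, 0) = fderiv ℝ F (s, t) (1, 0)
    rw [this]
  per2 s t := by
    have := fderiv_per (F := F) (0, 1) (fun p => by
      rcases p with ⟨a, b⟩
      simpa using h.per2 a b) (s, t)
    have h2 : ((s, t) : ℝ × ℝ) + (0, 1) = (s, t + 1) := by simp
    rw [h2] at this
    show fderiv ℝ F (s, t + 1) (1, 0) = fderiv ℝ F (s, t) (1, 0)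
    rw [this]

theorem IsPer.D2 {F : ℝ × ℝ → ℝ} (h : IsPer F) : IsPer (D2 F) where
  smooth := contDiff_dir h.smooth _
  per1 s t := by
    have := fderiv_per (F := F) (1, 0) (fun p => by
      rcases p with ⟨a, b⟩
      simpa using h.per1 a b) (s, t)
    have h2 : ((s, t) : ℝ × ℝ) + (1, 0) = (s + 1, t) := by simp
    rw [h2] at this
    show fderiv ℝ F (s + 1, t) (0, 1) = fderiv ℝ F (s, t) (0, 1)
    rw [this]
  per2 s t := by
    have := fderiv_per (F := F) (0, 1) (fun p => by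
      rcases p with ⟨a, b⟩
      simpa using h.per2 a b) (s, t)
    have h2 : ((s, t) : ℝ × ℝ) + (0, 1) = (s, t + 1) := by simp
    rw [h2] at this
    show fderiv ℝ F (s, t + 1) (0, 1) = fderiv ℝ F (s, t) (0, 1)
    rw [this]

theorem IsPer.cont {F : ℝ × ℝ → ℝ} (h : IsPer F) : Continuous F := h.smooth.continuous

theorem IsPer.diff {F : ℝ × ℝ → ℝ} (h : IsPer F) : Differentiable ℝ F :=
  h.smooth.differentiable (by simp)

/-- The partial coefficient in the first variable. -/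
noncomputable def coefT (F : ℝ × ℝ → ℝ) (n : ℤ) (t : ℝ) : ℂ :=
  ∫ s in (0 : ℝ)..1, ee (-n) s * (F (s, t) : ℂ)

/-- The partial coefficient in the second variable. -/
noncomputable def coefS (F : ℝ × ℝ → ℝ) (n : ℤ) (s : ℝ) : ℂ :=
  ∫ t in (0 : ℝ)..1, ee (-n) t * (F (s, t) : ℂ)

/-- The double coefficient. -/
noncomputable def coef (F : ℝ × ℝ → ℝ) (k : K2) : ℂ :=
  ∫ t in (0 : ℝ)..1, ee (-k.2) t * coefT F k.1 t

theorem continuous_coefT {F : ℝ × ℝ → ℝ} (hF : Continuous F) (n : ℤ) : Continuous (coefT F n) := by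
  unfold coefT
  apply intervalIntegral.continuous_parametric_intervalIntegral_of_continuous'
  have h1 : Continuous fun p : ℝ × ℝ => ee (-n) p.2 := (continuous_ee (-n)).comp continuous_snd
  have h2 : Continuous fun p : ℝ × ℝ => ((F (p.2, p.1) : ℝ) : ℂ) :=
    Complex.continuous_ofReal.comp (hF.comp (continuous_snd.prodMk continuous_fst))
  exact h1.mul h2

theorem coef_eq_swap {F : ℝ × ℝ → ℝ} (hF : Continuous F) (k : K2) :
    coef F k = ∫ s in (0 : ℝ)..1, ee (-k.1) s * coefS F k.2 s := by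
  unfold coef coefT coefS
  have h1 : ∀ t, ee (-k.2) t * (∫ s in (0 : ℝ)..1, ee (-k.1) s * (F (s, t) : ℂ))
      = ∫ s in (0 : ℝ)..1, ee (-k.1) s * ee (-k.2) t * (F (s, t) : ℂ) := by
    intro t
    rw [← intervalIntegral.integral_const_mul]
    apply intervalIntegral.integral_congr
    intro s _
    ring
  have h2 : ∀ s, ee (-k.1) s * (∫ t in (0 : ℝ)..1, ee (-k.2) t * (F (s, t) : ℂ))
      = ∫ t in (0 : ℝ)..1, ee (-k.1) s * ee (-k.2) t * (F (s, t) : ℂ) := by
    intro s
    rw [← intervalIntegral.integral_const_mul]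
    apply intervalIntegral.integral_congr
    intro t _
    ring
  simp only [h1, h2]
  have hG : Continuous fun p : ℝ × ℝ => ee (-k.1) p.1 * ee (-k.2) p.2 * (F (p.1, p.2) : ℂ) := by
    have h3 : Continuous fun p : ℝ × ℝ => ee (-k.1) p.1 := (continuous_ee _).comp continuous_fst
    have h4 : Continuous fun p : ℝ × ℝ => ee (-k.2) p.2 := (continuous_ee _).comp continuous_snd
    have h5 : Continuous fun p : ℝ × ℝ => ((F (p.1, p.2) : ℝ) : ℂ) :=
      Complex.continuous_ofReal.comp (hF.comp (continuous_fst.prodMk continuous_snd))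
    exact (h3.mul h4).mul h5
  exact (square_swap _ hG).symm

theorem hasDerivAt_D1 {F : ℝ × ℝ → ℝ} (hF : Differentiable ℝ F) (s t : ℝ) :
    HasDerivAt (fun x : ℝ => ((F (x, t) : ℝ) : ℂ)) ((D1 F (s, t) : ℝ) : ℂ) s := by
  have h1 := (hF (s, t)).hasFDerivAt
  have h2 : HasDerivAt (fun x : ℝ => (x, t)) ((1 : ℝ), (0 : ℝ)) s :=
    (hasDerivAt_id s).prodMk (hasDerivAt_const s t)
  have h3 := h1.comp_hasDerivAt s h2
  exact h3.ofReal_comp

theorem hasDerivAt_D2 {F : ℝ × ℝ → ℝ} (hF : Differentiable ℝ F) (s t : ℝ) :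
    HasDerivAt (fun x : ℝ => ((F (s, x) : ℝ) : ℂ)) ((D2 F (s, t) : ℝ) : ℂ) t := by
  have h1 := (hF (s, t)).hasFDerivAt
  have h2 : HasDerivAt (fun x : ℝ => (s, x)) ((0 : ℝ), (1 : ℝ)) t :=
    (hasDerivAt_const t s).prodMk (hasDerivAt_id t)
  have h3 := h1.comp_hasDerivAt t h2
  exact h3.ofReal_comp

theorem coefT_D1 {F : ℝ × ℝ → ℝ} (hF : IsPer F) (n : ℤ) (t : ℝ) :
    coefT (D1 F) n t = (2 * π * Complex.I * n) * coefT F n t := by
  unfold coefT
  apply parts (fun s => hasDerivAt_D1 hF.diff s t)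
  · exact Complex.continuous_ofReal.comp (hF.D1.cont.comp (continuous_id.prodMk continuous_const))
  · have := hF.per1 0 t
    simp only [zero_add] at this
    simp [this]

theorem coefS_D2 {F : ℝ × ℝ → ℝ} (hF : IsPer F) (n : ℤ) (s : ℝ) :
    coefS (D2 F) n s = (2 * π * Complex.I * n) * coefS F n s := by
  unfold coefS
  apply parts (fun t => hasDerivAt_D2 hF.diff s t)
  · exact Complex.continuous_ofReal.comp (hF.D2.cont.comp (continuous_const.prodMk continuous_id))
  · have := hF.per2 s 0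
    simp only [zero_add] at this
    simp [this]

theorem coef_D1 {F : ℝ × ℝ → ℝ} (hF : IsPer F) (k : K2) :
    coef (D1 F) k = (2 * π * Complex.I * k.1) * coef F k := by
  unfold coef
  rw [← intervalIntegral.integral_const_mul]
  apply intervalIntegral.integral_congr
  intro t _
  simp only []
  rw [coefT_D1 hF]
  ring

theorem coef_D2 {F : ℝ × ℝ → ℝ} (hF : IsPer F) (k : K2) :
    coef (D2 F) k = (2 * π * Complex.I * k.2) * coef F k := by
  rw [coef_eq_swap hF.D2.cont, coef_eq_swap hF.cont]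
  rw [← intervalIntegral.integral_const_mul]
  apply intervalIntegral.integral_congr
  intro s _
  simp only []
  rw [coefS_D2 hF]
  ring

/-- Uniform bound for the coefficients. -/
theorem coef_bound {F : ℝ × ℝ → ℝ} (hF : Continuous F) : ∃ C : ℝ, ∀ k, ‖coef F k‖ ≤ C := by
  obtain ⟨C, hC⟩ := (isCompact_Icc.prod isCompact_Icc :
    IsCompact (Set.Icc (0 : ℝ) 1 ×ˢ Set.Icc (0 : ℝ) 1)).exists_bound_of_continuousOn hF.continuousOn
  refine ⟨C, fun k => ?_⟩
  unfold coef
  have h1 : ∀ t ∈ Set.uIoc (0 : ℝ) 1, ‖ee (-k.2) t * coefT F k.1 t‖ ≤ C := by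
    intro t ht
    rw [Set.uIoc_of_le zero_le_one] at ht
    rw [norm_mul, norm_ee, one_mul]
    unfold coefT
    have h2 : ∀ s ∈ Set.uIoc (0 : ℝ) 1, ‖ee (-k.1) s * (F (s, t) : ℂ)‖ ≤ C := by
      intro s hs
      rw [Set.uIoc_of_le zero_le_one] at hs
      rw [norm_mul, norm_ee, one_mul, Complex.norm_real]
      exact hC (s, t) ⟨⟨hs.1.le, hs.2⟩, ⟨ht.1.le, ht.2⟩⟩
    have := intervalIntegral.norm_integral_le_of_norm_le_const h2
    simpa using this
  have := intervalIntegral.norm_integral_le_of_norm_le_const h1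
  simpa using this

theorem two_pi_ge_one : (1 : ℝ) ≤ 2 * π := by
  have := Real.pi_gt_three
  linarith

theorem decay1 (M : ℕ) : ∀ {F : ℝ × ℝ → ℝ}, IsPer F →
    ∃ C : ℝ, ∀ k : K2, ‖coef F k‖ * |(k.1 : ℝ)| ^ M ≤ C := by
  induction M with
  | zero =>
    intro F hF
    obtain ⟨C, hC⟩ := coef_bound hF.cont
    exact ⟨C, fun k => by simpa using hC k⟩
  | succ M ih =>
    intro F hF
    obtain ⟨C, hC⟩ := ih hF.D1
    refine ⟨C, fun k => ?_⟩
    have h1 := hC k
    rw [coef_D1 hF] at h1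
    have h2 : ‖(2 * π * Complex.I * k.1 : ℂ) * coef F k‖
        = 2 * π * |(k.1 : ℝ)| * ‖coef F k‖ := by
      simp [abs_of_pos Real.pi_pos]
    rw [h2] at h1
    have h3 : 0 ≤ ‖coef F k‖ * |(k.1 : ℝ)| ^ (M + 1) := by positivity
    have h4 : 2 * π * |(k.1 : ℝ)| * ‖coef F k‖ * |(k.1 : ℝ)| ^ M
        = 2 * π * (‖coef F k‖ * |(k.1 : ℝ)| ^ (M + 1)) := by
      rw [pow_succ]; ring
    rw [h4] at h1
    have h5 := two_pi_ge_one
    nlinarith

theorem decay2 (M : ℕ) : ∀ {F : ℝ × ℝ → ℝ}, IsPer F →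
    ∃ C : ℝ, ∀ k : K2, ‖coef F k‖ * |(k.2 : ℝ)| ^ M ≤ C := by
  induction M with
  | zero =>
    intro F hF
    obtain ⟨C, hC⟩ := coef_bound hF.cont
    exact ⟨C, fun k => by simpa using hC k⟩
  | succ M ih =>
    intro F hF
    obtain ⟨C, hC⟩ := ih hF.D2
    refine ⟨C, fun k => ?_⟩
    have h1 := hC k
    rw [coef_D2 hF] at h1
    have h2 : ‖(2 * π * Complex.I * k.2 : ℂ) * coef F k‖
        = 2 * π * |(k.2 : ℝ)| * ‖coef F k‖ := by
      simp [abs_of_pos Real.pi_pos]
    rw [h2] at h1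
    have h3 : 0 ≤ ‖coef F k‖ * |(k.2 : ℝ)| ^ (M + 1) := by positivity
    have h4 : 2 * π * |(k.2 : ℝ)| * ‖coef F k‖ * |(k.2 : ℝ)| ^ M
        = 2 * π * (‖coef F k‖ * |(k.2 : ℝ)| ^ (M + 1)) := by
      rw [pow_succ]; ring
    rw [h4] at h1
    have h5 := two_pi_ge_one
    nlinarith

theorem pow_three_bound (M : ℕ) {A B : ℝ} (hA : 0 ≤ A) (hB : 0 ≤ B) :
    (1 + A + B) ^ M ≤ 3 ^ M * (1 + A ^ M + B ^ M) := by
  have h3 : (0 : ℝ) ≤ 3 ^ M := by positivity
  have hAM : 0 ≤ A ^ M := pow_nonneg hA M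
  have hBM : 0 ≤ B ^ M := pow_nonneg hB M
  have hsum : 0 ≤ 1 + A + B := by linarith
  by_cases h1 : A ≤ 1 ∧ B ≤ 1
  · have h4 : (1 + A + B) ^ M ≤ 3 ^ M := pow_le_pow_left₀ hsum (by linarith [h1.1, h1.2]) M
    nlinarith
  by_cases h2 : B ≤ A
  · have hA1 : 1 ≤ A := by
      by_contra hc
      exact h1 ⟨by linarith, by linarith⟩
    have h4 : (1 + A + B) ^ M ≤ (3 * A) ^ M := pow_le_pow_left₀ hsum (by linarith) M
    rw [mul_pow] at h4
    nlinarith
  · have hB1 : 1 ≤ B := by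
      by_contra hc
      exact h1 ⟨by linarith, by linarith⟩
    have h4 : (1 + A + B) ^ M ≤ (3 * B) ^ M := pow_le_pow_left₀ hsum (by linarith) M
    rw [mul_pow] at h4
    nlinarith

theorem decay {F : ℝ × ℝ → ℝ} (hF : IsPer F) (M : ℕ) :
    ∃ C : ℝ, ∀ k : K2, ‖coef F k‖ * kn k ^ M ≤ C := by
  obtain ⟨C0, h0⟩ := coef_bound hF.cont
  obtain ⟨C1, h1⟩ := decay1 M hF
  obtain ⟨C2, h2⟩ := decay2 M hF
  refine ⟨3 ^ M * (C0 + C1 + C2), fun k => ?_⟩
  have h3 := pow_three_bound M (abs_nonneg (k.1 : ℝ)) (abs_nonneg (k.2 : ℝ))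
  have h4 : kn k = 1 + |(k.1 : ℝ)| + |(k.2 : ℝ)| := rfl
  rw [h4]
  have hn := norm_nonneg (coef F k)
  calc ‖coef F k‖ * (1 + |(k.1 : ℝ)| + |(k.2 : ℝ)|) ^ M
      ≤ ‖coef F k‖ * (3 ^ M * (1 + |(k.1 : ℝ)| ^ M + |(k.2 : ℝ)| ^ M)) :=
        mul_le_mul_of_nonneg_left h3 hn
    _ = 3 ^ M * (‖coef F k‖ + ‖coef F k‖ * |(k.1 : ℝ)| ^ M + ‖coef F k‖ * |(k.2 : ℝ)| ^ M) := by
        ring
    _ ≤ _ := by
        apply mul_le_mul_of_nonneg_left _ (by positivity)
        linarith [h0 k, h1 k, h2 k]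

/-- The summable comparison sequence on the lattice. -/
noncomputable def hh (n : ℤ) : ℝ := 1 / (1 + |(n : ℝ)|) ^ 2

theorem hh_nonneg (n : ℤ) : 0 ≤ hh n := by
  unfold hh; positivity

theorem summable_hh : Summable hh := by
  have h1 : Summable fun n : ℤ => 1 / (n : ℝ) ^ 2 :=
    Real.summable_one_div_int_pow.mpr (by norm_num)
  have h2 : Summable fun n : ℤ => if n = 0 then (1 : ℝ) else 0 :=
    (hasSum_ite_eq (0 : ℤ) (1 : ℝ)).summable
  refine Summable.of_nonneg_of_le hh_nonneg (fun n => ?_) (h1.add h2)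
  unfold hh
  by_cases h : n = 0
  · subst h
    simp
  · have h3 : (0 : ℝ) < (n : ℝ) ^ 2 := by
      have : (n : ℝ) ≠ 0 := by exact_mod_cast h
      positivity
    simp only [h, if_false, add_zero]
    apply one_div_le_one_div_of_le h3
    have h4 : (n : ℝ) ^ 2 = |(n : ℝ)| ^ 2 := (sq_abs _).symm
    rw [h4]
    have := abs_nonneg (n : ℝ)
    nlinarith

theorem rapid_coef {F : ℝ × ℝ → ℝ} (hF : IsPer F) : Rapid (coef F) := by
  intro m
  obtain ⟨C, hC⟩ := decay hF (m + 4)
  have hs : Summable fun k : K2 => C * (hh k.1 * hh k.2) :=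
    (Summable.mul_of_nonneg summable_hh summable_hh hh_nonneg hh_nonneg).mul_left C
  refine Summable.of_nonneg_of_le
    (fun k => mul_nonneg (norm_nonneg _) (pow_nonneg (kn_pos k).le m)) (fun k => ?_) hs
  have h1 := hC k
  have hk := kn_pos k
  have ha : 0 < 1 + |(k.1 : ℝ)| := by positivity
  have hb : 0 < 1 + |(k.2 : ℝ)| := by positivity
  have hka : 1 + |(k.1 : ℝ)| ≤ kn k := by
    have : kn k = 1 + |(k.1 : ℝ)| + |(k.2 : ℝ)| := rfl
    rw [this]
    linarith [abs_nonneg (k.2 : ℝ)]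
  have hkb : 1 + |(k.2 : ℝ)| ≤ kn k := by
    have : kn k = 1 + |(k.1 : ℝ)| + |(k.2 : ℝ)| := rfl
    rw [this]
    linarith [abs_nonneg (k.1 : ℝ)]
  have h2 : (1 + |(k.1 : ℝ)|) ^ 2 * (1 + |(k.2 : ℝ)|) ^ 2 ≤ kn k ^ 4 := by
    calc (1 + |(k.1 : ℝ)|) ^ 2 * (1 + |(k.2 : ℝ)|) ^ 2 ≤ kn k ^ 2 * kn k ^ 2 := by
          apply mul_le_mul (pow_le_pow_left₀ ha.le hka 2) (pow_le_pow_left₀ hb.le hkb 2)
            (by positivity) (by positivity)
      _ = kn k ^ 4 := by ring
  have h3 : hh k.1 * hh k.2 = 1 / ((1 + |(k.1 : ℝ)|) ^ 2 * (1 + |(k.2 : ℝ)|) ^ 2) := by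
    unfold hh
    rw [one_div_mul_one_div]
  rw [h3]
  have hP : 0 < (1 + |(k.1 : ℝ)|) ^ 2 * (1 + |(k.2 : ℝ)|) ^ 2 := by positivity
  rw [mul_one_div, le_div_iff₀ hP]
  have h4 : ‖coef F k‖ * kn k ^ m * kn k ^ 4 = ‖coef F k‖ * kn k ^ (m + 4) := by
    rw [pow_add]; ring
  have h5 : 0 ≤ ‖coef F k‖ * kn k ^ m := by positivity
  calc ‖coef F k‖ * kn k ^ m * ((1 + |(k.1 : ℝ)|) ^ 2 * (1 + |(k.2 : ℝ)|) ^ 2)
      ≤ ‖coef F k‖ * kn k ^ m * kn k ^ 4 := mul_le_mul_of_nonneg_left h2 h5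
    _ ≤ C := by rw [h4]; exact h1

/-- Symmetry of the coefficients of a real function. -/
theorem coef_neg {F : ℝ × ℝ → ℝ} (k : K2) : coef F (-k) = conj (coef F k) := by
  unfold coef coefT
  simp only [intervalIntegral.integral_of_le (zero_le_one' ℝ)]
  rw [← integral_conj]
  apply setIntegral_congr_fun measurableSet_Ioc
  intro t _
  simp only [map_mul, conj_ee, Prod.fst_neg, Prod.snd_neg]
  congr 1
  rw [← integral_conj]
  apply integral_congr_ae
  filter_upwards with s
  simp only [map_mul, conj_ee, Complex.conj_ofReal]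

/-- The one variable inversion in the first variable. -/
theorem summable_coefT {F : ℝ × ℝ → ℝ} (hF : IsPer F) (t : ℝ) : Summable (coefT F · t) := by
  -- bound for the second derivative at fixed height
  have hc : Continuous fun s : ℝ => D1 (D1 F) (s, t) :=
    hF.D1.D1.cont.comp (continuous_id.prodMk continuous_const)
  obtain ⟨C, hC⟩ := (isCompact_Icc : IsCompact (Set.Icc (0 : ℝ) 1)).exists_bound_of_continuousOn
    hc.continuousOn
  have hb : ∀ n : ℤ, ‖coefT (D1 (D1 F)) n t‖ ≤ C := by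
    intro n
    unfold coefT
    have h2 : ∀ s ∈ Set.uIoc (0 : ℝ) 1, ‖ee (-n) s * (D1 (D1 F) (s, t) : ℂ)‖ ≤ C := by
      intro s hs
      rw [Set.uIoc_of_le zero_le_one] at hs
      rw [norm_mul, norm_ee, one_mul, Complex.norm_real]
      exact hC s ⟨hs.1.le, hs.2⟩
    have := intervalIntegral.norm_integral_le_of_norm_le_const h2
    simpa using this
  have hs1 : Summable fun n : ℤ => 1 / (n : ℝ) ^ 2 :=
    Real.summable_one_div_int_pow.mpr (by norm_num)
  have h0 : Summable fun n : ℤ => if n = 0 then ‖coefT F 0 t‖ else 0 :=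
    (hasSum_ite_eq (0 : ℤ) ‖coefT F 0 t‖).summable
  have hle : ∀ n : ℤ, ‖coefT F n t‖ ≤ C * (1 / (n : ℝ) ^ 2) + (if n = 0 then ‖coefT F 0 t‖ else 0) := by
    intro n
    by_cases h : n = 0
    · subst h
      simp
    · have hn : (n : ℝ) ≠ 0 := by exact_mod_cast h
      have hn2 : 0 < (n : ℝ) ^ 2 := by positivity
      simp only [h, if_false, add_zero]
      have h1 := hb n
      rw [coefT_D1 hF.D1, coefT_D1 hF] at h1
      have h2 : ‖(2 * π * Complex.I * n : ℂ) * ((2 * π * Complex.I * n : ℂ) * coefT F n t)‖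
          = (2 * π) ^ 2 * ((n : ℝ) ^ 2 * ‖coefT F n t‖) := by
        simp [abs_of_pos Real.pi_pos]
        have : |(n : ℝ)| * (|(n : ℝ)|) = (n : ℝ) ^ 2 := by rw [← sq, sq_abs]
        rw [← this]
        ring
      rw [h2] at h1
      have h3 : (1 : ℝ) ≤ (2 * π) ^ 2 := one_le_pow₀ two_pi_ge_one
      have h4 : 0 ≤ (n : ℝ) ^ 2 * ‖coefT F n t‖ := by positivity
      have h5 : (n : ℝ) ^ 2 * ‖coefT F n t‖ ≤ C := by nlinarith
      rw [mul_one_div, le_div_iff₀ hn2]
      linarith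
  exact Summable.of_norm_bounded ((hs1.mul_left C).add h0) hle

theorem evC_of_coef {F : ℝ × ℝ → ℝ} (hF : IsPer F) (s t : ℝ) :
    HasSum (fun k : K2 => coef F k * ch k (s, t)) ((F (s, t) : ℝ) : ℂ) := by
  have hr := rapid_coef hF
  have hsum0 : Summable fun k : K2 => ‖coef F k‖ := by simpa using hr 0
  have hch : ∀ k : K2, ch k (s, t) = ee k.1 s * ee k.2 t := by
    intro k
    unfold ch ee
    rw [← Complex.exp_add]
    congr 1
    ring
  have hsum1 : Summable fun k : K2 => coef F k * ch k (s, t) := by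
    apply Summable.of_norm
    refine hsum0.congr (fun k => ?_)
    rw [norm_mul, norm_ch, mul_one]
  -- inner sums
  have hinner : ∀ n : ℤ, HasSum (fun m : ℤ => coef F (n, m) * ch (n, m) (s, t))
      (coefT F n t * ee n s) := by
    intro n
    have hper : Function.Periodic (coefT F n) 1 := by
      intro x
      unfold coefT
      apply intervalIntegral.integral_congr
      intro y _
      simp only []
      rw [hF.per2]
    have hsn : Summable fun m : ℤ => coef F (n, m) := by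
      have h := hsum0.prod_factor n
      exact h.of_norm
    have h := hasSum_oneD (coefT F n) (continuous_coefT hF.cont n) hper hsn t
    have h2 := h.mul_right (ee n s)
    have h3 : (fun m : ℤ => coef F (n, m) * ch (n, m) (s, t))
        = fun m : ℤ => (∫ y in (0 : ℝ)..1, ee (-m) y * coefT F n y) * ee m t * ee n s := by
      funext m
      rw [hch]
      show coef F (n, m) * (ee n s * ee m t) = coef F (n, m) * ee m t * ee n s
      ring
    rw [h3]
    exact h2
  have hper : Function.Periodic (fun x : ℝ => ((F (x, t) : ℝ) : ℂ)) 1 := by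
    intro x
    simp only []
    rw [hF.per1]
  have hcont : Continuous fun x : ℝ => ((F (x, t) : ℝ) : ℂ) :=
    Complex.continuous_ofReal.comp (hF.cont.comp (continuous_id.prodMk continuous_const))
  have houter := hasSum_oneD _ hcont hper (summable_coefT hF t) s
  have hfib := hsum1.hasSum.prod_fiberwise hinner
  have huniq := hfib.unique houter
  rw [← huniq]
  exact hsum1.hasSum

/-- The coefficient sequence of a smooth periodic function. -/
noncomputable def toS {F : ℝ × ℝ → ℝ} (hF : IsPer F) : S :=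
  ⟨coef F, rapid_coef hF, fun k => coef_neg k⟩

theorem ev_toS {F : ℝ × ℝ → ℝ} (hF : IsPer F) (p : ℝ × ℝ) : ev (toS hF) p = F p := by
  rcases p with ⟨s, t⟩
  have h := (evC_of_coef hF s t).tsum_eq
  have h2 : evC (toS hF) (s, t) = ((F (s, t) : ℝ) : ℂ) := h
  unfold ev
  rw [h2, Complex.ofReal_re]

end Input

/-- Every smooth doubly periodic real function comes from a coefficient sequence. -/
theorem exists_S_of_smooth (f : ℝ × ℝ → ℝ) (hf : ContDiff ℝ ∞ f)
    (h1 : ∀ s t, f (s + 1, t) = f (s, t)) (h2 : ∀ s t, f (s, t + 1) = f (s, t)) :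
    ∃ a : S, ∀ p, ev a p = f p :=
  ⟨Input.toS ⟨hf, h1, h2⟩, Input.ev_toS _⟩

end Vale.Agent.Lib.P205.Tor
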