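import Mathlib
import Vale.Agent.Lib.P205.Tor.Deriv
import Vale.Agent.Lib.P205.Tor.Input

/-!
Solvability of divergence form elliptic equations in the ring of Fourier sequences, by Galerkin
approximation with uniform estimates (module task for P205, see the team findings table).
-/

open scoped BigOperators ComplexConjugate Real ContDiff Topology
open Filter

namespace Vale.Agent.Lib.P205.Tor

noncomputable section

/-- Derivative in the first coordinate. -/
abbrev Dx : S →ₗ[ℝ] S := Dir 1 0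

/-- Derivative in the second coordinate. -/
abbrev Dy : S →ₗ[ℝ] S := Dir 0 1

/-! ### Parseval -/

theorem summable_normsq (a : S) : Summable fun k => ‖a.1 k‖ ^ 2 := by
  have h := summable_inner a.summable_norm a.summable_norm 0
  refine h.congr fun k => ?_
  have e : (0 : K2) - k = -k := by simp
  rw [norm_mul, e, a.sym, Complex.norm_conj]
  ring

theorem mean_mul_self (a : S) : mean (a * a) = ∑' k, ‖a.1 k‖ ^ 2 := by
  unfold mean
  rw [mul_apply]
  unfold conv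
  have e : ∀ k, a.1 k * a.1 (0 - k) = ((‖a.1 k‖ ^ 2 : ℝ) : ℂ) := by
    intro k
    have e : (0 : K2) - k = -k := by simp
    rw [e, a.sym, Complex.mul_conj, Complex.normSq_eq_norm_sq]
  simp_rw [e]
  rw [← Complex.ofReal_tsum, Complex.ofReal_re]

theorem normsq_le_mean (a : S) (k : K2) : ‖a.1 k‖ ^ 2 ≤ mean (a * a) := by
  rw [mean_mul_self]
  exact (summable_normsq a).le_tsum k (fun _ _ => by positivity)

theorem mean_mul_self_nonneg (a : S) : 0 ≤ mean (a * a) :=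
  (by positivity : (0 : ℝ) ≤ ‖a.1 0‖ ^ 2).trans (normsq_le_mean a 0)

theorem eq_zero_of_mean_mul_self {a : S} (h : mean (a * a) ≤ 0) : a = 0 := by
  apply S.ext
  intro k
  have h1 := normsq_le_mean a k
  have h2 : ‖a.1 k‖ ^ 2 = 0 := le_antisymm (h1.trans h) (by positivity)
  have h3 : ‖a.1 k‖ = 0 := by simpa using h2
  simpa using h3

/-- Integration by parts. -/
theorem mean_Dir_mul (x y : ℝ) (a b : S) : mean (Dir x y a * b) = - mean (a * Dir x y b) := by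
  have h := mean_Dir x y (a * b)
  rw [Dir_mul, mean_add] at h
  linarith

theorem mean_mul_Dir (x y : ℝ) (a b : S) : mean (a * Dir x y b) = - mean (Dir x y a * b) := by
  rw [mean_Dir_mul]; ring

/-! ### Positivity of the mean -/

theorem coef_zero_re (F : ℝ × ℝ → ℝ) :
    Input.coef F 0 = ((∫ t in (0 : ℝ)..1, ∫ s in (0 : ℝ)..1, F (s, t) : ℝ) : ℂ) := by
  unfold Input.coef Input.coefT
  have h1 : ∀ x : ℝ, Input.ee (-(0 : ℤ)) x = 1 := by
    intro x
    simp [Input.ee]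
  simp only [Prod.fst_zero, Prod.snd_zero, h1, one_mul]
  have h2 : ∀ t : ℝ, (∫ s in (0 : ℝ)..1, ((F (s, t) : ℝ) : ℂ))
      = ((∫ s in (0 : ℝ)..1, F (s, t) : ℝ) : ℂ) := by
    intro t
    exact intervalIntegral.integral_ofReal
  simp_rw [h2]
  exact intervalIntegral.integral_ofReal

theorem mean_nonneg_of_ev_nonneg (a : S) (h : ∀ p, 0 ≤ ev a p) : 0 ≤ mean a := by
  have hP : Input.IsPer (ev a) := ⟨contDiff_ev a, fun s t => ev_periodic_fst a s t,
    fun s t => ev_periodic_snd a s t⟩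
  have e : Input.toS hP = a := ev_injective (fun p => Input.ev_toS hP p)
  have e0 : a.1 0 = Input.coef (ev a) 0 :=
    congrArg (fun b : S => b.1 0) e.symm
  unfold mean
  rw [e0, coef_zero_re, Complex.ofReal_re]
  refine intervalIntegral.integral_nonneg zero_le_one fun t _ => ?_
  exact intervalIntegral.integral_nonneg zero_le_one fun s _ => h _

theorem mean_le_mean_of_ev_le (a b : S) (h : ∀ p, ev a p ≤ ev b p) : mean a ≤ mean b := by
  have := mean_nonneg_of_ev_nonneg (b - a) (fun p => by rw [ev_sub]; linarith [h p])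
  rw [mean_sub] at this
  linarith

/-! ### Sobolev forms -/

/-- The squared Sobolev norm of order `m`. -/
def QQ : ℕ → S → ℝ
  | 0, w => mean (w * w)
  | m + 1, w => QQ m w + QQ m (Dx w) + QQ m (Dy w)

theorem QQ_zero_eq (w : S) : QQ 0 w = mean (w * w) := rfl

theorem QQ_succ (m : ℕ) (w : S) : QQ (m + 1) w = QQ m w + QQ m (Dx w) + QQ m (Dy w) := rfl

theorem QQ_nonneg (m : ℕ) (w : S) : 0 ≤ QQ m w := by
  induction m generalizing w with
  | zero => exact mean_mul_self_nonneg w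
  | succ m ih =>
    rw [QQ_succ]
    have := ih w
    have := ih (Dx w)
    have := ih (Dy w)
    linarith

theorem QQ_zero_arg (m : ℕ) : QQ m 0 = 0 := by
  induction m with
  | zero =>
    rw [QQ_zero_eq, mul_zero]
    simp [mean]
  | succ m ih => rw [QQ_succ, map_zero, map_zero, ih]; simp

theorem QQ_le_succ (m : ℕ) (w : S) : QQ m w ≤ QQ (m + 1) w := by
  rw [QQ_succ]
  have := QQ_nonneg m (Dx w)
  have := QQ_nonneg m (Dy w)
  linarith

theorem QQ_add_le (m : ℕ) (a b : S) : QQ m (a + b) ≤ 2 * QQ m a + 2 * QQ m b := by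
  induction m generalizing a b with
  | zero =>
    simp only [QQ_zero_eq]
    have h := mean_mul_self_nonneg (a - b)
    have e1 : (a + b) * (a + b) = a * a + b * b + (2 : ℝ) • (a * b) := by
      rw [two_smul]; ring
    have e2 : (a - b) * (a - b) = a * a + b * b - (2 : ℝ) • (a * b) := by
      rw [two_smul]; ring
    rw [e2, mean_sub, mean_add] at h
    rw [e1, mean_add, mean_add]
    linarith
  | succ m ih =>
    simp only [QQ_succ, map_add]
    have h1 := ih a b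
    have h2 := ih (Dx a) (Dx b)
    have h3 := ih (Dy a) (Dy b)
    linarith

theorem QQ_neg (m : ℕ) (a : S) : QQ m (-a) = QQ m a := by
  induction m generalizing a with
  | zero => simp [QQ_zero_eq]
  | succ m ih => simp only [QQ_succ, map_neg, ih]

theorem QQ_sub_le (m : ℕ) (a b : S) : QQ m (a - b) ≤ 2 * QQ m a + 2 * QQ m b := by
  rw [sub_eq_add_neg]
  have := QQ_add_le m a (-b)
  rwa [QQ_neg] at this

/-- The weight of a mode. -/
def rho (k : K2) : ℝ := 1 + ‖dsym 1 0 k‖ ^ 2 + ‖dsym 0 1 k‖ ^ 2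

theorem one_le_rho (k : K2) : 1 ≤ rho k := by
  unfold rho
  have := sq_nonneg ‖dsym 1 0 k‖
  have := sq_nonneg ‖dsym 0 1 k‖
  linarith

theorem norm_Dx_sq (w : S) (k : K2) : ‖(Dx w).1 k‖ ^ 2 = ‖dsym 1 0 k‖ ^ 2 * ‖w.1 k‖ ^ 2 := by
  rw [Dir_apply, norm_mul, mul_pow]

theorem norm_Dy_sq (w : S) (k : K2) : ‖(Dy w).1 k‖ ^ 2 = ‖dsym 0 1 k‖ ^ 2 * ‖w.1 k‖ ^ 2 := by
  rw [Dir_apply, norm_mul, mul_pow]

theorem QQ_coef (m : ℕ) (w : S) (k : K2) : rho k ^ m * ‖w.1 k‖ ^ 2 ≤ QQ m w := by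
  induction m generalizing w with
  | zero => simpa [QQ_zero_eq] using normsq_le_mean w k
  | succ m ih =>
    rw [QQ_succ]
    have h1 := ih w
    have h2 := ih (Dx w)
    have h3 := ih (Dy w)
    rw [norm_Dx_sq] at h2
    rw [norm_Dy_sq] at h3
    have e : rho k ^ (m + 1) * ‖w.1 k‖ ^ 2 = rho k ^ m * ‖w.1 k‖ ^ 2
        + rho k ^ m * (‖dsym 1 0 k‖ ^ 2 * ‖w.1 k‖ ^ 2)
        + rho k ^ m * (‖dsym 0 1 k‖ ^ 2 * ‖w.1 k‖ ^ 2) := by
      rw [pow_succ]; unfold rho; ring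
    rw [e]
    linarith

/-- Multiplication by a fixed element is bounded in each Sobolev norm. -/
theorem QQ_mul_le (m : ℕ) (a : S) : ∃ M : ℝ, 0 ≤ M ∧ ∀ w, QQ m (a * w) ≤ M * QQ m w := by
  induction m generalizing a with
  | zero =>
    refine ⟨(∑' k, ‖a.1 k‖) ^ 2, by positivity, fun w => ?_⟩
    simp only [QQ_zero_eq]
    have e : (∑' k, ‖a.1 k‖) ^ 2 * mean (w * w) = mean (((∑' k, ‖a.1 k‖) ^ 2) • (w * w)) :=
      (mean_smul _ _).symm
    rw [e]
    refine mean_le_mean_of_ev_le _ _ fun p => ?_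
    rw [ev_smul]
    simp only [ev_mul]
    have h := abs_ev_le a p
    have h2 : ev a p ^ 2 ≤ (∑' k, ‖a.1 k‖) ^ 2 := by
      rw [← sq_abs]
      exact pow_le_pow_left₀ (abs_nonneg _) h 2
    nlinarith [mul_self_nonneg (ev w p)]
  | succ m ih =>
    obtain ⟨M0, hM0, h0⟩ := ih a
    obtain ⟨M1, hM1, h1⟩ := ih (Dx a)
    obtain ⟨M2, hM2, h2⟩ := ih (Dy a)
    refine ⟨M0 + 2 * M1 + 2 * M2 + 2 * M0, by positivity, fun w => ?_⟩
    rw [QQ_succ, QQ_succ]
    have e1 : Dx (a * w) = Dx a * w + a * Dx w := Dir_mul 1 0 a w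
    have e2 : Dy (a * w) = Dy a * w + a * Dy w := Dir_mul 0 1 a w
    rw [e1, e2]
    have h3 := QQ_add_le m (Dx a * w) (a * Dx w)
    have h4 := QQ_add_le m (Dy a * w) (a * Dy w)
    have h5 := h0 w
    have h6 := h1 w
    have h7 := h0 (Dx w)
    have h8 := h2 w
    have h9 := h0 (Dy w)
    have n0 := QQ_nonneg m w
    have n1 := QQ_nonneg m (Dx w)
    have n2 := QQ_nonneg m (Dy w)
    nlinarith [mul_nonneg hM0 n0, mul_nonneg hM0 n1, mul_nonneg hM0 n2, mul_nonneg hM1 n1,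
      mul_nonneg hM1 n2, mul_nonneg hM2 n1, mul_nonneg hM2 n2]

/-! ### Poincare -/

theorem int_pair_rho {k : K2} (hk : k ≠ 0) : 1 ≤ ‖dsym 1 0 k‖ ^ 2 + ‖dsym 0 1 k‖ ^ 2 := by
  have h2pi := Input.two_pi_ge_one
  have e1 : ‖dsym 1 0 k‖ = 2 * π * |(k.1 : ℝ)| := by
    rw [norm_dsym]; simp
  have e2 : ‖dsym 0 1 k‖ = 2 * π * |(k.2 : ℝ)| := by
    rw [norm_dsym]; simp
  rw [e1, e2]
  have hne : k.1 ≠ 0 ∨ k.2 ≠ 0 := by
    by_contra h
    push Not at h
    exact hk (Prod.ext h.1 h.2)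
  have h1 : ∀ n : ℤ, n ≠ 0 → 1 ≤ (2 * π * |(n : ℝ)|) ^ 2 := by
    intro n hn
    have : (1 : ℝ) ≤ |(n : ℝ)| := by
      have : (1 : ℤ) ≤ |n| := Int.one_le_abs hn
      exact_mod_cast this
    have h3 : 1 ≤ 2 * π * |(n : ℝ)| := by nlinarith
    nlinarith
  rcases hne with h | h
  · have := h1 _ h
    nlinarith [sq_nonneg (2 * π * |(k.2 : ℝ)|)]
  · have := h1 _ h
    nlinarith [sq_nonneg (2 * π * |(k.1 : ℝ)|)]

/-- The coefficient bound for a mean zero element: the mode zero vanishes. -/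
theorem coef_of_mean_zero {u : S} (hu : mean u = 0) (m : ℕ) (k : K2) :
    rho k ^ m * ‖u.1 k‖ ^ 2 ≤ QQ m (Dx u) + QQ m (Dy u) := by
  by_cases hk : k = 0
  · subst hk
    rw [coeff_zero_eq, hu]
    simp only [Complex.ofReal_zero, norm_zero]
    have := QQ_nonneg m (Dx u)
    have := QQ_nonneg m (Dy u)
    nlinarith
  · have h1 := QQ_coef m (Dx u) k
    have h2 := QQ_coef m (Dy u) k
    rw [norm_Dx_sq] at h1
    rw [norm_Dy_sq] at h2
    have h3 := int_pair_rho hk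
    have h4 : 0 ≤ rho k ^ m * ‖u.1 k‖ ^ 2 :=
      mul_nonneg (pow_nonneg (by linarith [one_le_rho k]) m) (by positivity)
    nlinarith

/-- The Poincare inequality. -/
theorem poincare {u : S} (hu : mean u = 0) :
    mean (u * u) ≤ mean (Dx u * Dx u) + mean (Dy u * Dy u) := by
  rw [mean_mul_self, mean_mul_self, mean_mul_self,
    ← (summable_normsq (Dx u)).tsum_add (summable_normsq (Dy u))]
  refine (summable_normsq u).tsum_le_tsum (fun k => ?_)
    ((summable_normsq (Dx u)).add (summable_normsq (Dy u)))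
  show ‖u.1 k‖ ^ 2 ≤ ‖(Dx u).1 k‖ ^ 2 + ‖(Dy u).1 k‖ ^ 2
  by_cases hk : k = 0
  · subst hk
    rw [coeff_zero_eq, hu]
    simp only [Complex.ofReal_zero, norm_zero]
    have := sq_nonneg ‖(Dx u).1 0‖
    have := sq_nonneg ‖(Dy u).1 0‖
    norm_num
    positivity
  · rw [norm_Dx_sq, norm_Dy_sq]
    have h3 := int_pair_rho hk
    have : 0 ≤ ‖u.1 k‖ ^ 2 := by positivity
    nlinarith

/-- Young inequality for the mean. -/
theorem mean_young (a b : S) {t : ℝ} (ht : 0 < t) :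
    mean (a * b) ≤ (t / 2) * mean (a * a) + (1 / (2 * t)) * mean (b * b) := by
  have h := mean_mul_self_nonneg (t • a - b)
  have e : (t • a - b) * (t • a - b) = (t ^ 2) • (a * a) - (2 * t) • (a * b) + b * b :=
    ev_injective fun p => by
      simp only [ev_mul, ev_sub, ev_add, ev_smul]
      ring
  rw [e, mean_add, mean_sub, mean_smul, mean_smul] at h
  have h2 : 2 * t * mean (a * b) ≤ t ^ 2 * mean (a * a) + mean (b * b) := by linarith
  have h3 : mean (a * b) = (2 * t * mean (a * b)) * (1 / (2 * t)) := by field_simp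
  rw [h3]
  have h4 := mul_le_mul_of_nonneg_right h2 (by positivity : 0 ≤ 1 / (2 * t))
  refine h4.trans (le_of_eq ?_)
  field_simp

/-! ### The operator -/

/-- The divergence form operator. -/
def Lop (A11 A12 A22 u : S) : S :=
  Dx (A11 * Dx u + A12 * Dy u) + Dy (A12 * Dx u + A22 * Dy u)

theorem mean_Lop (A11 A12 A22 u : S) : mean (Lop A11 A12 A22 u) = 0 := by
  unfold Lop
  rw [mean_add, mean_Dir, mean_Dir, add_zero]

/-- The operator as a linear map. -/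
def LopL (A11 A12 A22 : S) : S →ₗ[ℝ] S where
  toFun := Lop A11 A12 A22
  map_add' u v := by
    unfold Lop
    simp only [map_add, mul_add]
    abel
  map_smul' c u := by
    unfold Lop
    simp only [map_smul, mul_smul_comm, RingHom.id_apply, smul_add, map_add]

theorem LopL_apply (A11 A12 A22 u : S) : LopL A11 A12 A22 u = Lop A11 A12 A22 u := rfl

theorem energy (A11 A12 A22 u : S) :
    mean (u * Lop A11 A12 A22 u) = - mean (Dx u * (A11 * Dx u + A12 * Dy u))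
      - mean (Dy u * (A12 * Dx u + A22 * Dy u)) := by
  unfold Lop
  rw [mul_add, mean_add, mean_mul_Dir, mean_mul_Dir]
  ring

theorem coercive {A11 A12 A22 : S} {c : ℝ}
    (hell : ∀ p (x y : ℝ), c * (x ^ 2 + y ^ 2)
      ≤ ev A11 p * x ^ 2 + 2 * ev A12 p * (x * y) + ev A22 p * y ^ 2) (u : S) :
    c * (mean (Dx u * Dx u) + mean (Dy u * Dy u))
      ≤ mean (Dx u * (A11 * Dx u + A12 * Dy u)) + mean (Dy u * (A12 * Dx u + A22 * Dy u)) := by
  rw [← mean_add, ← mean_add, ← mean_smul]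
  refine mean_le_mean_of_ev_le _ _ fun p => ?_
  simp only [ev_smul, ev_add, ev_mul]
  have := hell p (ev (Dx u) p) (ev (Dy u) p)
  nlinarith

theorem Dir_Lop (A11 A12 A22 : S) (x y : ℝ) (u : S) :
    Dir x y (Lop A11 A12 A22 u) = Lop A11 A12 A22 (Dir x y u)
      + Dx (Dir x y A11 * Dx u + Dir x y A12 * Dy u)
      + Dy (Dir x y A12 * Dx u + Dir x y A22 * Dy u) := by
  unfold Lop
  rw [map_add, Dir_comm x y 1 0, Dir_comm x y 0 1]
  simp only [map_add, Dir_mul]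
  rw [Dir_comm x y 1 0 u, Dir_comm x y 0 1 u]
  abel

/-! ### Truncation -/

/-- The box of modes of size at most `n`. -/
def box (n : ℕ) : Finset K2 := Finset.Icc (-(n : ℤ)) n ×ˢ Finset.Icc (-(n : ℤ)) n

theorem mem_box {n : ℕ} {k : K2} :
    k ∈ box n ↔ (-(n : ℤ) ≤ k.1 ∧ k.1 ≤ n) ∧ (-(n : ℤ) ≤ k.2 ∧ k.2 ≤ n) := by
  simp [box, Finset.mem_product, Finset.mem_Icc]

theorem neg_mem_box {n : ℕ} {k : K2} : -k ∈ box n ↔ k ∈ box n := by
  simp only [mem_box, Prod.fst_neg, Prod.snd_neg]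
  constructor
  · rintro ⟨⟨h1, h2⟩, h3, h4⟩
    exact ⟨⟨by omega, by omega⟩, by omega, by omega⟩
  · rintro ⟨⟨h1, h2⟩, h3, h4⟩
    exact ⟨⟨by omega, by omega⟩, by omega, by omega⟩

/-- The symbol of the truncation. -/
def chi (n : ℕ) (k : K2) : ℂ := if k ∈ box n then 1 else 0

theorem chi_neg (n : ℕ) (k : K2) : chi n (-k) = chi n k := by
  unfold chi
  simp only [neg_mem_box]

theorem chi_poly (n : ℕ) : PolyB (chi n) := by
  refine ⟨1, 0, fun k => ?_⟩
  unfold chi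
  split_ifs <;> simp

theorem chi_sym (n : ℕ) (k : K2) : chi n (-k) = conj (chi n k) := by
  rw [chi_neg]
  unfold chi
  split_ifs <;> simp

/-- The truncation. -/
def Pn (n : ℕ) : S →ₗ[ℝ] S := act (chi n) (chi_poly n) (chi_sym n)

theorem Pn_apply (n : ℕ) (a : S) (k : K2) : (Pn n a).1 k = chi n k * a.1 k := rfl

theorem chi_mul_self (n : ℕ) (k : K2) : chi n k * chi n k = chi n k := by
  unfold chi
  split_ifs <;> simp

theorem Pn_Pn (n : ℕ) (a : S) : Pn n (Pn n a) = Pn n a := by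
  apply S.ext
  intro k
  rw [Pn_apply, Pn_apply, ← mul_assoc, chi_mul_self]

theorem Pn_Dir (n : ℕ) (x y : ℝ) (a : S) : Pn n (Dir x y a) = Dir x y (Pn n a) := by
  apply S.ext
  intro k
  rw [Pn_apply, Dir_apply, Dir_apply, Pn_apply]
  ring

theorem mean_Pn (n : ℕ) (a : S) : mean (Pn n a) = mean a := by
  unfold mean
  rw [Pn_apply]
  have : chi n 0 = 1 := by
    unfold chi
    rw [if_pos]
    rw [mem_box]
    simp
  rw [this, one_mul]

theorem mean_Pn_mul (n : ℕ) (a b : S) : mean (Pn n a * b) = mean (a * Pn n b) := by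
  unfold mean
  rw [mul_apply, mul_apply]
  unfold conv
  congr 2
  funext k
  rw [Pn_apply, Pn_apply]
  have e : (0 : K2) - k = -k := by simp
  rw [e, chi_neg]
  ring

theorem energy_trunc {A11 A12 A22 : S} {n : ℕ} {u g : S} (hu : Pn n u = u)
    (hg : Pn n (Lop A11 A12 A22 u) = Pn n g) :
    mean (u * Lop A11 A12 A22 u) = mean (u * g) := by
  calc mean (u * Lop A11 A12 A22 u) = mean (Pn n u * Lop A11 A12 A22 u) := by rw [hu]
    _ = mean (u * Pn n (Lop A11 A12 A22 u)) := mean_Pn_mul _ _ _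
    _ = mean (u * Pn n g) := by rw [hg]
    _ = mean (Pn n u * g) := (mean_Pn_mul _ _ _).symm
    _ = mean (u * g) := by rw [hu]

/-! ### The energy estimate -/

theorem est_zero {A11 A12 A22 : S} {c : ℝ} (hc : 0 < c)
    (hell : ∀ p (x y : ℝ), c * (x ^ 2 + y ^ 2)
      ≤ ev A11 p * x ^ 2 + 2 * ev A12 p * (x * y) + ev A22 p * y ^ 2)
    {n : ℕ} {u h W1 W2 : S} (hu : Pn n u = u) (hm : mean u = 0)
    (hg : Pn n (Lop A11 A12 A22 u) = Pn n (h + Dx W1 + Dy W2)) :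
    QQ 0 (Dx u) + QQ 0 (Dy u) ≤ (9 / (4 * c ^ 2)) * (QQ 0 h + QQ 0 W1 + QQ 0 W2) := by
  simp only [QQ_zero_eq]
  have e1 := energy_trunc hu hg
  have e2 := energy A11 A12 A22 u
  have e3 : mean (u * (h + Dx W1 + Dy W2))
      = mean (u * h) - mean (Dx u * W1) - mean (Dy u * W2) := by
    rw [mul_add, mul_add, mean_add, mean_add, mean_mul_Dir, mean_mul_Dir]
    ring
  have hco := coercive hell u
  have ht : 0 < c / 3 := by positivity
  have y1 := mean_young u (-h) ht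
  have y2 := mean_young (Dx u) W1 ht
  have y3 := mean_young (Dy u) W2 ht
  have en : (-h) * (-h) = h * h := by ring
  have en2 : u * (-h) = -(u * h) := by ring
  rw [en, en2, mean_neg] at y1
  have hp := poincare hm
  set G1 := mean (Dx u * Dx u)
  set G2 := mean (Dy u * Dy u)
  set r := 1 / (2 * (c / 3)) with hr
  have hr0 : r = 3 / (2 * c) := by rw [hr]; field_simp
  have hkey : (2 * c / 3) * (G1 + G2)
      ≤ r * (mean (h * h) + mean (W1 * W1) + mean (W2 * W2)) := by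
    have hU : (c / 3 / 2) * mean (u * u) ≤ (c / 3 / 2) * (G1 + G2) :=
      mul_le_mul_of_nonneg_left hp (by positivity)
    nlinarith
  have hpos : 0 < 2 * c / 3 := by positivity
  refine le_of_mul_le_mul_left ?_ hpos
  refine hkey.trans (le_of_eq ?_)
  rw [hr0]
  field_simp
  ring

/-- One step of the induction on the Sobolev order, in one direction. -/
theorem est_step_dir {A11 A12 A22 : S} {m : ℕ} {C M : ℝ} (hC : 0 ≤ C) (x y : ℝ)
    (hE : ∀ (n : ℕ) (u h W1 W2 : S), Pn n u = u → mean u = 0 →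
      Pn n (Lop A11 A12 A22 u) = Pn n (h + Dx W1 + Dy W2) →
      QQ m (Dx u) + QQ m (Dy u) ≤ C * (QQ m h + QQ m W1 + QQ m W2))
    (hM11 : ∀ w, QQ m (Dir x y A11 * w) ≤ M * QQ m w)
    (hM12 : ∀ w, QQ m (Dir x y A12 * w) ≤ M * QQ m w)
    (hM22 : ∀ w, QQ m (Dir x y A22 * w) ≤ M * QQ m w)
    {n : ℕ} {u h W1 W2 : S} (hu : Pn n u = u)
    (hg : Pn n (Lop A11 A12 A22 u) = Pn n (h + Dx W1 + Dy W2)) :
    QQ m (Dx (Dir x y u)) + QQ m (Dy (Dir x y u))
      ≤ C * (QQ m (Dir x y h) + 2 * QQ m (Dir x y W1) + 2 * QQ m (Dir x y W2)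
          + 8 * M * (QQ m (Dx u) + QQ m (Dy u))) := by
  set X1 := Dir x y A11 * Dx u + Dir x y A12 * Dy u with hX1
  set X2 := Dir x y A12 * Dx u + Dir x y A22 * Dy u with hX2
  have hv : Pn n (Dir x y u) = Dir x y u := by rw [Pn_Dir, hu]
  have hmv : mean (Dir x y u) = 0 := mean_Dir x y u
  have hcom := Dir_Lop A11 A12 A22 x y u
  have hgv : Pn n (Lop A11 A12 A22 (Dir x y u))
      = Pn n (Dir x y h + Dx (Dir x y W1 - X1) + Dy (Dir x y W2 - X2)) := by
    have e1 : Lop A11 A12 A22 (Dir x y u) = Dir x y (Lop A11 A12 A22 u) - Dx X1 - Dy X2 := by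
      rw [hcom]; abel
    have e2 : Pn n (Dir x y (Lop A11 A12 A22 u)) = Pn n (Dir x y (h + Dx W1 + Dy W2)) := by
      rw [Pn_Dir, hg, ← Pn_Dir]
    rw [e1, map_sub, map_sub, e2, ← map_sub, ← map_sub]
    congr 1
    simp only [map_add, map_sub]
    rw [Dir_comm x y 1 0, Dir_comm x y 0 1]
    abel
  have hest := hE n (Dir x y u) (Dir x y h) (Dir x y W1 - X1) (Dir x y W2 - X2) hv hmv hgv
  refine hest.trans (mul_le_mul_of_nonneg_left ?_ hC)
  have h1 := QQ_sub_le m (Dir x y W1) X1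
  have h2 := QQ_sub_le m (Dir x y W2) X2
  have h3 := QQ_add_le m (Dir x y A11 * Dx u) (Dir x y A12 * Dy u)
  have h4 := QQ_add_le m (Dir x y A12 * Dx u) (Dir x y A22 * Dy u)
  have h5 := hM11 (Dx u)
  have h6 := hM12 (Dy u)
  have h7 := hM12 (Dx u)
  have h8 := hM22 (Dy u)
  rw [← hX1] at h3
  rw [← hX2] at h4
  nlinarith

/-- The uniform estimates for the truncated equations. -/
theorem est_all {A11 A12 A22 : S} {c : ℝ} (hc : 0 < c)
    (hell : ∀ p (x y : ℝ), c * (x ^ 2 + y ^ 2)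
      ≤ ev A11 p * x ^ 2 + 2 * ev A12 p * (x * y) + ev A22 p * y ^ 2) (m : ℕ) :
    ∃ C : ℝ, 0 ≤ C ∧ ∀ (n : ℕ) (u h W1 W2 : S), Pn n u = u → mean u = 0 →
      Pn n (Lop A11 A12 A22 u) = Pn n (h + Dx W1 + Dy W2) →
      QQ m (Dx u) + QQ m (Dy u) ≤ C * (QQ m h + QQ m W1 + QQ m W2) := by
  induction m with
  | zero =>
    exact ⟨9 / (4 * c ^ 2), by positivity, fun n u h W1 W2 hu hm hg => est_zero hc hell hu hm hg⟩
  | succ m ih =>
    obtain ⟨C, hC, hE⟩ := ih
    obtain ⟨M1, n1, k1⟩ := QQ_mul_le m (Dx A11)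
    obtain ⟨M2, n2, k2⟩ := QQ_mul_le m (Dx A12)
    obtain ⟨M3, n3, k3⟩ := QQ_mul_le m (Dx A22)
    obtain ⟨M4, n4, k4⟩ := QQ_mul_le m (Dy A11)
    obtain ⟨M5, n5, k5⟩ := QQ_mul_le m (Dy A12)
    obtain ⟨M6, n6, k6⟩ := QQ_mul_le m (Dy A22)
    set M := M1 + M2 + M3 + M4 + M5 + M6 with hMdef
    have hM : 0 ≤ M := by positivity
    have up : ∀ (a : S) (Mi : ℝ), Mi ≤ M → (∀ w, QQ m (a * w) ≤ Mi * QQ m w) →
        ∀ w, QQ m (a * w) ≤ M * QQ m w := fun a Mi hi ha w =>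
      (ha w).trans (mul_le_mul_of_nonneg_right hi (QQ_nonneg m w))
    refine ⟨C + 2 * C + 16 * C ^ 2 * M, by positivity, fun n u h W1 W2 hu hm hg => ?_⟩
    have hx := est_step_dir (M := M) hC 1 0 hE (up _ _ (by rw [hMdef]; linarith) k1)
      (up _ _ (by rw [hMdef]; linarith) k2) (up _ _ (by rw [hMdef]; linarith) k3) hu hg
    have hy := est_step_dir (M := M) hC 0 1 hE (up _ _ (by rw [hMdef]; linarith) k4)
      (up _ _ (by rw [hMdef]; linarith) k5) (up _ _ (by rw [hMdef]; linarith) k6) hu hg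
    have h0 := hE n u h W1 W2 hu hm hg
    simp only [QQ_succ]
    set E := QQ m (Dx u) + QQ m (Dy u) with hEdef
    have nh := QQ_nonneg m h
    have nW1 := QQ_nonneg m W1
    have nW2 := QQ_nonneg m W2
    have nxh := QQ_nonneg m (Dx h)
    have nyh := QQ_nonneg m (Dy h)
    have nxW1 := QQ_nonneg m (Dx W1)
    have nyW1 := QQ_nonneg m (Dy W1)
    have nxW2 := QQ_nonneg m (Dx W2)
    have nyW2 := QQ_nonneg m (Dy W2)
    set S0 := QQ m h + QQ m W1 + QQ m W2 with hS0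
    set S1 := (QQ m h + QQ m (Dx h) + QQ m (Dy h)) + (QQ m W1 + QQ m (Dx W1) + QQ m (Dy W1))
      + (QQ m W2 + QQ m (Dx W2) + QQ m (Dy W2)) with hS1
    have hS01 : S0 ≤ S1 := by rw [hS0, hS1]; linarith
    have hS1n : 0 ≤ S1 := by rw [hS1]; positivity
    have hE1 : E ≤ C * S1 := h0.trans (mul_le_mul_of_nonneg_left hS01 hC)
    have hCM : 0 ≤ C * M := by positivity
    have hE2 : 16 * (C * M) * E ≤ 16 * (C * M) * (C * S1) :=
      mul_le_mul_of_nonneg_left hE1 (by positivity)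
    have hsum : QQ m (Dx h) + 2 * QQ m (Dx W1) + 2 * QQ m (Dx W2)
        + (QQ m (Dy h) + 2 * QQ m (Dy W1) + 2 * QQ m (Dy W2)) ≤ 2 * S1 := by
      rw [hS1]; linarith
    have hsumC := mul_le_mul_of_nonneg_left hsum hC
    have e : (C + 2 * C + 16 * C ^ 2 * M) * S1 = C * S1 + C * (2 * S1)
        + 16 * (C * M) * (C * S1) := by ring
    rw [e]
    have hxy : C * (QQ m (Dx h) + 2 * QQ m (Dx W1) + 2 * QQ m (Dx W2) + 8 * M * E)
        + C * (QQ m (Dy h) + 2 * QQ m (Dy W1) + 2 * QQ m (Dy W2) + 8 * M * E)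
        = C * (QQ m (Dx h) + 2 * QQ m (Dx W1) + 2 * QQ m (Dx W2)
        + (QQ m (Dy h) + 2 * QQ m (Dy W1) + 2 * QQ m (Dy W2))) + 16 * (C * M) * E := by ring
    have hx' : QQ m (Dx (Dx u)) + QQ m (Dy (Dx u))
        ≤ C * (QQ m (Dx h) + 2 * QQ m (Dx W1) + 2 * QQ m (Dx W2) + 8 * M * E) := hx
    have hy' : QQ m (Dx (Dy u)) + QQ m (Dy (Dy u))
        ≤ C * (QQ m (Dy h) + 2 * QQ m (Dy W1) + 2 * QQ m (Dy W2) + 8 * M * E) := hy
    have hEe : E = QQ m (Dx u) + QQ m (Dy u) := rfl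
    linarith

/-! ### Galerkin approximation -/

/-- The mean zero trigonometric polynomials of degree at most `n`. -/
def VV (n : ℕ) : Submodule ℝ S where
  carrier := {u | Pn n u = u ∧ mean u = 0}
  add_mem' := by
    rintro a b ⟨h1, h2⟩ ⟨h3, h4⟩
    refine ⟨by rw [map_add, h1, h3], by rw [mean_add, h2, h4, add_zero]⟩
  zero_mem' := ⟨map_zero _, by simp [mean]⟩
  smul_mem' := by
    rintro c a ⟨h1, h2⟩
    refine ⟨by rw [map_smul, h1], by rw [mean_smul, h2, mul_zero]⟩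

theorem VV_finite (n : ℕ) : FiniteDimensional ℝ (VV n) := by
  let φ : VV n →ₗ[ℝ] (↥(box n) → ℂ) :=
    { toFun := fun u k => u.1.1 k.1
      map_add' := fun _ _ => rfl
      map_smul' := fun _ _ => rfl }
  refine FiniteDimensional.of_injective φ ?_
  rw [injective_iff_map_eq_zero]
  rintro ⟨u, hu1, hu2⟩ h0
  have hz : ∀ k ∈ box n, u.1 k = 0 := fun k hk => congrFun h0 ⟨k, hk⟩
  apply Subtype.ext
  apply S.ext
  intro k
  show u.1 k = 0
  by_cases hk : k ∈ box n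
  · exact hz k hk
  · have : (Pn n u).1 k = u.1 k := congrArg (fun b : S => b.1 k) hu1
    rw [Pn_apply] at this
    unfold chi at this
    rw [if_neg hk, zero_mul] at this
    exact this.symm

theorem galerkin {A11 A12 A22 : S} {c : ℝ} (hc : 0 < c)
    (hell : ∀ p (x y : ℝ), c * (x ^ 2 + y ^ 2)
      ≤ ev A11 p * x ^ 2 + 2 * ev A12 p * (x * y) + ev A22 p * y ^ 2) (n : ℕ) {f : S}
    (hf : mean f = 0) :
    ∃ u : S, Pn n u = u ∧ mean u = 0 ∧ Pn n (Lop A11 A12 A22 u) = Pn n f := by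
  have := VV_finite n
  have hmem : ∀ x ∈ VV n, (Pn n ∘ₗ LopL A11 A12 A22) x ∈ VV n := by
    intro x _
    refine ⟨Pn_Pn n _, ?_⟩
    show mean (Pn n (Lop A11 A12 A22 x)) = 0
    rw [mean_Pn, mean_Lop]
  let T : VV n →ₗ[ℝ] VV n := (Pn n ∘ₗ LopL A11 A12 A22).restrict hmem
  have hinj : Function.Injective T := by
    rw [injective_iff_map_eq_zero]
    rintro ⟨u, hu1, hu2⟩ h0
    have h1 : Pn n (Lop A11 A12 A22 u) = 0 := congrArg Subtype.val h0
    have h2 : Pn n (Lop A11 A12 A22 u) = Pn n (0 + Dx 0 + Dy 0) := by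
      rw [h1]; simp
    have h3 := est_zero hc hell hu1 hu2 h2
    have hz : QQ 0 (0 : S) = 0 := QQ_zero_arg 0
    rw [hz] at h3
    simp only [add_zero, mul_zero, QQ_zero_eq] at h3
    have h4 := poincare hu2
    have h5 : mean (u * u) ≤ 0 := h4.trans h3
    have := eq_zero_of_mean_mul_self h5
    exact Subtype.ext this
  have hsurj : Function.Surjective T := LinearMap.injective_iff_surjective.1 hinj
  obtain ⟨⟨u, hu1, hu2⟩, hu⟩ := hsurj ⟨Pn n f, Pn_Pn n f, by rw [mean_Pn, hf]⟩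
  exact ⟨u, hu1, hu2, congrArg Subtype.val hu⟩

/-! ### Passing to the limit -/

theorem rapid_of_decay {a : K2 → ℂ} (h : ∀ M : ℕ, ∃ C : ℝ, ∀ k, ‖a k‖ * kn k ^ M ≤ C) :
    Rapid a := by
  intro m
  obtain ⟨C, hC⟩ := h (m + 4)
  have hs : Summable fun k : K2 => C * (Input.hh k.1 * Input.hh k.2) :=
    (Summable.mul_of_nonneg Input.summable_hh Input.summable_hh Input.hh_nonneg
      Input.hh_nonneg).mul_left C
  refine Summable.of_nonneg_of_le
    (fun k => mul_nonneg (norm_nonneg _) (pow_nonneg (kn_pos k).le m)) (fun k => ?_) hs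
  have h1 := hC k
  have hk := kn_pos k
  have ha : 0 < 1 + |(k.1 : ℝ)| := by positivity
  have hb : 0 < 1 + |(k.2 : ℝ)| := by positivity
  have hka : 1 + |(k.1 : ℝ)| ≤ kn k := by
    have : kn k = 1 + |(k.1 : ℝ)| + |(k.2 : ℝ)| := rfl
    rw [this]
    linarith [abs_nonneg (k.2 : ℝ)]
  have hkb : 1 + |(k.2 : ℝ)| ≤ kn k := by
    have : kn k = 1 + |(k.1 : ℝ)| + |(k.2 : ℝ)| := rfl
    rw [this]
    linarith [abs_nonneg (k.1 : ℝ)]
  have h2 : (1 + |(k.1 : ℝ)|) ^ 2 * (1 + |(k.2 : ℝ)|) ^ 2 ≤ kn k ^ 4 := by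
    calc (1 + |(k.1 : ℝ)|) ^ 2 * (1 + |(k.2 : ℝ)|) ^ 2 ≤ kn k ^ 2 * kn k ^ 2 := by
          apply mul_le_mul (pow_le_pow_left₀ ha.le hka 2) (pow_le_pow_left₀ hb.le hkb 2)
            (by positivity) (by positivity)
      _ = kn k ^ 4 := by ring
  have h3 : Input.hh k.1 * Input.hh k.2
      = 1 / ((1 + |(k.1 : ℝ)|) ^ 2 * (1 + |(k.2 : ℝ)|) ^ 2) := by
    unfold Input.hh
    rw [one_div_mul_one_div]
  rw [h3]
  have hP : 0 < (1 + |(k.1 : ℝ)|) ^ 2 * (1 + |(k.2 : ℝ)|) ^ 2 := by positivity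
  rw [mul_one_div, le_div_iff₀ hP]
  have h4 : ‖a k‖ * kn k ^ m * kn k ^ 4 = ‖a k‖ * kn k ^ (m + 4) := by
    rw [pow_add]; ring
  have h5 : 0 ≤ ‖a k‖ * kn k ^ m := by positivity
  calc ‖a k‖ * kn k ^ m * ((1 + |(k.1 : ℝ)|) ^ 2 * (1 + |(k.2 : ℝ)|) ^ 2)
      ≤ ‖a k‖ * kn k ^ m * kn k ^ 4 := mul_le_mul_of_nonneg_left h2 h5
    _ ≤ C := by rw [h4]; exact h1

theorem kn_sq_le_rho (k : K2) : kn k ^ 2 ≤ 3 * rho k := by
  have h2pi := Input.two_pi_ge_one
  have e1 : ‖dsym 1 0 k‖ = 2 * π * |(k.1 : ℝ)| := by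
    rw [norm_dsym]; simp
  have e2 : ‖dsym 0 1 k‖ = 2 * π * |(k.2 : ℝ)| := by
    rw [norm_dsym]; simp
  unfold rho kn
  rw [e1, e2]
  set x := |(k.1 : ℝ)|
  set y := |(k.2 : ℝ)|
  have hx : 0 ≤ x := abs_nonneg _
  have hy : 0 ≤ y := abs_nonneg _
  have h1 : x ^ 2 ≤ (2 * π * x) ^ 2 := pow_le_pow_left₀ hx (by nlinarith) 2
  have h2 : y ^ 2 ≤ (2 * π * y) ^ 2 := pow_le_pow_left₀ hy (by nlinarith) 2
  nlinarith [sq_nonneg (x - y), sq_nonneg (x - 1), sq_nonneg (y - 1)]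

theorem decay_of_rho {a : K2 → ℂ} {B : ℕ → ℝ}
    (h : ∀ m k, rho k ^ m * ‖a k‖ ^ 2 ≤ B m) (M : ℕ) :
    ∃ C : ℝ, ∀ k, ‖a k‖ * kn k ^ M ≤ C := by
  refine ⟨Real.sqrt (3 ^ M * B M), fun k => ?_⟩
  apply Real.le_sqrt_of_sq_le
  have h1 := h M k
  have hk : kn k ^ 2 ≤ 3 * rho k := kn_sq_le_rho k
  have h2 : (kn k ^ 2) ^ M ≤ (3 * rho k) ^ M :=
    pow_le_pow_left₀ (by positivity) hk M
  have h3 : (‖a k‖ * kn k ^ M) ^ 2 = ‖a k‖ ^ 2 * (kn k ^ 2) ^ M := by
    rw [mul_pow, ← pow_mul, ← pow_mul, mul_comm M 2]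
  rw [h3]
  calc ‖a k‖ ^ 2 * (kn k ^ 2) ^ M ≤ ‖a k‖ ^ 2 * (3 * rho k) ^ M :=
        mul_le_mul_of_nonneg_left h2 (by positivity)
    _ = 3 ^ M * (rho k ^ M * ‖a k‖ ^ 2) := by rw [mul_pow]; ring
    _ ≤ 3 ^ M * B M := mul_le_mul_of_nonneg_left h1 (by positivity)

theorem tendsto_mul_coef (A : S) {v : ℕ → S} {w : S} {R : ℝ} (hb : ∀ n l, ‖(v n).1 l‖ ≤ R)
    (hlim : ∀ l, Tendsto (fun n => (v n).1 l) atTop (𝓝 (w.1 l))) (k : K2) :
    Tendsto (fun n => (A * v n).1 k) atTop (𝓝 ((A * w).1 k)) := by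
  simp only [mul_apply]
  unfold conv
  refine tendsto_tsum_of_dominated_convergence (bound := fun j => ‖A.1 j‖ * R)
    (A.summable_norm.mul_right R) (fun j => (hlim (k - j)).const_mul _)
    (Eventually.of_forall fun n j => ?_)
  rw [norm_mul]
  exact mul_le_mul_of_nonneg_left (hb n _) (norm_nonneg _)

theorem Lop_apply (A11 A12 A22 v : S) (k : K2) :
    (Lop A11 A12 A22 v).1 k = dsym 1 0 k * ((A11 * Dx v).1 k + (A12 * Dy v).1 k)
      + dsym 0 1 k * ((A12 * Dx v).1 k + (A22 * Dy v).1 k) := rfl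

/-- Solvability of divergence form elliptic equations with zero mean right hand side. -/
theorem elliptic_solve (A11 A12 A22 f : S) (c : ℝ) (hc : 0 < c)
    (hell : ∀ p (x y : ℝ), c * (x ^ 2 + y ^ 2)
      ≤ ev A11 p * x ^ 2 + 2 * ev A12 p * (x * y) + ev A22 p * y ^ 2)
    (hf : mean f = 0) :
    ∃ u : S, Dir 1 0 (A11 * Dir 1 0 u + A12 * Dir 0 1 u)
      + Dir 0 1 (A12 * Dir 1 0 u + A22 * Dir 0 1 u) = f := by
  choose u hu1 hu2 hu3 using fun n => galerkin hc hell n hf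
  choose C hC hE using est_all hc hell
  set B : ℕ → ℝ := fun m => C m * QQ m f with hBdef
  have hB : ∀ m n, QQ m (Dx (u n)) + QQ m (Dy (u n)) ≤ B m := by
    intro m n
    have := hE m n (u n) f 0 0 (hu1 n) (hu2 n)
      (by rw [map_zero, map_zero, add_zero, add_zero]; exact hu3 n)
    simpa [QQ_zero_arg] using this
  have hcoef : ∀ m n k, rho k ^ m * ‖(u n).1 k‖ ^ 2 ≤ B m := fun m n k =>
    (coef_of_mean_zero (hu2 n) m k).trans (hB m n)
  set R := Real.sqrt (B 0) with hR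
  have hball : ∀ n k, ‖(u n).1 k‖ ≤ R := by
    intro n k
    apply Real.le_sqrt_of_sq_le
    simpa using hcoef 0 n k
  have hcomp : IsCompact (Set.pi Set.univ (fun _ : K2 => Metric.closedBall (0 : ℂ) R)) :=
    isCompact_univ_pi fun _ => isCompact_closedBall 0 R
  obtain ⟨a, -, φ, hφ, hlim⟩ := hcomp.tendsto_subseq (x := fun n => (u n).1)
    (fun n k _ => by simpa using hball n k)
  have hlimk : ∀ k, Tendsto (fun n => (u (φ n)).1 k) atTop (𝓝 (a k)) := fun k =>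
    tendsto_pi_nhds.1 hlim k
  have hbd : ∀ m k, rho k ^ m * ‖a k‖ ^ 2 ≤ B m := by
    intro m k
    have h1 : Tendsto (fun n => rho k ^ m * ‖(u (φ n)).1 k‖ ^ 2) atTop
        (𝓝 (rho k ^ m * ‖a k‖ ^ 2)) := ((hlimk k).norm.pow 2).const_mul _
    exact le_of_tendsto' h1 (fun n => hcoef m (φ n) k)
  have hsym : ∀ k, a (-k) = conj (a k) := by
    intro k
    have h1 : Tendsto (fun n => (u (φ n)).1 (-k)) atTop (𝓝 (conj (a k))) := by
      have h2 := (Complex.continuous_conj.tendsto (a k)).comp (hlimk k)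
      refine h2.congr (fun n => ?_)
      exact ((u (φ n)).sym k).symm
    exact tendsto_nhds_unique (hlimk (-k)) h1
  have hrap : Rapid a := rapid_of_decay (decay_of_rho hbd)
  let w : S := ⟨a, hrap, hsym⟩
  have hwc : ∀ k, w.1 k = a k := fun _ => rfl
  -- the derivatives converge and are uniformly bounded
  have hbx : ∀ n l, ‖(Dx (u (φ n))).1 l‖ ≤ R := by
    intro n l
    apply Real.le_sqrt_of_sq_le
    have h1 := normsq_le_mean (Dx (u (φ n))) l
    have h2 := hB 0 (φ n)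
    have h3 := QQ_nonneg 0 (Dy (u (φ n)))
    simp only [QQ_zero_eq] at h2 h3
    linarith
  have hby : ∀ n l, ‖(Dy (u (φ n))).1 l‖ ≤ R := by
    intro n l
    apply Real.le_sqrt_of_sq_le
    have h1 := normsq_le_mean (Dy (u (φ n))) l
    have h2 := hB 0 (φ n)
    have h3 := QQ_nonneg 0 (Dx (u (φ n)))
    simp only [QQ_zero_eq] at h2 h3
    linarith
  have hlx : ∀ l, Tendsto (fun n => (Dx (u (φ n))).1 l) atTop (𝓝 ((Dx w).1 l)) := fun l =>
    (hlimk l).const_mul _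
  have hly : ∀ l, Tendsto (fun n => (Dy (u (φ n))).1 l) atTop (𝓝 ((Dy w).1 l)) := fun l =>
    (hlimk l).const_mul _
  refine ⟨w, ?_⟩
  show Lop A11 A12 A22 w = f
  apply S.ext
  intro k
  have hL : Tendsto (fun n => (Lop A11 A12 A22 (u (φ n))).1 k) atTop
      (𝓝 ((Lop A11 A12 A22 w).1 k)) := by
    simp only [Lop_apply]
    exact (((tendsto_mul_coef A11 hbx hlx k).add (tendsto_mul_coef A12 hby hly k)).const_mul _).add
      (((tendsto_mul_coef A12 hbx hlx k).add (tendsto_mul_coef A22 hby hly k)).const_mul _)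
  have hev : ∀ᶠ n in atTop, (Lop A11 A12 A22 (u (φ n))).1 k = f.1 k := by
    refine eventually_atTop.2 ⟨k.1.natAbs + k.2.natAbs, fun n hn => ?_⟩
    have hφn : n ≤ φ n := hφ.id_le n
    have hmem : k ∈ box (φ n) := by
      rw [mem_box]
      refine ⟨⟨?_, ?_⟩, ?_, ?_⟩ <;> omega
    have h1 : (Pn (φ n) (Lop A11 A12 A22 (u (φ n)))).1 k = (Pn (φ n) f).1 k :=
      congrArg (fun b : S => b.1 k) (hu3 (φ n))
    rw [Pn_apply, Pn_apply] at h1
    unfold chi at h1
    rw [if_pos hmem, one_mul, one_mul] at h1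
    exact h1
  have hconst : Tendsto (fun n => (Lop A11 A12 A22 (u (φ n))).1 k) atTop (𝓝 (f.1 k)) :=
    tendsto_const_nhds.congr' (hev.mono fun n hn => hn.symm)
  exact tendsto_nhds_unique hL hconst

end

end Vale.Agent.Lib.P205.Tor
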