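import Mathlib

/-!
Global inversion for periodic perturbations of the identity of the plane, for P205.
-/

open scoped ContDiff

namespace Vale.Agent.Lib.P205.Tor

/-- A continuous doubly periodic function on the plane is bounded. -/
theorem exists_bound_periodic (f : ℝ × ℝ → ℝ) (hf : Continuous f)
    (f1 : ∀ x y, f (x + 1, y) = f (x, y)) (f2 : ∀ x y, f (x, y + 1) = f (x, y)) :
    ∃ B : ℝ, ∀ p, |f p| ≤ B := by
  have hK : IsCompact (Set.Icc (0 : ℝ) 1 ×ˢ Set.Icc (0 : ℝ) 1) := isCompact_Icc.prod isCompact_Icc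
  obtain ⟨B, hB⟩ := (hK.image hf).isBounded.exists_norm_le
  refine ⟨B, fun p => ?_⟩
  have h1 : ∀ y, Function.Periodic (fun x => f (x, y)) 1 := fun y x => f1 x y
  have h2 : ∀ x, Function.Periodic (fun y => f (x, y)) 1 := fun x y => f2 x y
  have e1 : f (Int.fract p.1, p.2) = f p := by
    have h := (h1 p.2).sub_zsmul_eq (x := p.1) ⌊p.1⌋
    have e : Int.fract p.1 = p.1 - ⌊p.1⌋ • (1 : ℝ) := by
      rw [zsmul_one]; rfl
    rw [e]
    exact h
  have e2 : f (Int.fract p.1, Int.fract p.2) = f (Int.fract p.1, p.2) := by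
    have h := (h2 (Int.fract p.1)).sub_zsmul_eq (x := p.2) ⌊p.2⌋
    have e : Int.fract p.2 = p.2 - ⌊p.2⌋ • (1 : ℝ) := by
      rw [zsmul_one]; rfl
    rw [e]
    exact h
  have hq : (Int.fract p.1, Int.fract p.2) ∈ Set.Icc (0 : ℝ) 1 ×ˢ Set.Icc (0 : ℝ) 1 :=
    ⟨⟨Int.fract_nonneg _, (Int.fract_lt_one _).le⟩, ⟨Int.fract_nonneg _, (Int.fract_lt_one _).le⟩⟩
  have := hB _ ⟨_, hq, rfl⟩
  rw [e2, e1] at this
  simpa using this

/-- The main global inversion statement. -/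
theorem global_inverse (f g : ℝ × ℝ → ℝ) (hf : ContDiff ℝ ∞ f) (hg : ContDiff ℝ ∞ g)
    (f1 : ∀ x y, f (x + 1, y) = f (x, y)) (f2 : ∀ x y, f (x, y + 1) = f (x, y))
    (g1 : ∀ x y, g (x + 1, y) = g (x, y)) (g2 : ∀ x y, g (x, y + 1) = g (x, y))
    (hinv : ∀ p, (fderiv ℝ (fun q : ℝ × ℝ => (q.1 + f q, q.2 + g q)) p).det ≠ 0) :
    ∃ Φ : ℝ × ℝ → ℝ × ℝ, ContDiff ℝ ∞ Φ ∧ (∀ p, Φ (p.1 + f p, p.2 + g p) = p) ∧
      (∀ p, (Φ p).1 + f (Φ p) = p.1 ∧ (Φ p).2 + g (Φ p) = p.2) := by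
  set Ψ : ℝ × ℝ → ℝ × ℝ := fun q => (q.1 + f q, q.2 + g q) with hΨ
  have hΨs : ContDiff ℝ ∞ Ψ := (contDiff_fst.add hf).prodMk (contDiff_snd.add hg)
  have hΨc : Continuous Ψ := hΨs.continuous
  have hn : (∞ : WithTop ℕ∞) ≠ 0 := by simp
  -- invertible derivatives
  have hder : ∀ p, ∃ A : (ℝ × ℝ) ≃L[ℝ] (ℝ × ℝ), HasFDerivAt Ψ (A : (ℝ × ℝ) →L[ℝ] (ℝ × ℝ)) p := by
    intro p
    have hd : HasFDerivAt Ψ (fderiv ℝ Ψ p) p :=
      (hΨs.differentiable (by simp) p).hasFDerivAt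
    have hu : LinearMap.det ((fderiv ℝ Ψ p : (ℝ × ℝ) →L[ℝ] (ℝ × ℝ)) : (ℝ × ℝ) →ₗ[ℝ] (ℝ × ℝ)) ≠ 0 :=
      hinv p
    refine ⟨(LinearMap.equivOfDetNeZero _ hu).toContinuousLinearEquiv, ?_⟩
    convert hd using 1
    ext <;> simp
  -- local homeomorphism
  have hloc : IsLocalHomeomorph Ψ := by
    intro p
    obtain ⟨A, hA⟩ := hder p
    have hc : ContDiffAt ℝ ∞ Ψ p := hΨs.contDiffAt
    exact ⟨hc.toOpenPartialHomeomorph Ψ hA hn, hc.mem_toOpenPartialHomeomorph_source hA hn,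
      (hc.toOpenPartialHomeomorph_coe hA hn).symm⟩
  -- proper
  obtain ⟨B1, hB1⟩ := exists_bound_periodic f hf.continuous f1 f2
  obtain ⟨B2, hB2⟩ := exists_bound_periodic g hg.continuous g1 g2
  have hprop : IsProperMap Ψ := by
    refine isProperMap_iff_isCompact_preimage.2 ⟨hΨc, fun K hK => ?_⟩
    obtain ⟨r, hr⟩ := hK.isBounded.exists_norm_le
    refine Metric.isCompact_of_isClosed_isBounded (hK.isClosed.preimage hΨc) ?_
    refine (Metric.isBounded_closedBall (x := (0 : ℝ × ℝ)) (r := r + max B1 B2)).subset ?_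
    intro p hp
    have h := hr _ hp
    rw [mem_closedBall_zero_iff]
    have h1 := hB1 p
    have h2 := hB2 p
    have h3 : ‖p - Ψ p‖ ≤ max B1 B2 := by
      rw [Prod.norm_def]
      refine max_le_max ?_ ?_
      · simpa [hΨ] using h1
      · simpa [hΨ] using h2
    calc ‖p‖ = ‖Ψ p + (p - Ψ p)‖ := by rw [add_sub_cancel]
      _ ≤ ‖Ψ p‖ + ‖p - Ψ p‖ := norm_add_le _ _
      _ ≤ r + max B1 B2 := add_le_add h h3
  -- covering
  have hcov : IsCoveringMap Ψ := by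
    rw [isCoveringMap_iff_isCoveringMapOn_univ]
    refine hprop.isClosedMap.isCoveringMapOn_of_isLocalHomeomorphOn ?_ ?_
    · intro x _
      refine (hprop.isCompact_preimage isCompact_singleton).finite ?_
      exact IsDiscrete.of_openPartialHomeomorph Ψ subset_rfl fun e _ => by
        obtain ⟨φ, hφ, h⟩ := hloc e
        exact ⟨φ, hφ, h.symm⟩
    · rw [Set.preimage_univ, ← isLocalHomeomorph_iff_isLocalHomeomorphOn_univ]
      exact hloc
  -- lift of the identity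
  obtain ⟨F, ⟨hF0, hF⟩, -⟩ := hcov.existsUnique_continuousMap_lifts (ContinuousMap.id (ℝ × ℝ))
    (Ψ 0) 0 rfl
  have hFΨ : ∀ p, Ψ (F p) = p := fun p => congrFun hF p
  have hΨF : ∀ p, F (Ψ p) = p := by
    have h := hcov.eq_of_comp_eq (g₁ := fun p => F (Ψ p)) (g₂ := id) (F.continuous.comp hΨc)
      continuous_id (funext fun p => hFΨ (Ψ p)) 0 hF0
    exact fun p => congrFun h p
  refine ⟨F, ?_, hΨF, fun p => ?_⟩
  · -- smoothness
    rw [contDiff_iff_contDiffAt]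
    intro q
    obtain ⟨A, hA⟩ := hder (F q)
    have hc : ContDiffAt ℝ ∞ Ψ (F q) := hΨs.contDiffAt
    have hinvL := hc.to_localInverse hA hn
    rw [hFΨ q] at hinvL
    refine hinvL.congr_of_eventuallyEq ?_
    -- `F` coincides with the local inverse near `q`
    have hmem : F q ∈ (hc.toOpenPartialHomeomorph Ψ hA hn).source :=
      hc.mem_toOpenPartialHomeomorph_source hA hn
    have hev : ∀ᶠ q' in nhds q, F q' ∈ (hc.toOpenPartialHomeomorph Ψ hA hn).source :=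
      F.continuous.continuousAt.eventually
        ((hc.toOpenPartialHomeomorph Ψ hA hn).open_source.mem_nhds hmem)
    filter_upwards [hev] with q' hq'
    have h2 := (hc.toOpenPartialHomeomorph Ψ hA hn).left_inv hq'
    have h3 : (hc.toOpenPartialHomeomorph Ψ hA hn) (F q') = q' := hFΨ q'
    rw [h3] at h2
    exact h2.symm
  · have h := hFΨ p
    exact ⟨congrArg Prod.fst h, congrArg Prod.snd h⟩

end Vale.Agent.Lib.P205.Tor
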