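import Mathlib
import Vale.Agent.Lib.P205.Tor.Algebra

/-!
The polynomial part of the fixed point map, as bounded and Lipschitz maps on bounded sets.
-/

open scoped BigOperators ComplexConjugate Real ContDiff

namespace Vale.Agent.Lib.P205.Tor

section Prod

variable {A B B' : Type*} [NormedAddCommGroup A] [NormedAddCommGroup B] [NormedAddCommGroup B']
  {s : Set A}

theorem LB.prod {f : A → B} {g : A → B'} (hf : LB s f) (hg : LB s g) :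
    LB s (fun x => (f x, g x)) := by
  obtain ⟨⟨C1, h1, hC1⟩, ⟨L1, h2, hL1⟩⟩ := hf
  obtain ⟨⟨C2, h3, hC2⟩, ⟨L2, h4, hL2⟩⟩ := hg
  refine ⟨⟨max C1 C2, le_max_of_le_left h1, fun x hx => ?_⟩,
    ⟨max L1 L2, le_max_of_le_left h2, fun x hx y hy => ?_⟩⟩
  · rw [Prod.norm_def]
    exact max_le_max (hC1 x hx) (hC2 x hx)
  · have e : (f x, g x) - (f y, g y) = (f x - f y, g x - g y) := rfl
    rw [e, Prod.norm_def]
    have hd := norm_nonneg (x - y)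
    refine max_le ?_ ?_
    · exact (hL1 x hx y hy).trans (mul_le_mul_of_nonneg_right (le_max_left _ _) hd)
    · exact (hL2 x hx y hy).trans (mul_le_mul_of_nonneg_right (le_max_right _ _) hd)

theorem LB.of_proj {pr : A → B} (h0 : ∀ x, ‖pr x‖ ≤ ‖x‖) (h1 : ∀ x y, pr x - pr y = pr (x - y))
    {R : ℝ} (hs : ∀ x ∈ s, ‖x‖ ≤ R) : LB s pr := by
  refine ⟨⟨|R|, abs_nonneg _, fun x hx => (h0 x).trans ((hs x hx).trans (le_abs_self R))⟩,
    ⟨1, zero_le_one, fun x _ y _ => ?_⟩⟩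
  rw [h1, one_mul]
  exact h0 _

end Prod

variable {W : Wt}

/-- The constant functions. -/
noncomputable def cstX {j : ℕ} (c : ℝ) : X W j := mkX (cst c) (summable_deltaZero c (W.wj j))

theorem tS_cstX {j : ℕ} (c : ℝ) : tS (cstX c : X W j) = cst c := rfl

theorem cstX_eq {j : ℕ} (c : ℝ) : (cstX c : X W j) = c • oneX := by
  apply X.ext'
  show cst c = c • (1 : S)
  rw [smul_eq_cst_mul, mul_one]

theorem LB.cstX {A : Type*} [NormedAddCommGroup A] {s : Set A} {j : ℕ} {f : A → ℝ} (hf : LB s f) :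
    LB s (fun x => (Tor.cstX (f x) : X W j)) := by
  simp only [cstX_eq]
  exact hf.smul (LB.const _)

/-- The intermediate variables. -/
abbrev In (W : Wt) := X W 2 × X W 2 × X W 2 × X W 2 × X W 2 × ℝ × ℝ × ℝ

namespace In

noncomputable def yh (i : In W) : X W 2 := i.1
noncomputable def p1 (i : In W) : X W 2 := i.2.1
noncomputable def p2 (i : In W) : X W 2 := i.2.2.1
noncomputable def s1 (i : In W) : X W 2 := i.2.2.2.1
noncomputable def s2 (i : In W) : X W 2 := i.2.2.2.2.1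
noncomputable def m1 (i : In W) : ℝ := i.2.2.2.2.2.1
noncomputable def m2 (i : In W) : ℝ := i.2.2.2.2.2.2.1
noncomputable def e (i : In W) : ℝ := i.2.2.2.2.2.2.2

variable {t : Set (In W)} {R : ℝ}

theorem lb_yh (ht : ∀ i ∈ t, ‖i‖ ≤ R) : LB t (yh (W := W)) :=
  LB.of_proj (fun x => norm_fst_le x) (fun _ _ => rfl) ht

theorem lb_p1 (ht : ∀ i ∈ t, ‖i‖ ≤ R) : LB t (p1 (W := W)) :=
  LB.of_proj (fun x => (norm_fst_le x.2).trans (norm_snd_le x)) (fun _ _ => rfl) ht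

theorem lb_p2 (ht : ∀ i ∈ t, ‖i‖ ≤ R) : LB t (p2 (W := W)) :=
  LB.of_proj (fun x => (norm_fst_le x.2.2).trans ((norm_snd_le x.2).trans (norm_snd_le x)))
    (fun _ _ => rfl) ht

theorem lb_s1 (ht : ∀ i ∈ t, ‖i‖ ≤ R) : LB t (s1 (W := W)) :=
  LB.of_proj (fun x => (norm_fst_le x.2.2.2).trans ((norm_snd_le x.2.2).trans
    ((norm_snd_le x.2).trans (norm_snd_le x)))) (fun _ _ => rfl) ht

theorem lb_s2 (ht : ∀ i ∈ t, ‖i‖ ≤ R) : LB t (s2 (W := W)) :=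
  LB.of_proj (fun x => (norm_fst_le x.2.2.2.2).trans ((norm_snd_le x.2.2.2).trans
    ((norm_snd_le x.2.2).trans ((norm_snd_le x.2).trans (norm_snd_le x))))) (fun _ _ => rfl) ht

theorem lb_m1 (ht : ∀ i ∈ t, ‖i‖ ≤ R) : LB t (m1 (W := W)) :=
  LB.of_proj (fun x => (norm_fst_le x.2.2.2.2.2).trans ((norm_snd_le x.2.2.2.2).trans
    ((norm_snd_le x.2.2.2).trans ((norm_snd_le x.2.2).trans ((norm_snd_le x.2).trans
      (norm_snd_le x)))))) (fun _ _ => rfl) ht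

theorem lb_m2 (ht : ∀ i ∈ t, ‖i‖ ≤ R) : LB t (m2 (W := W)) :=
  LB.of_proj (fun x => (norm_fst_le x.2.2.2.2.2.2).trans ((norm_snd_le x.2.2.2.2.2).trans
    ((norm_snd_le x.2.2.2.2).trans ((norm_snd_le x.2.2.2).trans ((norm_snd_le x.2.2).trans
      ((norm_snd_le x.2).trans (norm_snd_le x))))))) (fun _ _ => rfl) ht

theorem lb_e (ht : ∀ i ∈ t, ‖i‖ ≤ R) : LB t (e (W := W)) :=
  LB.of_proj (fun x => (norm_snd_le x.2.2.2.2.2.2).trans ((norm_snd_le x.2.2.2.2.2).trans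
    ((norm_snd_le x.2.2.2.2).trans ((norm_snd_le x.2.2.2).trans ((norm_snd_le x.2.2).trans
      ((norm_snd_le x.2).trans (norm_snd_le x))))))) (fun _ _ => rfl) ht

end In

/-- The inclusion from level two to level one. -/
noncomputable abbrev i21 : X W 2 →L[ℝ] X W 1 := incl (by norm_num)
/-- The inclusion from level two to level zero. -/
noncomputable abbrev i20 : X W 2 →L[ℝ] X W 0 := incl (by norm_num)
/-- The inclusion from level one to level zero. -/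
noncomputable abbrev i10 : X W 1 →L[ℝ] X W 0 := incl (by norm_num)

namespace Pol

variable (G : Geo) (Om Oi : X W 2) (i : In W)

noncomputable def yX : X W 2 := Om + In.yh i

noncomputable def v11 : X W 1 := cstX (In.m1 i) + G.DX1 1 (In.p1 i)
noncomputable def v12 : X W 1 := cstX (In.m2 i) + G.DX2 1 (In.p1 i)
noncomputable def v21 : X W 1 := G.DX1 1 (In.p2 i)
noncomputable def v22 : X W 1 := G.DX2 1 (In.p2 i)

noncomputable def a1 : X W 1 := oneX + In.e i • v11 G i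
noncomputable def a2 : X W 1 := In.e i • v12 G i
noncomputable def b1 : X W 1 := In.e i • v21 G i
noncomputable def b2 : X W 1 := oneX + In.e i • v22 G i

noncomputable def Q11 : X W 1 :=
  mulX (G.DX1 1 (In.s1 i)) (G.DX1 1 (In.s1 i)) + mulX (G.DX1 1 (In.s2 i)) (G.DX1 1 (In.s2 i))
noncomputable def Q12 : X W 1 :=
  mulX (G.DX1 1 (In.s1 i)) (G.DX2 1 (In.s1 i)) + mulX (G.DX1 1 (In.s2 i)) (G.DX2 1 (In.s2 i))
noncomputable def Q22 : X W 1 :=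
  mulX (G.DX2 1 (In.s1 i)) (G.DX2 1 (In.s1 i)) + mulX (G.DX2 1 (In.s2 i)) (G.DX2 1 (In.s2 i))

noncomputable def Rf (u1 u2 w1 w2 : X W 1) : X W 1 :=
  mulX (mulX (mulX (i21 Oi) (Q22 G i)) u1) w1 +
    mulX (-(mulX (i21 Oi) (Q12 G i))) (mulX u1 w2 + mulX u2 w1) +
    mulX (mulX (mulX (i21 Oi) (Q11 G i)) u2) w2

noncomputable def f1 : X W 1 :=
  (1 / 2 : ℝ) • (Rf G Oi i (a1 G i) (a2 G i) (a1 G i) (a2 G i) -
      Rf G Oi i (b1 G i) (b2 G i) (b1 G i) (b2 G i)) -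
    (1 / 2 : ℝ) • (mulX (v11 G i) (v11 G i) + mulX (v12 G i) (v12 G i) -
      mulX (v21 G i) (v21 G i) - mulX (v22 G i) (v22 G i))

noncomputable def f2 : X W 1 :=
  Rf G Oi i (a1 G i) (a2 G i) (b1 G i) (b2 G i) -
    (mulX (v11 G i) (v21 G i) + mulX (v12 G i) (v22 G i))

noncomputable def Gh11 : X W 1 :=
  (2 : ℝ) • v11 G i + In.e i • (mulX (v11 G i) (v11 G i) + mulX (v21 G i) (v21 G i))
noncomputable def Gh12 : X W 1 :=
  v12 G i + v21 G i + In.e i • (mulX (v11 G i) (v12 G i) + mulX (v21 G i) (v22 G i))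
noncomputable def Gh22 : X W 1 :=
  (2 : ℝ) • v22 G i + In.e i • (mulX (v12 G i) (v12 G i) + mulX (v22 G i) (v22 G i))

noncomputable def h111 : X W 0 := G.DX1 0 (G.DX1 1 (In.p1 i))
noncomputable def h112 : X W 0 := G.DX1 0 (G.DX2 1 (In.p1 i))
noncomputable def h122 : X W 0 := G.DX2 0 (G.DX2 1 (In.p1 i))
noncomputable def h211 : X W 0 := G.DX1 0 (G.DX1 1 (In.p2 i))
noncomputable def h212 : X W 0 := G.DX1 0 (G.DX2 1 (In.p2 i))
noncomputable def h222 : X W 0 := G.DX2 0 (G.DX2 1 (In.p2 i))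

noncomputable def g1 : X W 0 :=
  (2 : ℝ) • (mulX (i10 (a1 G i)) (h112 G i) + mulX (i10 (b1 G i)) (h212 G i))
noncomputable def g2 : X W 0 :=
  mulX (h112 G i) (i10 (a2 G i)) + mulX (i10 (a1 G i)) (h122 G i) +
    mulX (h212 G i) (i10 (b2 G i)) + mulX (i10 (b1 G i)) (h222 G i)
noncomputable def g3 : X W 0 :=
  mulX (h111 G i) (i10 (a2 G i)) + mulX (i10 (a1 G i)) (h112 G i) +
    mulX (h211 G i) (i10 (b2 G i)) + mulX (i10 (b1 G i)) (h212 G i)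
noncomputable def g4 : X W 0 :=
  (2 : ℝ) • (mulX (i10 (a2 G i)) (h112 G i) + mulX (i10 (b2 G i)) (h212 G i))

noncomputable def Ch : X W 0 :=
  mulX (h111 G i) (h122 G i) - mulX (h112 G i) (h112 G i) +
    (mulX (h211 G i) (h222 G i) - mulX (h212 G i) (h212 G i))

noncomputable def Rem : X W 0 :=
  In.e i • mulX (i20 (yX Om i)) (Ch G i) - mulX (i10 (G.DX2 1 (yX Om i))) (g1 G i) +
    mulX (i10 (G.DX1 1 (yX Om i))) (g2 G i) + mulX (i10 (G.DX2 1 (yX Om i))) (g3 G i) -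
    mulX (i10 (G.DX1 1 (yX Om i))) (g4 G i) -
    (1 / 2 : ℝ) • mulX (G.DX2 0 (G.DX2 1 (yX Om i))) (i10 (Gh11 G i)) +
    mulX (G.DX1 0 (G.DX2 1 (yX Om i))) (i10 (Gh12 G i)) -
    (1 / 2 : ℝ) • mulX (G.DX1 0 (G.DX1 1 (yX Om i))) (i10 (Gh22 G i))

noncomputable def detS : X W 0 :=
  mulX (G.DX1 0 (G.DX1 1 (In.s1 i))) (G.DX2 0 (G.DX2 1 (In.s1 i))) -
    mulX (G.DX1 0 (G.DX2 1 (In.s1 i))) (G.DX1 0 (G.DX2 1 (In.s1 i))) +
    (mulX (G.DX1 0 (G.DX1 1 (In.s2 i))) (G.DX2 0 (G.DX2 1 (In.s2 i))) -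
      mulX (G.DX1 0 (G.DX2 1 (In.s2 i))) (G.DX1 0 (G.DX2 1 (In.s2 i))))

noncomputable def mu : ℝ :=
  meanX (mulX (i21 (yX Om i)) (Gh11 G i)) + In.e i * meanX (Q11 G i)

noncomputable def N1 : X W 2 :=
  (2 : ℝ) • G.LpX 0 (Rem G Om i + In.e i • detS G i) - cstX (mu G Om i)

noncomputable def N2 : X W 2 := G.GX1 1 (f1 G Oi i) + G.GX2 1 (f2 G Oi i)
noncomputable def N3 : X W 2 := G.GX1 1 (f2 G Oi i) - G.GX2 1 (f1 G Oi i)
noncomputable def N4 : ℝ := meanX (f1 G Oi i)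
noncomputable def N5 : ℝ := meanX (f2 G Oi i)

noncomputable def G11 : X W 1 := mulX (a1 G i) (a1 G i) + mulX (b1 G i) (b1 G i)
noncomputable def G12 : X W 1 := mulX (a1 G i) (a2 G i) + mulX (b1 G i) (b2 G i)
noncomputable def G22 : X W 1 := mulX (a2 G i) (a2 G i) + mulX (b2 G i) (b2 G i)

noncomputable def E11 : X W 1 :=
  i21 Om - (In.e i * In.e i) • Q11 G i - mulX (i21 (yX Om i)) (G11 G i)
noncomputable def E12 : X W 1 :=
  -((In.e i * In.e i) • Q12 G i) - mulX (i21 (yX Om i)) (G12 G i)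
noncomputable def E22 : X W 1 :=
  i21 Om - (In.e i * In.e i) • Q22 G i - mulX (i21 (yX Om i)) (G22 G i)

/-- The corresponding point of the ring level system. -/
noncomputable def sy : Sy where
  Om := tS Om
  Oi := tS Oi
  yh := tS (In.yh i)
  p1 := tS (In.p1 i)
  p2 := tS (In.p2 i)
  s1 := tS (In.s1 i)
  s2 := tS (In.s2 i)
  m1 := In.m1 i
  m2 := In.m2 i
  e := In.e i

theorem sy_Om : (sy Om Oi i).Om = tS Om := rfl
theorem sy_Oi : (sy Om Oi i).Oi = tS Oi := rfl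
theorem sy_yh : (sy Om Oi i).yh = tS (In.yh i) := rfl
theorem sy_p1 : (sy Om Oi i).p1 = tS (In.p1 i) := rfl
theorem sy_p2 : (sy Om Oi i).p2 = tS (In.p2 i) := rfl
theorem sy_s1 : (sy Om Oi i).s1 = tS (In.s1 i) := rfl
theorem sy_s2 : (sy Om Oi i).s2 = tS (In.s2 i) := rfl
theorem sy_m1 : (sy Om Oi i).m1 = In.m1 i := rfl
theorem sy_m2 : (sy Om Oi i).m2 = In.m2 i := rfl
theorem sy_e : (sy Om Oi i).e = In.e i := rfl

theorem tS_yX : tS (yX Om i) = Sy.y (sy Om Oi i) := by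
  simp only [yX, Sy.y, tS_add, sy_Om, sy_yh]

theorem tS_v11 : tS (v11 G i) = Sy.v11 G (sy Om Oi i) := by
  simp only [v11, Sy.v11, tS_add, tS_cstX, G.tS_DX1, sy_m1, sy_p1]

theorem tS_v12 : tS (v12 G i) = Sy.v12 G (sy Om Oi i) := by
  simp only [v12, Sy.v12, tS_add, tS_cstX, G.tS_DX2, sy_m2, sy_p1]

theorem tS_v21 : tS (v21 G i) = Sy.v21 G (sy Om Oi i) := by
  simp only [v21, Sy.v21, G.tS_DX1, sy_p2]

theorem tS_v22 : tS (v22 G i) = Sy.v22 G (sy Om Oi i) := by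
  simp only [v22, Sy.v22, G.tS_DX2, sy_p2]

theorem tS_a1 : tS (a1 G i) = Sy.a1 G (sy Om Oi i) := by
  simp only [a1, Sy.a1, tS_add, tS_smul, tS_oneX, tS_v11 G Om Oi, sy_e]

theorem tS_a2 : tS (a2 G i) = Sy.a2 G (sy Om Oi i) := by
  simp only [a2, Sy.a2, tS_smul, tS_v12 G Om Oi, sy_e]

theorem tS_b1 : tS (b1 G i) = Sy.b1 G (sy Om Oi i) := by
  simp only [b1, Sy.b1, tS_smul, tS_v21 G Om Oi, sy_e]

theorem tS_b2 : tS (b2 G i) = Sy.b2 G (sy Om Oi i) := by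
  simp only [b2, Sy.b2, tS_add, tS_smul, tS_oneX, tS_v22 G Om Oi, sy_e]

theorem tS_Q11 : tS (Q11 G i) = Sy.Q11 G (sy Om Oi i) := by
  simp only [Q11, Sy.Q11, tS_add, tS_mulX, G.tS_DX1, sy_s1, sy_s2]

theorem tS_Q12 : tS (Q12 G i) = Sy.Q12 G (sy Om Oi i) := by
  simp only [Q12, Sy.Q12, tS_add, tS_mulX, G.tS_DX1, G.tS_DX2, sy_s1, sy_s2]

theorem tS_Q22 : tS (Q22 G i) = Sy.Q22 G (sy Om Oi i) := by
  simp only [Q22, Sy.Q22, tS_add, tS_mulX, G.tS_DX2, sy_s1, sy_s2]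

theorem tS_Rf (u1 u2 w1 w2 : X W 1) : tS (Rf G Oi i u1 u2 w1 w2) =
    Sy.Rf G (sy Om Oi i) (tS u1) (tS u2) (tS w1) (tS w2) := by
  simp only [Rf, Sy.Rf, tS_add, tS_neg, tS_mulX, tS_incl, tS_Q11 G Om Oi, tS_Q12 G Om Oi,
    tS_Q22 G Om Oi, sy_Oi]

theorem tS_f1 : tS (f1 G Oi i) = Sy.f1 G (sy Om Oi i) := by
  simp only [f1, Sy.f1, tS_add, tS_sub, tS_smul, tS_mulX, tS_Rf G Om Oi, tS_a1 G Om Oi,
    tS_a2 G Om Oi, tS_b1 G Om Oi, tS_b2 G Om Oi, tS_v11 G Om Oi, tS_v12 G Om Oi, tS_v21 G Om Oi,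
    tS_v22 G Om Oi]

theorem tS_f2 : tS (f2 G Oi i) = Sy.f2 G (sy Om Oi i) := by
  simp only [f2, Sy.f2, tS_add, tS_sub, tS_mulX, tS_Rf G Om Oi, tS_a1 G Om Oi, tS_a2 G Om Oi,
    tS_b1 G Om Oi, tS_b2 G Om Oi, tS_v11 G Om Oi, tS_v12 G Om Oi, tS_v21 G Om Oi, tS_v22 G Om Oi]

theorem tS_Gh11 : tS (Gh11 G i) = Sy.Gh11 G (sy Om Oi i) := by
  simp only [Gh11, Sy.Gh11, tS_add, tS_smul, tS_mulX, tS_v11 G Om Oi, tS_v21 G Om Oi, sy_e]

theorem tS_Gh12 : tS (Gh12 G i) = Sy.Gh12 G (sy Om Oi i) := by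
  simp only [Gh12, Sy.Gh12, tS_add, tS_smul, tS_mulX, tS_v11 G Om Oi, tS_v12 G Om Oi,
    tS_v21 G Om Oi, tS_v22 G Om Oi, sy_e]

theorem tS_Gh22 : tS (Gh22 G i) = Sy.Gh22 G (sy Om Oi i) := by
  simp only [Gh22, Sy.Gh22, tS_add, tS_smul, tS_mulX, tS_v12 G Om Oi, tS_v22 G Om Oi, sy_e]

theorem tS_h111 : tS (h111 G i) = Sy.h111 G (sy Om Oi i) := by
  simp only [h111, Sy.h111, G.tS_DX1, sy_p1]
theorem tS_h112 : tS (h112 G i) = Sy.h112 G (sy Om Oi i) := by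
  simp only [h112, Sy.h112, G.tS_DX1, G.tS_DX2, sy_p1]
theorem tS_h122 : tS (h122 G i) = Sy.h122 G (sy Om Oi i) := by
  simp only [h122, Sy.h122, G.tS_DX2, sy_p1]
theorem tS_h211 : tS (h211 G i) = Sy.h211 G (sy Om Oi i) := by
  simp only [h211, Sy.h211, G.tS_DX1, sy_p2]
theorem tS_h212 : tS (h212 G i) = Sy.h212 G (sy Om Oi i) := by
  simp only [h212, Sy.h212, G.tS_DX1, G.tS_DX2, sy_p2]
theorem tS_h222 : tS (h222 G i) = Sy.h222 G (sy Om Oi i) := by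
  simp only [h222, Sy.h222, G.tS_DX2, sy_p2]

theorem tS_g1 : tS (g1 G i) = Sy.g1 G (sy Om Oi i) := by
  simp only [g1, Sy.g1, tS_add, tS_smul, tS_mulX, tS_incl, tS_a1 G Om Oi, tS_b1 G Om Oi,
    tS_h112 G Om Oi, tS_h212 G Om Oi]

theorem tS_g2 : tS (g2 G i) = Sy.g2 G (sy Om Oi i) := by
  simp only [g2, Sy.g2, tS_add, tS_mulX, tS_incl, tS_a1 G Om Oi, tS_a2 G Om Oi, tS_b1 G Om Oi,
    tS_b2 G Om Oi, tS_h112 G Om Oi, tS_h122 G Om Oi, tS_h212 G Om Oi, tS_h222 G Om Oi]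

theorem tS_g3 : tS (g3 G i) = Sy.g3 G (sy Om Oi i) := by
  simp only [g3, Sy.g3, tS_add, tS_mulX, tS_incl, tS_a1 G Om Oi, tS_a2 G Om Oi, tS_b1 G Om Oi,
    tS_b2 G Om Oi, tS_h111 G Om Oi, tS_h112 G Om Oi, tS_h211 G Om Oi, tS_h212 G Om Oi]

theorem tS_g4 : tS (g4 G i) = Sy.g4 G (sy Om Oi i) := by
  simp only [g4, Sy.g4, tS_add, tS_smul, tS_mulX, tS_incl, tS_a2 G Om Oi, tS_b2 G Om Oi,
    tS_h112 G Om Oi, tS_h212 G Om Oi]

theorem tS_Ch : tS (Ch G i) = Sy.Ch G (sy Om Oi i) := by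
  simp only [Ch, Sy.Ch, tS_add, tS_sub, tS_mulX, tS_h111 G Om Oi, tS_h112 G Om Oi,
    tS_h122 G Om Oi, tS_h211 G Om Oi, tS_h212 G Om Oi, tS_h222 G Om Oi]

theorem tS_Rem : tS (Rem G Om i) = Sy.Rem G (sy Om Oi i) := by
  simp only [Rem, Sy.Rem, tS_add, tS_sub, tS_smul, tS_mulX, tS_incl, G.tS_DX1, G.tS_DX2,
    tS_yX Om Oi, tS_Ch G Om Oi, tS_g1 G Om Oi, tS_g2 G Om Oi, tS_g3 G Om Oi, tS_g4 G Om Oi,
    tS_Gh11 G Om Oi, tS_Gh12 G Om Oi, tS_Gh22 G Om Oi, sy_e]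

theorem tS_detS : tS (detS G i) = Sy.detS G (sy Om Oi i) := by
  simp only [detS, Sy.detS, tS_add, tS_sub, tS_mulX, G.tS_DX1, G.tS_DX2, sy_s1, sy_s2]

theorem mu_eq : mu G Om i = Sy.mu G (sy Om Oi i) := by
  simp only [mu, Sy.mu, meanX_apply, tS_mulX, tS_incl, tS_yX Om Oi, tS_Gh11 G Om Oi,
    tS_Q11 G Om Oi, sy_e]

theorem tS_G11 : tS (G11 G i) = Sy.G11 G (sy Om Oi i) := by
  simp only [G11, Sy.G11, tS_add, tS_mulX, tS_a1 G Om Oi, tS_b1 G Om Oi]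

theorem tS_G12 : tS (G12 G i) = Sy.G12 G (sy Om Oi i) := by
  simp only [G12, Sy.G12, tS_add, tS_mulX, tS_a1 G Om Oi, tS_a2 G Om Oi, tS_b1 G Om Oi,
    tS_b2 G Om Oi]

theorem tS_G22 : tS (G22 G i) = Sy.G22 G (sy Om Oi i) := by
  simp only [G22, Sy.G22, tS_add, tS_mulX, tS_a2 G Om Oi, tS_b2 G Om Oi]

theorem tS_E11 : tS (E11 G Om i) = Sy.E11 G (sy Om Oi i) := by
  simp only [E11, Sy.E11, tS_sub, tS_smul, tS_mulX, tS_incl, tS_yX Om Oi, tS_Q11 G Om Oi,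
    tS_G11 G Om Oi, sy_e, sy_Om]

theorem tS_E12 : tS (E12 G Om i) = Sy.E12 G (sy Om Oi i) := by
  simp only [E12, Sy.E12, tS_sub, tS_neg, tS_smul, tS_mulX, tS_incl, tS_yX Om Oi, tS_Q12 G Om Oi,
    tS_G12 G Om Oi, sy_e]

theorem tS_E22 : tS (E22 G Om i) = Sy.E22 G (sy Om Oi i) := by
  simp only [E22, Sy.E22, tS_sub, tS_smul, tS_mulX, tS_incl, tS_yX Om Oi, tS_Q22 G Om Oi,
    tS_G22 G Om Oi, sy_e, sy_Om]

theorem tS_N1 : tS (N1 G Om i) =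
    (2 : ℝ) • G.Lp (Sy.Rem G (sy Om Oi i) + In.e i • Sy.detS G (sy Om Oi i)) -
      cst (Sy.mu G (sy Om Oi i)) := by
  simp only [N1, tS_add, tS_sub, tS_smul, G.tS_LpX, tS_Rem G Om Oi, tS_detS G Om Oi,
    ← mu_eq G Om Oi, tS_cstX]

theorem tS_N2 : tS (N2 G Oi i) =
    G.D1 (G.Lp (Sy.f1 G (sy Om Oi i))) + G.D2 (G.Lp (Sy.f2 G (sy Om Oi i))) := by
  unfold N2
  rw [tS_add, G.tS_GX1, G.tS_GX2, tS_f1 G Om Oi, tS_f2 G Om Oi]

theorem tS_N3 : tS (N3 G Oi i) =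
    G.D1 (G.Lp (Sy.f2 G (sy Om Oi i))) - G.D2 (G.Lp (Sy.f1 G (sy Om Oi i))) := by
  unfold N3
  rw [tS_sub, G.tS_GX1, G.tS_GX2, tS_f1 G Om Oi, tS_f2 G Om Oi]

theorem N4_eq : N4 G Oi i = mean (Sy.f1 G (sy Om Oi i)) := by
  unfold N4
  rw [meanX_apply, tS_f1 G Om Oi]

theorem N5_eq : N5 G Oi i = mean (Sy.f2 G (sy Om Oi i)) := by
  unfold N5
  rw [meanX_apply, tS_f2 G Om Oi]

end Pol

end Vale.Agent.Lib.P205.Tor
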