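import Mathlib
import Vale.Agent.Lib.P205.Tor.Poly

/-!
Boundedness and Lipschitz estimates for the polynomial part of the fixed point map.
-/

open scoped BigOperators ComplexConjugate Real ContDiff

namespace Vale.Agent.Lib.P205.Tor

namespace Pol

variable {W : Wt} (G : Geo) (Om Oi : X W 2) {t : Set (In W)} {R : ℝ} (ht : ∀ i ∈ t, ‖i‖ ≤ R)

include ht

theorem lb_yX : LB t (yX Om) := (LB.const Om).add (In.lb_yh ht)

theorem lb_v11 : LB t (v11 G) := (In.lb_m1 ht).cstX.add ((In.lb_p1 ht).clm (G.DX1 1))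
theorem lb_v12 : LB t (v12 G) := (In.lb_m2 ht).cstX.add ((In.lb_p1 ht).clm (G.DX2 1))
theorem lb_v21 : LB t (v21 G) := (In.lb_p2 ht).clm (G.DX1 1)
theorem lb_v22 : LB t (v22 G) := (In.lb_p2 ht).clm (G.DX2 1)

theorem lb_a1 : LB t (a1 G) := (LB.const oneX).add ((In.lb_e ht).smul (lb_v11 G ht))
theorem lb_a2 : LB t (a2 G) := (In.lb_e ht).smul (lb_v12 G ht)
theorem lb_b1 : LB t (b1 G) := (In.lb_e ht).smul (lb_v21 G ht)
theorem lb_b2 : LB t (b2 G) := (LB.const oneX).add ((In.lb_e ht).smul (lb_v22 G ht))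

theorem lb_ds11 : LB t (fun i => G.DX1 1 (In.s1 i)) := (In.lb_s1 ht).clm _
theorem lb_ds12 : LB t (fun i => G.DX2 1 (In.s1 i)) := (In.lb_s1 ht).clm _
theorem lb_ds21 : LB t (fun i => G.DX1 1 (In.s2 i)) := (In.lb_s2 ht).clm _
theorem lb_ds22 : LB t (fun i => G.DX2 1 (In.s2 i)) := (In.lb_s2 ht).clm _

theorem lb_Q11 : LB t (Q11 G) :=
  ((lb_ds11 G ht).mul (lb_ds11 G ht)).add ((lb_ds21 G ht).mul (lb_ds21 G ht))
theorem lb_Q12 : LB t (Q12 G) :=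
  ((lb_ds11 G ht).mul (lb_ds12 G ht)).add ((lb_ds21 G ht).mul (lb_ds22 G ht))
theorem lb_Q22 : LB t (Q22 G) :=
  ((lb_ds12 G ht).mul (lb_ds12 G ht)).add ((lb_ds22 G ht).mul (lb_ds22 G ht))

theorem lb_Rf {u1 u2 w1 w2 : In W → X W 1} (h1 : LB t u1) (h2 : LB t u2) (h3 : LB t w1)
    (h4 : LB t w2) : LB t (fun i => Rf G Oi i (u1 i) (u2 i) (w1 i) (w2 i)) :=
  (((((LB.const (i21 Oi)).mul (lb_Q22 G ht)).mul h1).mul h3).add
    (((LB.const (i21 Oi)).mul (lb_Q12 G ht)).neg.mul ((h1.mul h4).add (h2.mul h3)))).add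
    ((((LB.const (i21 Oi)).mul (lb_Q11 G ht)).mul h2).mul h4)

theorem lb_f1 : LB t (f1 G Oi) :=
  (((lb_Rf G Oi ht (lb_a1 G ht) (lb_a2 G ht) (lb_a1 G ht) (lb_a2 G ht)).sub
      (lb_Rf G Oi ht (lb_b1 G ht) (lb_b2 G ht) (lb_b1 G ht) (lb_b2 G ht))).clm
      ((1 / 2 : ℝ) • ContinuousLinearMap.id ℝ _)).sub
    (((((((lb_v11 G ht).mul (lb_v11 G ht)).add ((lb_v12 G ht).mul (lb_v12 G ht))).sub
        ((lb_v21 G ht).mul (lb_v21 G ht))).sub ((lb_v22 G ht).mul (lb_v22 G ht)))).clm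
      ((1 / 2 : ℝ) • ContinuousLinearMap.id ℝ _))

theorem lb_f2 : LB t (f2 G Oi) :=
  (lb_Rf G Oi ht (lb_a1 G ht) (lb_a2 G ht) (lb_b1 G ht) (lb_b2 G ht)).sub
    (((lb_v11 G ht).mul (lb_v21 G ht)).add ((lb_v12 G ht).mul (lb_v22 G ht)))

theorem lb_smul2 {j : ℕ} {f : In W → X W j} (c : ℝ) (hf : LB t f) : LB t (fun i => c • f i) :=
  hf.clm (c • ContinuousLinearMap.id ℝ _)

theorem lb_Gh11 : LB t (Gh11 G) :=
  (lb_smul2 ht 2 (lb_v11 G ht)).add ((In.lb_e ht).smul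
    (((lb_v11 G ht).mul (lb_v11 G ht)).add ((lb_v21 G ht).mul (lb_v21 G ht))))

theorem lb_Gh12 : LB t (Gh12 G) :=
  ((lb_v12 G ht).add (lb_v21 G ht)).add ((In.lb_e ht).smul
    (((lb_v11 G ht).mul (lb_v12 G ht)).add ((lb_v21 G ht).mul (lb_v22 G ht))))

theorem lb_Gh22 : LB t (Gh22 G) :=
  (lb_smul2 ht 2 (lb_v22 G ht)).add ((In.lb_e ht).smul
    (((lb_v12 G ht).mul (lb_v12 G ht)).add ((lb_v22 G ht).mul (lb_v22 G ht))))

theorem lb_h111 : LB t (h111 G) := ((In.lb_p1 ht).clm _).clm _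
theorem lb_h112 : LB t (h112 G) := ((In.lb_p1 ht).clm _).clm _
theorem lb_h122 : LB t (h122 G) := ((In.lb_p1 ht).clm _).clm _
theorem lb_h211 : LB t (h211 G) := ((In.lb_p2 ht).clm _).clm _
theorem lb_h212 : LB t (h212 G) := ((In.lb_p2 ht).clm _).clm _
theorem lb_h222 : LB t (h222 G) := ((In.lb_p2 ht).clm _).clm _

theorem lb_i10 {f : In W → X W 1} (hf : LB t f) : LB t (fun i => i10 (f i)) := hf.clm _

theorem lb_g1 : LB t (g1 G) :=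
  lb_smul2 ht 2 (((lb_i10 ht (lb_a1 G ht)).mul (lb_h112 G ht)).add
    ((lb_i10 ht (lb_b1 G ht)).mul (lb_h212 G ht)))

theorem lb_g2 : LB t (g2 G) :=
  ((((lb_h112 G ht).mul (lb_i10 ht (lb_a2 G ht))).add
    ((lb_i10 ht (lb_a1 G ht)).mul (lb_h122 G ht))).add
    ((lb_h212 G ht).mul (lb_i10 ht (lb_b2 G ht)))).add
    ((lb_i10 ht (lb_b1 G ht)).mul (lb_h222 G ht))

theorem lb_g3 : LB t (g3 G) :=
  ((((lb_h111 G ht).mul (lb_i10 ht (lb_a2 G ht))).add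
    ((lb_i10 ht (lb_a1 G ht)).mul (lb_h112 G ht))).add
    ((lb_h211 G ht).mul (lb_i10 ht (lb_b2 G ht)))).add
    ((lb_i10 ht (lb_b1 G ht)).mul (lb_h212 G ht))

theorem lb_g4 : LB t (g4 G) :=
  lb_smul2 ht 2 (((lb_i10 ht (lb_a2 G ht)).mul (lb_h112 G ht)).add
    ((lb_i10 ht (lb_b2 G ht)).mul (lb_h212 G ht)))

theorem lb_Ch : LB t (Ch G) :=
  (((lb_h111 G ht).mul (lb_h122 G ht)).sub ((lb_h112 G ht).mul (lb_h112 G ht))).add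
    (((lb_h211 G ht).mul (lb_h222 G ht)).sub ((lb_h212 G ht).mul (lb_h212 G ht)))

theorem lb_Rem : LB t (Rem G Om) :=
  (((((((((In.lb_e ht).smul (((lb_yX Om ht).clm i20).mul (lb_Ch G ht))).sub
    ((lb_i10 ht ((lb_yX Om ht).clm (G.DX2 1))).mul (lb_g1 G ht))).add
    ((lb_i10 ht ((lb_yX Om ht).clm (G.DX1 1))).mul (lb_g2 G ht))).add
    ((lb_i10 ht ((lb_yX Om ht).clm (G.DX2 1))).mul (lb_g3 G ht))).sub
    ((lb_i10 ht ((lb_yX Om ht).clm (G.DX1 1))).mul (lb_g4 G ht))).sub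
    (lb_smul2 ht (1 / 2 : ℝ) ((((lb_yX Om ht).clm (G.DX2 1)).clm (G.DX2 0)).mul
      (lb_i10 ht (lb_Gh11 G ht))))).add
    ((((lb_yX Om ht).clm (G.DX2 1)).clm (G.DX1 0)).mul (lb_i10 ht (lb_Gh12 G ht)))).sub
    (lb_smul2 ht (1 / 2 : ℝ) ((((lb_yX Om ht).clm (G.DX1 1)).clm (G.DX1 0)).mul
      (lb_i10 ht (lb_Gh22 G ht)))))

theorem lb_detS : LB t (detS G) :=
  ((((((In.lb_s1 ht).clm (G.DX1 1)).clm (G.DX1 0)).mul (((In.lb_s1 ht).clm (G.DX2 1)).clm (G.DX2 0))).sub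
    ((((In.lb_s1 ht).clm (G.DX2 1)).clm (G.DX1 0)).mul (((In.lb_s1 ht).clm (G.DX2 1)).clm (G.DX1 0)))).add
   ((((((In.lb_s2 ht).clm (G.DX1 1)).clm (G.DX1 0)).mul (((In.lb_s2 ht).clm (G.DX2 1)).clm (G.DX2 0))).sub
    ((((In.lb_s2 ht).clm (G.DX2 1)).clm (G.DX1 0)).mul (((In.lb_s2 ht).clm (G.DX2 1)).clm (G.DX1 0))))))

theorem lb_mu : LB t (mu G Om) :=
  (((((lb_yX Om ht).clm i21).mul (lb_Gh11 G ht))).clm meanX).add
    ((In.lb_e ht).mulR ((lb_Q11 G ht).clm meanX))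

theorem lb_N1 : LB t (N1 G Om) :=
  (lb_smul2 ht 2 (((lb_Rem G Om ht).add ((In.lb_e ht).smul (lb_detS G ht))).clm (G.LpX 0))).sub
    (lb_mu G Om ht).cstX

theorem lb_N2 : LB t (N2 G Oi) :=
  ((lb_f1 G Oi ht).clm (G.GX1 1)).add ((lb_f2 G Oi ht).clm (G.GX2 1))

theorem lb_N3 : LB t (N3 G Oi) :=
  ((lb_f2 G Oi ht).clm (G.GX1 1)).sub ((lb_f1 G Oi ht).clm (G.GX2 1))

theorem lb_N4 : LB t (N4 G Oi) := (lb_f1 G Oi ht).clm meanX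
theorem lb_N5 : LB t (N5 G Oi) := (lb_f2 G Oi ht).clm meanX

end Pol

end Vale.Agent.Lib.P205.Tor
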