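import Mathlib
import Vale.Agent.Lib.P205.Tor.PolyLB

/-!
The fixed point map: the special functions and the contraction.
-/

open scoped BigOperators ComplexConjugate Real ContDiff

namespace Vale.Agent.Lib.P205.Tor

/-- A map with a small factor in front of a bounded Lipschitz map has fixed points. -/
theorem small_fixed {V : Type*} [NormedAddCommGroup V] [NormedSpace ℝ V] [CompleteSpace V]
    (N : V × ℝ → V) {R e0 : ℝ} (hR : 0 < R) (he0 : 0 < e0)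
    (hN : LB {x : V × ℝ | ‖x.1‖ ≤ R ∧ |x.2| ≤ e0} N) :
    ∃ e1 > 0, ∀ e, |e| ≤ e1 → ∃ v, ‖v‖ ≤ R ∧ v = e • N (v, e) := by
  obtain ⟨⟨C, hC0, hC⟩, ⟨L, hL0, hL⟩⟩ := hN
  refine ⟨min e0 (min (R / (C + 1)) (1 / (2 * (L + 1)))), by positivity, fun e he => ?_⟩
  have he1 : |e| ≤ e0 := he.trans (min_le_left _ _)
  have he2 : |e| ≤ R / (C + 1) := he.trans ((min_le_right _ _).trans (min_le_left _ _))
  have he3 : |e| ≤ 1 / (2 * (L + 1)) := he.trans ((min_le_right _ _).trans (min_le_right _ _))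
  let T : V → V := fun v => e • N (v, e)
  have hmem : ∀ v ∈ Metric.closedBall (0 : V) R, ((v, e) : V × ℝ) ∈
      {x : V × ℝ | ‖x.1‖ ≤ R ∧ |x.2| ≤ e0} := by
    intro v hv
    exact ⟨by simpa using hv, he1⟩
  have hmaps : Set.MapsTo T (Metric.closedBall 0 R) (Metric.closedBall 0 R) := by
    intro v hv
    have h1 := hC _ (hmem v hv)
    simp only [Metric.mem_closedBall, dist_zero_right]
    show ‖e • N (v, e)‖ ≤ R
    rw [norm_smul, Real.norm_eq_abs]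
    calc |e| * ‖N (v, e)‖ ≤ (R / (C + 1)) * C :=
          mul_le_mul he2 h1 (norm_nonneg _) (by positivity)
      _ ≤ (R / (C + 1)) * (C + 1) := mul_le_mul_of_nonneg_left (by linarith) (by positivity)
      _ = R := by field_simp
  have hlip : ∀ v ∈ Metric.closedBall (0 : V) R, ∀ w ∈ Metric.closedBall (0 : V) R,
      dist (T v) (T w) ≤ (1 / 2) * dist v w := by
    intro v hv w hw
    rw [dist_eq_norm, dist_eq_norm]
    show ‖e • N (v, e) - e • N (w, e)‖ ≤ _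
    rw [← smul_sub, norm_smul, Real.norm_eq_abs]
    have h1 := hL _ (hmem v hv) _ (hmem w hw)
    have h2 : ‖((v, e) : V × ℝ) - (w, e)‖ = ‖v - w‖ := by
      have : ((v, e) : V × ℝ) - (w, e) = (v - w, 0) := by
        ext <;> simp
      rw [this, Prod.norm_def]
      simp
    rw [h2] at h1
    have hd := norm_nonneg (v - w)
    calc |e| * ‖N (v, e) - N (w, e)‖ ≤ (1 / (2 * (L + 1))) * ((L + 1) * ‖v - w‖) := by
          refine mul_le_mul he3 (h1.trans ?_) (norm_nonneg _) (by positivity)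
          exact mul_le_mul_of_nonneg_right (by linarith) hd
      _ = (1 / 2) * ‖v - w‖ := by field_simp
  have hcontr : ContractingWith (1 / 2) (hmaps.restrict T _ _) := by
    refine ⟨by norm_num [NNReal.coe_lt_one], LipschitzWith.of_dist_le_mul fun a b => ?_⟩
    have h := hlip a.1 a.2 b.1 b.2
    have e1 : (((1 / 2 : NNReal)) : ℝ) = 1 / 2 := by norm_num
    rw [e1]
    exact h
  have h0 : (0 : V) ∈ Metric.closedBall (0 : V) R := by
    simpa using hR.le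
  obtain ⟨y, hy, hfix, -⟩ := hcontr.exists_fixedPoint' (Metric.isClosed_closedBall.isComplete)
    hmaps h0 (edist_ne_top _ _)
  refine ⟨y, by simpa using hy, hfix.symm⟩

/-! ### Real parameters -/

/-- The function producing the oscillation size. -/
noncomputable def bbF (P : ℝ) : ℝ := Real.sqrt (1 - 1 / P ^ 2)

theorem lb_bbF : LB (Set.Ici (2 : ℝ)) bbF := by
  have hge : ∀ P : ℝ, 2 ≤ P → 1 / 4 ≤ 1 - 1 / P ^ 2 ∧ 1 - 1 / P ^ 2 ≤ 1 := by
    intro P hP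
    have h1 : (0 : ℝ) < P ^ 2 := by positivity
    have h2 : 1 / P ^ 2 ≤ 1 / 4 := by
      apply one_div_le_one_div_of_le (by norm_num)
      nlinarith
    have h3 : 0 ≤ 1 / P ^ 2 := by positivity
    constructor <;> linarith
  refine ⟨⟨1, zero_le_one, fun P hP => ?_⟩, ⟨1, zero_le_one, fun P hP Q hQ => ?_⟩⟩
  · have := hge P hP
    unfold bbF
    rw [Real.norm_eq_abs, abs_of_nonneg (Real.sqrt_nonneg _)]
    exact Real.sqrt_le_one.mpr this.2
  · obtain ⟨a1, a2⟩ := hge P hP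
    obtain ⟨b1, b2⟩ := hge Q hQ
    have hP' : (2 : ℝ) ≤ P := hP
    have hQ' : (2 : ℝ) ≤ Q := hQ
    rw [Real.norm_eq_abs, Real.norm_eq_abs, one_mul]
    unfold bbF
    set A := 1 - 1 / P ^ 2 with hA
    set B := 1 - 1 / Q ^ 2 with hB
    have s1 : 1 / 2 ≤ Real.sqrt A := by
      apply Real.le_sqrt_of_sq_le
      linarith
    have s2 : 1 / 2 ≤ Real.sqrt B := by
      apply Real.le_sqrt_of_sq_le
      linarith
    have hs : (Real.sqrt A - Real.sqrt B) * (Real.sqrt A + Real.sqrt B) = A - B := by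
      have := Real.sq_sqrt (show 0 ≤ A by linarith)
      have := Real.sq_sqrt (show 0 ≤ B by linarith)
      nlinarith
    have h1 : |Real.sqrt A - Real.sqrt B| ≤ |A - B| := by
      rw [← hs, abs_mul, abs_of_pos (show 0 < Real.sqrt A + Real.sqrt B by linarith)]
      have := abs_nonneg (Real.sqrt A - Real.sqrt B)
      nlinarith
    refine h1.trans ?_
    have hPp : 0 < P := by linarith
    have hQp : 0 < Q := by linarith
    have e1 : A - B = (P - Q) * ((P + Q) / (P ^ 2 * Q ^ 2)) := by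
      rw [hA, hB]
      field_simp
      ring
    rw [e1, abs_mul, abs_of_pos (show 0 < (P + Q) / (P ^ 2 * Q ^ 2) by positivity)]
    have h2 : (P + Q) / (P ^ 2 * Q ^ 2) ≤ 1 := by
      rw [div_le_one (by positivity)]
      nlinarith [mul_pos hPp hQp, sq_nonneg (P - Q), mul_le_mul hP' hQ' (by norm_num) hPp.le]
    have := abs_nonneg (P - Q)
    nlinarith

/-- The data of the problem in a weighted space. -/
structure Dat where
  G : Geo
  W : Wt
  Om : X W 2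
  Oi : X W 2
  sg0 : X W 2
  rho0 : X W 2
  Cx : X W 2
  Sx : X W 2
  mc : ℝ
  nc : ℝ
  hC : tS Cx = C0
  hS : tS Sx = S0
  hpi1 : 2 ≤ (mc - G.t1) / G.t2
  hpi2 : 2 ≤ (G.t1 - nc) / G.t2
  hO : tS Om * tS Oi = 1

namespace Dat

variable (d : Dat)

noncomputable def U11 (e m1 : ℝ) : ℝ := 1 + e * m1
noncomputable def U12 (e m1 m2 : ℝ) : ℝ := U11 e m1 * d.G.t1 + e * m2 * d.G.t2
noncomputable def Pi1 (e m1 m2 : ℝ) : ℝ := (d.mc * U11 e m1 - d.U12 e m1 m2) / d.G.t2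
noncomputable def Pi2 (e m1 m2 : ℝ) : ℝ := (d.U12 e m1 m2 - d.nc * U11 e m1) / d.G.t2
noncomputable def Bb (e m1 m2 : ℝ) : ℝ := bbF (d.Pi1 e m1 m2 * d.Pi2 e m1 m2)

theorem Pi1_ge {e m1 m2 : ℝ} (h1 : |e * m1| ≤ 1 / 8) (h2 : |e * m2| ≤ 1 / 8) :
    13 / 8 ≤ d.Pi1 e m1 m2 := by
  have ht := d.G.t2pos
  have e1 : d.Pi1 e m1 m2 = (d.mc - d.G.t1) / d.G.t2 * U11 e m1 - e * m2 := by
    unfold Pi1 U12
    field_simp
    ring
  have hU : 7 / 8 ≤ U11 e m1 := by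
    unfold U11
    have := (abs_le.mp h1).1
    linarith
  have := (abs_le.mp h2).2
  have h3 := d.hpi1
  rw [e1]
  nlinarith

theorem Pi2_ge {e m1 m2 : ℝ} (h1 : |e * m1| ≤ 1 / 8) (h2 : |e * m2| ≤ 1 / 8) :
    13 / 8 ≤ d.Pi2 e m1 m2 := by
  have ht := d.G.t2pos
  have e1 : d.Pi2 e m1 m2 = (d.G.t1 - d.nc) / d.G.t2 * U11 e m1 + e * m2 := by
    unfold Pi2 U12
    field_simp
    ring
  have hU : 7 / 8 ≤ U11 e m1 := by
    unfold U11
    have := (abs_le.mp h1).1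
    linarith
  have := (abs_le.mp h2).1
  have h3 := d.hpi2
  rw [e1]
  nlinarith

theorem Pi_ge {e m1 m2 : ℝ} (h1 : |e * m1| ≤ 1 / 8) (h2 : |e * m2| ≤ 1 / 8) :
    2 ≤ d.Pi1 e m1 m2 * d.Pi2 e m1 m2 := by
  have a1 := d.Pi1_ge h1 h2
  have a2 := d.Pi2_ge h1 h2
  nlinarith

/-- The state of the fixed point problem. -/
abbrev V (d : Dat) := X d.W 2 × X d.W 2 × X d.W 2 × ℝ × ℝ
abbrev St (d : Dat) := d.V × ℝ

variable {d}

noncomputable def yh (x : d.St) : X d.W 2 := x.1.1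
noncomputable def p1 (x : d.St) : X d.W 2 := x.1.2.1
noncomputable def p2 (x : d.St) : X d.W 2 := x.1.2.2.1
noncomputable def m1 (x : d.St) : ℝ := x.1.2.2.2.1
noncomputable def m2 (x : d.St) : ℝ := x.1.2.2.2.2
noncomputable def e (x : d.St) : ℝ := x.2

variable {s : Set d.St} {R : ℝ}

theorem lb_yh (hs : ∀ x ∈ s, ‖x‖ ≤ R) : LB s (yh (d := d)) :=
  LB.of_proj (fun x => (norm_fst_le x.1).trans (norm_fst_le x)) (fun _ _ => rfl) hs

theorem lb_p1 (hs : ∀ x ∈ s, ‖x‖ ≤ R) : LB s (p1 (d := d)) :=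
  LB.of_proj (fun x => (norm_fst_le x.1.2).trans ((norm_snd_le x.1).trans (norm_fst_le x)))
    (fun _ _ => rfl) hs

theorem lb_p2 (hs : ∀ x ∈ s, ‖x‖ ≤ R) : LB s (p2 (d := d)) :=
  LB.of_proj (fun x => (norm_fst_le x.1.2.2).trans ((norm_snd_le x.1.2).trans
    ((norm_snd_le x.1).trans (norm_fst_le x)))) (fun _ _ => rfl) hs

theorem lb_m1 (hs : ∀ x ∈ s, ‖x‖ ≤ R) : LB s (m1 (d := d)) :=
  LB.of_proj (fun x => (norm_fst_le x.1.2.2.2).trans ((norm_snd_le x.1.2.2).trans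
    ((norm_snd_le x.1.2).trans ((norm_snd_le x.1).trans (norm_fst_le x))))) (fun _ _ => rfl) hs

theorem lb_m2 (hs : ∀ x ∈ s, ‖x‖ ≤ R) : LB s (m2 (d := d)) :=
  LB.of_proj (fun x => (norm_snd_le x.1.2.2.2).trans ((norm_snd_le x.1.2.2).trans
    ((norm_snd_le x.1.2).trans ((norm_snd_le x.1).trans (norm_fst_le x))))) (fun _ _ => rfl) hs

theorem lb_e (hs : ∀ x ∈ s, ‖x‖ ≤ R) : LB s (e (d := d)) :=
  LB.of_proj (fun x => norm_snd_le x) (fun _ _ => rfl) hs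

variable (d) in
/-- The parameter `U11` along the state. -/
noncomputable def xU11 (x : d.St) : ℝ := U11 (e x) (m1 x)
variable (d) in
noncomputable def xPi1 (x : d.St) : ℝ := d.Pi1 (e x) (m1 x) (m2 x)
variable (d) in
noncomputable def xPi2 (x : d.St) : ℝ := d.Pi2 (e x) (m1 x) (m2 x)
variable (d) in
noncomputable def xBb (x : d.St) : ℝ := d.Bb (e x) (m1 x) (m2 x)

theorem lb_xU11 (hs : ∀ x ∈ s, ‖x‖ ≤ R) : LB s (xU11 d) :=
  (LB.const 1).add ((lb_e hs).mulR (lb_m1 hs))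

theorem lb_xU12 (hs : ∀ x ∈ s, ‖x‖ ≤ R) :
    LB s (fun x : d.St => d.U12 (e x) (m1 x) (m2 x)) :=
  ((lb_xU11 hs).mulR (LB.const _)).add (((lb_e hs).mulR (lb_m2 hs)).mulR (LB.const _))

theorem lb_xPi1 (hs : ∀ x ∈ s, ‖x‖ ≤ R) : LB s (xPi1 d) := by
  have h := ((((LB.const d.mc).mulR (lb_xU11 hs)).sub (lb_xU12 hs)).mulR
    (LB.const (d.G.t2)⁻¹) : LB s _)
  have e1 : xPi1 d = fun x => (d.mc * xU11 d x - d.U12 (e x) (m1 x) (m2 x)) * (d.G.t2)⁻¹ := by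
    funext x
    simp only [xPi1, Pi1, xU11, div_eq_mul_inv]
  rw [e1]
  exact h

theorem lb_xPi2 (hs : ∀ x ∈ s, ‖x‖ ≤ R) : LB s (xPi2 d) := by
  have h := (((lb_xU12 hs).sub ((LB.const d.nc).mulR (lb_xU11 hs))).mulR
    (LB.const (d.G.t2)⁻¹) : LB s _)
  have e1 : xPi2 d = fun x => (d.U12 (e x) (m1 x) (m2 x) - d.nc * xU11 d x) * (d.G.t2)⁻¹ := by
    funext x
    simp only [xPi2, Pi2, xU11, div_eq_mul_inv]
  rw [e1]
  exact h

theorem lb_xBb (hs : ∀ x ∈ s, ‖x‖ ≤ R)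
    (hreg : ∀ x ∈ s, |e x * m1 x| ≤ 1 / 8 ∧ |e x * m2 x| ≤ 1 / 8) : LB s (xBb d) :=
  lb_bbF.comp ((lb_xPi1 hs).mulR (lb_xPi2 hs)) (fun x hx => d.Pi_ge (hreg x hx).1 (hreg x hx).2)

end Dat

end Vale.Agent.Lib.P205.Tor
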