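import Mathlib
import Vale.Agent.Lib.P205.Tor.Lift

/-!
The fixed point of the full problem.
-/

open scoped BigOperators ComplexConjugate Real ContDiff

namespace Vale.Agent.Lib.P205.Tor

section Special

variable {W : Wt} {j : ℕ} {A : Type*} [NormedAddCommGroup A] {s : Set A}

theorem lb_cosX {f : A → X W j} (hf : LB s f) : LB s (fun x => cosX (f x)) := by
  obtain ⟨C, _, hC⟩ := hf.bdd
  exact LB.ps cosGood hf hC

theorem lb_sinX {f : A → X W j} (hf : LB s f) : LB s (fun x => sinX (f x)) := by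
  obtain ⟨C, _, hC⟩ := hf.bdd
  exact LB.ps sinGood hf hC

theorem lb_expX {f : A → X W j} (hf : LB s f) : LB s (fun x => expX (f x)) := by
  obtain ⟨C, _, hC⟩ := hf.bdd
  exact LB.ps expGood hf hC

theorem lb_log1X {f : A → X W j} (hf : LB s f) {ρ : ℝ} (hρ : ∀ x ∈ s, ‖f x‖ ≤ ρ) (h0 : 0 ≤ ρ)
    (h1 : ρ < 1) : LB s (fun x => log1X (f x)) :=
  LB.ps (logGood h0 h1) hf hρ

theorem tS_cosX_zero : tS (cosX (0 : X W j)) = 1 := by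
  apply ev_injective
  intro p
  rw [ev_cosX, tS_zero, ev_zero, Real.cos_zero, ev_one]

theorem tS_sinX_zero : tS (sinX (0 : X W j)) = 0 := by
  apply ev_injective
  intro p
  rw [ev_sinX, tS_zero, ev_zero, Real.sin_zero]

end Special

namespace Dat

variable {d : Dat}

/-- The argument of the phase. -/
noncomputable def argX (x : d.St) : X d.W 2 := (2 * π / d.G.t2) • (e x • p2 x)

noncomputable def CX (x : d.St) : X d.W 2 :=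
  mulX d.Cx (cosX (argX x)) - mulX d.Sx (sinX (argX x))

noncomputable def phiX (x : d.St) : X d.W 2 := xPi1 d x • (oneX + xBb d x • CX x)

variable (d) in
noncomputable def phi0X : X d.W 2 := d.Pi1 0 0 0 • (oneX + d.Bb 0 0 0 • d.Cx)

noncomputable def xphi (x : d.St) : X d.W 2 :=
  mulX (mulX (phiX x) (phiX x) - mulX (phi0X d) (phi0X d)) d.rho0

noncomputable def sX (x : d.St) : X d.W 2 :=
  (1 / 2 : ℝ) • log1X (mulX (yh x) d.Oi) - (1 / 2 : ℝ) • log1X (xphi x)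

noncomputable def s1X (x : d.St) : X d.W 2 := xU11 d x • mulX d.sg0 (expX (sX x))

noncomputable def s2X (x : d.St) : X d.W 2 := mulX (phiX x) (s1X x)

noncomputable def lift (x : d.St) : In d.W :=
  (yh x, p1 x, p2 x, s1X x, s2X x, m1 x, m2 x, e x)

noncomputable def NN (x : d.St) : d.V :=
  (Pol.N1 d.G d.Om (lift x), Pol.N2 d.G d.Oi (lift x), Pol.N3 d.G d.Oi (lift x),
    Pol.N4 d.G d.Oi (lift x), Pol.N5 d.G d.Oi (lift x))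

variable {s : Set d.St} {R : ℝ}

theorem lb_argX (hs : ∀ x ∈ s, ‖x‖ ≤ R) : LB s (argX (d := d)) :=
  ((lb_e hs).smul (lb_p2 hs)).clm ((2 * π / d.G.t2) • ContinuousLinearMap.id ℝ _)

theorem lb_CX (hs : ∀ x ∈ s, ‖x‖ ≤ R) : LB s (CX (d := d)) :=
  ((LB.const d.Cx).mul (lb_cosX (lb_argX hs))).sub ((LB.const d.Sx).mul (lb_sinX (lb_argX hs)))

theorem lb_phiX (hs : ∀ x ∈ s, ‖x‖ ≤ R)
    (hreg : ∀ x ∈ s, |e x * m1 x| ≤ 1 / 8 ∧ |e x * m2 x| ≤ 1 / 8) : LB s (phiX (d := d)) :=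
  (lb_xPi1 hs).smul ((LB.const oneX).add ((lb_xBb hs hreg).smul (lb_CX hs)))

theorem lb_xphi (hs : ∀ x ∈ s, ‖x‖ ≤ R)
    (hreg : ∀ x ∈ s, |e x * m1 x| ≤ 1 / 8 ∧ |e x * m2 x| ≤ 1 / 8) : LB s (xphi (d := d)) :=
  (((lb_phiX hs hreg).mul (lb_phiX hs hreg)).sub (LB.const _)).mul (LB.const _)

theorem lb_sX (hs : ∀ x ∈ s, ‖x‖ ≤ R)
    (hreg : ∀ x ∈ s, |e x * m1 x| ≤ 1 / 8 ∧ |e x * m2 x| ≤ 1 / 8)
    (h1 : ∀ x ∈ s, ‖mulX (yh x) d.Oi‖ ≤ 1 / 2) (h2 : ∀ x ∈ s, ‖xphi x‖ ≤ 1 / 2) :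
    LB s (sX (d := d)) :=
  ((lb_log1X ((lb_yh hs).mul (LB.const _)) h1 (by norm_num) (by norm_num)).clm
      ((1 / 2 : ℝ) • ContinuousLinearMap.id ℝ _)).sub
    ((lb_log1X (lb_xphi hs hreg) h2 (by norm_num) (by norm_num)).clm
      ((1 / 2 : ℝ) • ContinuousLinearMap.id ℝ _))

theorem lb_s1X (hs : ∀ x ∈ s, ‖x‖ ≤ R)
    (hreg : ∀ x ∈ s, |e x * m1 x| ≤ 1 / 8 ∧ |e x * m2 x| ≤ 1 / 8)
    (h1 : ∀ x ∈ s, ‖mulX (yh x) d.Oi‖ ≤ 1 / 2) (h2 : ∀ x ∈ s, ‖xphi x‖ ≤ 1 / 2) :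
    LB s (s1X (d := d)) :=
  (lb_xU11 hs).smul ((LB.const d.sg0).mul (lb_expX (lb_sX hs hreg h1 h2)))

theorem lb_s2X (hs : ∀ x ∈ s, ‖x‖ ≤ R)
    (hreg : ∀ x ∈ s, |e x * m1 x| ≤ 1 / 8 ∧ |e x * m2 x| ≤ 1 / 8)
    (h1 : ∀ x ∈ s, ‖mulX (yh x) d.Oi‖ ≤ 1 / 2) (h2 : ∀ x ∈ s, ‖xphi x‖ ≤ 1 / 2) :
    LB s (s2X (d := d)) :=
  (lb_phiX hs hreg).mul (lb_s1X hs hreg h1 h2)

theorem lb_lift (hs : ∀ x ∈ s, ‖x‖ ≤ R)
    (hreg : ∀ x ∈ s, |e x * m1 x| ≤ 1 / 8 ∧ |e x * m2 x| ≤ 1 / 8)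
    (h1 : ∀ x ∈ s, ‖mulX (yh x) d.Oi‖ ≤ 1 / 2) (h2 : ∀ x ∈ s, ‖xphi x‖ ≤ 1 / 2) :
    LB s (lift (d := d)) :=
  (lb_yh hs).prod ((lb_p1 hs).prod ((lb_p2 hs).prod ((lb_s1X hs hreg h1 h2).prod
    ((lb_s2X hs hreg h1 h2).prod ((lb_m1 hs).prod ((lb_m2 hs).prod (lb_e hs)))))))

theorem lb_NN (hs : ∀ x ∈ s, ‖x‖ ≤ R)
    (hreg : ∀ x ∈ s, |e x * m1 x| ≤ 1 / 8 ∧ |e x * m2 x| ≤ 1 / 8)
    (h1 : ∀ x ∈ s, ‖mulX (yh x) d.Oi‖ ≤ 1 / 2) (h2 : ∀ x ∈ s, ‖xphi x‖ ≤ 1 / 2) :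
    LB s (NN (d := d)) := by
  have hl := lb_lift hs hreg h1 h2
  obtain ⟨C, _, hC⟩ := hl.bdd
  have ht : ∀ i ∈ {i : In d.W | ‖i‖ ≤ C}, ‖i‖ ≤ C := fun i hi => hi
  have hm : ∀ x ∈ s, lift x ∈ {i : In d.W | ‖i‖ ≤ C} := hC
  exact ((Pol.lb_N1 d.G d.Om ht).comp hl hm).prod (((Pol.lb_N2 d.G d.Oi ht).comp hl hm).prod
    (((Pol.lb_N3 d.G d.Oi ht).comp hl hm).prod (((Pol.lb_N4 d.G d.Oi ht).comp hl hm).prod
      ((Pol.lb_N5 d.G d.Oi ht).comp hl hm))))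

/-! ### Vanishing at the base point -/

theorem Pi1_zero (a b : ℝ) : d.Pi1 0 a b = d.Pi1 0 0 0 := by
  simp [Pi1, U12, U11]

theorem Pi2_zero (a b : ℝ) : d.Pi2 0 a b = d.Pi2 0 0 0 := by
  simp [Pi2, U12, U11]

theorem Bb_zero (a b : ℝ) : d.Bb 0 a b = d.Bb 0 0 0 := by
  unfold Bb
  rw [Pi1_zero, Pi2_zero]

theorem xphi_zero (v : d.V) : xphi ((v, 0) : d.St) = 0 := by
  set x : d.St := (v, 0) with hx
  have he : e x = 0 := rfl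
  have harg : argX x = 0 := by
    unfold argX
    rw [he, zero_smul, smul_zero]
  have hC : CX x = d.Cx := by
    apply X.ext'
    unfold CX
    rw [harg, tS_sub, tS_mulX, tS_mulX, tS_cosX_zero, tS_sinX_zero, mul_one, mul_zero, sub_zero]
  have hP : phiX x = phi0X d := by
    unfold phiX phi0X
    rw [hC]
    have e1 : xPi1 d x = d.Pi1 0 0 0 := by
      unfold xPi1
      rw [he, Pi1_zero]
    have e2 : xBb d x = d.Bb 0 0 0 := by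
      unfold xBb
      rw [he, Bb_zero]
    rw [e1, e2]
  unfold xphi
  rw [hP, sub_self]
  apply X.ext'
  simp [tS_zero]

/-- The domains of the state. -/
def sd (d : Dat) (R e0 : ℝ) : Set d.St := {x | ‖x.1‖ ≤ R ∧ |x.2| ≤ e0}

theorem sd_bdd {R e0 : ℝ} (hR : 0 ≤ R) (he0 : 0 ≤ e0) : ∀ x ∈ sd d R e0, ‖x‖ ≤ max R e0 := by
  rintro x ⟨h1, h2⟩
  rw [Prod.norm_def]
  exact max_le_max h1 h2

theorem sd_reg {R e0 : ℝ} (hR : R ≤ 1) (he0 : e0 ≤ 1 / 8) :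
    ∀ x ∈ sd d R e0, |e x * m1 x| ≤ 1 / 8 ∧ |e x * m2 x| ≤ 1 / 8 := by
  rintro x ⟨h1, h2⟩
  have hm1 : |m1 x| ≤ ‖x.1‖ :=
    (norm_fst_le x.1.2.2.2).trans ((norm_snd_le x.1.2.2).trans
      ((norm_snd_le x.1.2).trans (norm_snd_le x.1)))
  have hm2 : |m2 x| ≤ ‖x.1‖ :=
    (norm_snd_le x.1.2.2.2).trans ((norm_snd_le x.1.2.2).trans
      ((norm_snd_le x.1.2).trans (norm_snd_le x.1)))
  have he : |e x| ≤ 1 / 8 := h2.trans he0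
  constructor
  · rw [abs_mul]
    calc |e x| * |m1 x| ≤ (1 / 8) * 1 :=
          mul_le_mul he (hm1.trans (h1.trans hR)) (abs_nonneg _) (by norm_num)
      _ = 1 / 8 := by norm_num
  · rw [abs_mul]
    calc |e x| * |m2 x| ≤ (1 / 8) * 1 :=
          mul_le_mul he (hm2.trans (h1.trans hR)) (abs_nonneg _) (by norm_num)
      _ = 1 / 8 := by norm_num

theorem sd_yh {R e0 : ℝ} (hR : R * ‖d.Oi‖ ≤ 1 / 2) :
    ∀ x ∈ sd d R e0, ‖mulX (yh x) d.Oi‖ ≤ 1 / 2 := by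
  rintro x ⟨h1, _⟩
  have h3 : ‖yh x‖ ≤ R := (norm_fst_le x.1).trans h1
  exact (norm_mulX_le _ _).trans ((mul_le_mul_of_nonneg_right h3 (norm_nonneg _)).trans hR)

/-- A point of the fixed point set, with the needed smallness. -/
theorem exists_fixed (d : Dat) : ∃ e1 > 0, ∀ e', 0 < e' → e' ≤ e1 → ∃ x : d.St,
    x.2 = e' ∧ x.1 = e' • NN x ∧ |e x * m1 x| ≤ 1 / 8 ∧ |e x * m2 x| ≤ 1 / 8 ∧
    ‖mulX (yh x) d.Oi‖ ≤ 1 / 2 ∧ ‖xphi x‖ ≤ 1 / 2 ∧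
    ‖e x • Pol.Gh11 d.G (lift x)‖ ≤ 1 / 8 ∧ ‖e x • Pol.Gh12 d.G (lift x)‖ ≤ 1 / 8 ∧
    ‖e x • Pol.Gh22 d.G (lift x)‖ ≤ 1 / 8 := by
  obtain ⟨R, hR0, hR1, hR2⟩ : ∃ R : ℝ, 0 < R ∧ R ≤ 1 ∧ R * ‖d.Oi‖ ≤ 1 / 2 := by
    refine ⟨min 1 (1 / (2 * (‖d.Oi‖ + 1))), by positivity, min_le_left _ _, ?_⟩
    have hn := norm_nonneg d.Oi
    calc min 1 (1 / (2 * (‖d.Oi‖ + 1))) * ‖d.Oi‖ ≤ (1 / (2 * (‖d.Oi‖ + 1))) * ‖d.Oi‖ :=
          mul_le_mul_of_nonneg_right (min_le_right _ _) hn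
      _ ≤ (1 / (2 * (‖d.Oi‖ + 1))) * (‖d.Oi‖ + 1) :=
          mul_le_mul_of_nonneg_left (by linarith) (by positivity)
      _ = 1 / 2 := by field_simp
  -- smallness of the profile deviation
  have hb1 := sd_bdd (d := d) hR0.le (show (0 : ℝ) ≤ 1 / 8 by norm_num)
  have hr1 := sd_reg (d := d) hR1 (le_refl (1 / 8 : ℝ))
  obtain ⟨_, ⟨L, hL0, hL⟩⟩ := lb_xphi hb1 hr1
  have hsmall : ∀ x ∈ sd d R (1 / 8), ‖xphi x‖ ≤ L * |e x| := by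
    intro x hx
    have hx0 : ((x.1, 0) : d.St) ∈ sd d R (1 / 8) := ⟨hx.1, by simp⟩
    have h3 := hL x hx _ hx0
    rw [xphi_zero, sub_zero] at h3
    refine h3.trans (mul_le_mul_of_nonneg_left ?_ hL0)
    have e1 : x - ((x.1, 0) : d.St) = (0, x.2) := by
      ext1
      · simp
      · simp
    rw [e1, Prod.norm_def]
    simp only [norm_zero, Real.norm_eq_abs]
    exact max_le (abs_nonneg _) (le_refl _)
  -- second domain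
  obtain ⟨e2, he20, he21, he22⟩ : ∃ e2 : ℝ, 0 < e2 ∧ e2 ≤ 1 / 8 ∧ L * e2 ≤ 1 / 2 := by
    refine ⟨min (1 / 8) (1 / (2 * (L + 1))), by positivity, min_le_left _ _, ?_⟩
    calc L * min (1 / 8) (1 / (2 * (L + 1))) ≤ L * (1 / (2 * (L + 1))) :=
          mul_le_mul_of_nonneg_left (min_le_right _ _) hL0
      _ ≤ (L + 1) * (1 / (2 * (L + 1))) :=
          mul_le_mul_of_nonneg_right (by linarith) (by positivity)
      _ = 1 / 2 := by field_simp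
  have hsub : sd d R e2 ⊆ sd d R (1 / 8) := fun x hx => ⟨hx.1, hx.2.trans he21⟩
  have hb2 := sd_bdd (d := d) hR0.le he20.le
  have hr2 := sd_reg (d := d) hR1 he21
  have hy2 := sd_yh (d := d) (e0 := e2) hR2
  have hp2 : ∀ x ∈ sd d R e2, ‖xphi x‖ ≤ 1 / 2 := by
    intro x hx
    refine (hsmall x (hsub hx)).trans ?_
    exact (mul_le_mul_of_nonneg_left hx.2 hL0).trans he22
  have hN := lb_NN hb2 hr2 hy2 hp2
  obtain ⟨e3, he30, he3⟩ := small_fixed (V := d.V) NN hR0 he20 hN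
  have hl := lb_lift hb2 hr2 hy2 hp2
  obtain ⟨B, _, hB⟩ := hl.bdd
  have ht : ∀ i ∈ {i : In d.W | ‖i‖ ≤ B}, ‖i‖ ≤ B := fun i hi => hi
  obtain ⟨C1, hC10, hC1⟩ := (Pol.lb_Gh11 d.G ht).bdd
  obtain ⟨C2, hC20, hC2⟩ := (Pol.lb_Gh12 d.G ht).bdd
  obtain ⟨C3, hC30, hC3⟩ := (Pol.lb_Gh22 d.G ht).bdd
  refine ⟨min e2 (min e3 (1 / (8 * (C1 + C2 + C3 + 1)))), by positivity, fun e' he'0 he' => ?_⟩
  have he'2 : e' ≤ e2 := he'.trans (min_le_left _ _)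
  have he'3 : e' ≤ e3 := he'.trans ((min_le_right _ _).trans (min_le_left _ _))
  have he'4 : e' ≤ 1 / (8 * (C1 + C2 + C3 + 1)) :=
    he'.trans ((min_le_right _ _).trans (min_le_right _ _))
  obtain ⟨v, hv1, hv2⟩ := he3 e' (by rw [abs_of_pos he'0]; exact he'3)
  have hxs : ((v, e') : d.St) ∈ sd d R e2 := ⟨hv1, by
    show |e'| ≤ e2
    rw [abs_of_pos he'0]
    exact he'2⟩
  obtain ⟨r1, r2⟩ := hr2 _ hxs
  have hbd : ∀ C : ℝ, 0 ≤ C → C ≤ C1 + C2 + C3 + 1 → e' * C ≤ 1 / 8 := by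
    intro C hC0 hC
    calc e' * C ≤ (1 / (8 * (C1 + C2 + C3 + 1))) * (C1 + C2 + C3 + 1) :=
          mul_le_mul he'4 hC hC0 (by positivity)
      _ = 1 / 8 := by field_simp
  have hgen : ∀ {j : ℕ} (a : X d.W j) (C : ℝ), ‖a‖ ≤ C → 0 ≤ C → C ≤ C1 + C2 + C3 + 1 →
      ‖e ((v, e') : d.St) • a‖ ≤ 1 / 8 := by
    intro j a C hC hC0 hC'
    rw [norm_smul, Real.norm_eq_abs]
    have he'' : e ((v, e') : d.St) = e' := rfl
    rw [he'', abs_of_pos he'0]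
    exact (mul_le_mul_of_nonneg_left hC he'0.le).trans (hbd C hC0 hC')
  refine ⟨(v, e'), rfl, hv2, r1, r2, hy2 _ hxs, hp2 _ hxs, ?_, ?_, ?_⟩
  · exact hgen _ C1 (hC1 _ (hB _ hxs)) hC10 (by linarith)
  · exact hgen _ C2 (hC2 _ (hB _ hxs)) hC20 (by linarith)
  · exact hgen _ C3 (hC3 _ (hB _ hxs)) hC30 (by linarith)

/-- The fixed point equation at the level of the ring. -/
theorem fp_of_fixed {x : d.St} (hx : x.1 = e x • NN x) :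
    Sy.FP d.G (Pol.sy d.Om d.Oi (lift x)) := by
  have h1 : yh x = e x • Pol.N1 d.G d.Om (lift x) := congrArg Prod.fst hx
  have h2 : p1 x = e x • Pol.N2 d.G d.Oi (lift x) := congrArg (fun y => y.2.1) hx
  have h3 : p2 x = e x • Pol.N3 d.G d.Oi (lift x) := congrArg (fun y => y.2.2.1) hx
  have h4 : m1 x = e x * Pol.N4 d.G d.Oi (lift x) := congrArg (fun y => y.2.2.2.1) hx
  have h5 : m2 x = e x * Pol.N5 d.G d.Oi (lift x) := congrArg (fun y => y.2.2.2.2) hx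
  refine ⟨d.hO, ?_, ?_, ?_, ?_, ?_⟩
  · have := congrArg tS h1
    rw [tS_smul, Pol.tS_N1 d.G d.Om d.Oi] at this
    exact this
  · have := congrArg tS h2
    rw [tS_smul, Pol.tS_N2 d.G d.Om d.Oi] at this
    exact this
  · have := congrArg tS h3
    rw [tS_smul, Pol.tS_N3 d.G d.Om d.Oi] at this
    exact this
  · rw [Pol.N4_eq d.G d.Om d.Oi] at h4
    exact h4
  · rw [Pol.N5_eq d.G d.Om d.Oi] at h5
    exact h5

/-- The function `ϕ` of the construction. -/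
noncomputable def PhiF (d : Dat) (e m1 m2 : ℝ) (ψ : S) (p : ℝ × ℝ) : ℝ :=
  d.Pi1 e m1 m2 * (1 + d.Bb e m1 m2 * Real.cos (2 * π * (p.2 + e * ev ψ p / d.G.t2)))

theorem ev_CX (x : d.St) (p : ℝ × ℝ) :
    ev (tS (CX x)) p = Real.cos (2 * π * (p.2 + e x * ev (tS (p2 x)) p / d.G.t2)) := by
  unfold CX
  rw [tS_sub, ev_sub, tS_mulX, tS_mulX, ev_mul, ev_mul, d.hC, d.hS, ev_C0, ev_S0, ev_cosX, ev_sinX]
  have e1 : ev (tS (argX x)) p = 2 * π / d.G.t2 * (e x * ev (tS (p2 x)) p) := by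
    unfold argX
    rw [tS_smul, tS_smul, ev_smul, ev_smul]
  rw [e1, ← Real.cos_add]
  congr 1
  ring

theorem ev_phiX (x : d.St) (p : ℝ × ℝ) :
    ev (tS (phiX x)) p = PhiF d (e x) (m1 x) (m2 x) (tS (p2 x)) p := by
  unfold phiX PhiF
  rw [tS_smul, ev_smul, tS_add, ev_add, tS_smul, ev_smul, tS_oneX, ev_one, ev_CX]
  rfl

theorem ev_phi0 (p : ℝ × ℝ) :
    ev (tS (phi0X d)) p = d.Pi1 0 0 0 * (1 + d.Bb 0 0 0 * Real.cos (2 * π * p.2)) := by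
  unfold phi0X
  rw [tS_smul, ev_smul, tS_add, ev_add, tS_smul, ev_smul, tS_oneX, ev_one, d.hC, ev_C0]

/-- The pointwise relation of the amplitudes. -/
theorem amplitude {x : d.St}
    (h1 : ‖mulX (yh x) d.Oi‖ ≤ 1 / 2) (h2 : ‖xphi x‖ ≤ 1 / 2)
    (hrho : ∀ p : ℝ × ℝ, ev (tS d.rho0) p *
      (1 + (d.Pi1 0 0 0 * (1 + d.Bb 0 0 0 * Real.cos (2 * π * p.2))) ^ 2) = 1)
    (hsg : ∀ p : ℝ × ℝ, ev (tS d.sg0) p ^ 2 = ev (tS d.Om) p * ev (tS d.rho0) p) (p : ℝ × ℝ) :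
    ev (tS (s1X x)) p ^ 2 * (1 + PhiF d (e x) (m1 x) (m2 x) (tS (p2 x)) p ^ 2) =
      (ev (tS d.Om) p + ev (tS (yh x)) p) * U11 (e x) (m1 x) ^ 2 := by
  set φ := PhiF d (e x) (m1 x) (m2 x) (tS (p2 x)) p with hφ
  have hO : ev (tS d.Om) p * ev (tS d.Oi) p = 1 := by
    have := congrArg (fun a => ev a p) d.hO
    simpa only [ev_mul, ev_one] using this
  set A := 1 + ev (tS (yh x)) p * ev (tS d.Oi) p with hA
  set B := 1 + ev (tS (xphi x)) p with hB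
  have hrh := hrho p
  rw [← ev_phi0] at hrh
  set φ0 := ev (tS (phi0X d)) p with hφ0
  have hAB : ev (tS (mulX (yh x) d.Oi)) p = ev (tS (yh x)) p * ev (tS d.Oi) p := by
    rw [tS_mulX, ev_mul]
  have hA0 : 0 < A := by
    have := abs_le.mp ((abs_ev_le_X (mulX (yh x) d.Oi) p).trans h1)
    rw [hAB] at this
    rw [hA]
    linarith [this.1]
  have hB0 : 0 < B := by
    have := abs_le.mp ((abs_ev_le_X (xphi x) p).trans h2)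
    rw [hB]
    linarith [this.1]
  have hlt1 : ‖mulX (yh x) d.Oi‖ < 1 := by linarith
  have hlt2 : ‖xphi x‖ < 1 := by linarith
  have hsX : ev (tS (sX x)) p = (1 / 2) * Real.log A - (1 / 2) * Real.log B := by
    unfold sX
    rw [tS_sub, ev_sub, tS_smul, tS_smul, ev_smul, ev_smul, ev_log1X hlt1, ev_log1X hlt2, hAB]
  have hs1 : ev (tS (s1X x)) p = U11 (e x) (m1 x) * (ev (tS d.sg0) p * Real.exp (ev (tS (sX x)) p)) := by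
    unfold s1X
    rw [tS_smul, ev_smul, tS_mulX, ev_mul, ev_expX]
    rfl
  have hexp : Real.exp (ev (tS (sX x)) p) ^ 2 = A / B := by
    rw [← Real.exp_nat_mul, hsX]
    have : ((2 : ℕ) : ℝ) * ((1 / 2) * Real.log A - (1 / 2) * Real.log B) =
        Real.log A - Real.log B := by
      push_cast
      ring
    rw [this, Real.exp_sub, Real.exp_log hA0, Real.exp_log hB0]
  have hBe : B = ev (tS d.rho0) p * (1 + φ ^ 2) := by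
    rw [hB]
    unfold xphi
    rw [tS_mulX, ev_mul, tS_sub, ev_sub, tS_mulX, tS_mulX, ev_mul, ev_mul, ev_phiX, ← hφ0, ← hφ]
    linear_combination -hrh
  rw [hs1, mul_pow, mul_pow, hexp, hsg p]
  have hAe : A = (ev (tS d.Om) p + ev (tS (yh x)) p) * ev (tS d.Oi) p := by
    rw [hA]
    linear_combination -hO
  have hB1 : B ≠ 0 := hB0.ne'
  rw [hBe] at hB1 ⊢
  have hr0 : ev (tS d.rho0) p ≠ 0 := left_ne_zero_of_mul hB1
  have hp0 : (1 + φ ^ 2) ≠ 0 := right_ne_zero_of_mul hB1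
  rw [hAe]
  field_simp
  linear_combination U11 (e x) (m1 x) ^ 2 * (ev (tS d.Om) p + ev (tS (yh x)) p) * hO

/-- The solution of the problem at the level of the ring. -/
theorem solution (d : Dat)
    (hrho : ∀ p : ℝ × ℝ, ev (tS d.rho0) p *
      (1 + (d.Pi1 0 0 0 * (1 + d.Bb 0 0 0 * Real.cos (2 * π * p.2))) ^ 2) = 1)
    (hsg : ∀ p : ℝ × ℝ, ev (tS d.sg0) p ^ 2 = ev (tS d.Om) p * ev (tS d.rho0) p) :
    ∃ e1 > 0, ∀ e', 0 < e' → e' ≤ e1 → ∃ σ : Sy, σ.Om = tS d.Om ∧ σ.e = e' ∧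
      Sy.E11 d.G σ = 0 ∧ Sy.E12 d.G σ = 0 ∧ Sy.E22 d.G σ = 0 ∧
      |e' * σ.m1| ≤ 1 / 8 ∧ |e' * σ.m2| ≤ 1 / 8 ∧
      (∀ p, ev σ.s2 p = PhiF d e' σ.m1 σ.m2 σ.p2 p * ev σ.s1 p) ∧
      (∀ p, ev σ.s1 p ^ 2 * (1 + PhiF d e' σ.m1 σ.m2 σ.p2 p ^ 2) =
        ev (Sy.y σ) p * U11 e' σ.m1 ^ 2) := by
  obtain ⟨e1, he1, hfix⟩ := exists_fixed d
  refine ⟨e1, he1, fun e' he'0 he' => ?_⟩
  obtain ⟨x, hx1, hx2, r1, r2, r3, r4, r5, r6, r7⟩ := hfix e' he'0 he'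
  have hex : e x = e' := hx1
  subst hx1
  have hfp := fp_of_fixed (x := x) hx2
  obtain ⟨E1, E2, E3⟩ := Sy.E_zero hfp
    (Pol.E11 d.G d.Om (lift x)) (Pol.E12 d.G d.Om (lift x)) (Pol.E22 d.G d.Om (lift x))
    (e x • Pol.Gh11 d.G (lift x)) (e x • Pol.Gh12 d.G (lift x)) (e x • Pol.Gh22 d.G (lift x))
    (Pol.tS_E11 d.G d.Om d.Oi _) (Pol.tS_E12 d.G d.Om d.Oi _) (Pol.tS_E22 d.G d.Om d.Oi _)
    (by rw [tS_smul, Pol.tS_Gh11 d.G d.Om d.Oi]; rfl)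
    (by rw [tS_smul, Pol.tS_Gh12 d.G d.Om d.Oi]; rfl)
    (by rw [tS_smul, Pol.tS_Gh22 d.G d.Om d.Oi]; rfl)
    r5 r6 r7
  refine ⟨Pol.sy d.Om d.Oi (lift x), rfl, rfl, E1, E2, E3, r1, r2, ?_, ?_⟩
  · intro p
    show ev (tS (s2X x)) p = PhiF d (e x) (m1 x) (m2 x) (tS (p2 x)) p * ev (tS (s1X x)) p
    unfold s2X
    rw [tS_mulX, ev_mul, ev_phiX]
  · intro p
    have := amplitude r3 r4 hrho hsg p
    show ev (tS (s1X x)) p ^ 2 * (1 + PhiF d (e x) (m1 x) (m2 x) (tS (p2 x)) p ^ 2) =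
      ev (tS d.Om + tS (yh x)) p * U11 (e x) (m1 x) ^ 2
    rw [ev_add]
    exact this

end Dat

end Vale.Agent.Lib.P205.Tor
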