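import Mathlib
import Vale.Agent.Lib.P205.Tor.Fixed

/-!
The explicit map to four-space built from the solution.
-/

open scoped BigOperators ComplexConjugate Real ContDiff

namespace Vale.Agent.Lib.P205.Tor

/-! ### The abstract map -/

/-- The map built from two amplitudes and two phases. -/
noncomputable def mapF (c κ : ℝ) (s1 s2 th1 th2 : ℝ × ℝ → ℝ) :
    ℝ × ℝ → EuclideanSpace ℝ (Fin 4) := fun z =>
  WithLp.toLp 2 ![c * s1 z * Real.cos (κ * th1 z), c * s1 z * Real.sin (κ * th1 z),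
    c * s2 z * Real.cos (κ * th2 z), c * s2 z * Real.sin (κ * th2 z)]

theorem mapF_contDiff {c κ : ℝ} {s1 s2 th1 th2 : ℝ × ℝ → ℝ} (h1 : ContDiff ℝ ∞ s1)
    (h2 : ContDiff ℝ ∞ s2) (h3 : ContDiff ℝ ∞ th1) (h4 : ContDiff ℝ ∞ th2) :
    ContDiff ℝ ∞ (mapF c κ s1 s2 th1 th2) := by
  unfold mapF
  rw [contDiff_euclidean]
  intro i
  fin_cases i
  · exact (contDiff_const.mul h1).mul (Real.contDiff_cos.comp (contDiff_const.mul h3))
  · exact (contDiff_const.mul h1).mul (Real.contDiff_sin.comp (contDiff_const.mul h3))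
  · exact (contDiff_const.mul h2).mul (Real.contDiff_cos.comp (contDiff_const.mul h4))
  · exact (contDiff_const.mul h2).mul (Real.contDiff_sin.comp (contDiff_const.mul h4))

theorem fderiv_cos_term {c κ : ℝ} {s th : ℝ × ℝ → ℝ} (hs : ContDiff ℝ ∞ s)
    (ht : ContDiff ℝ ∞ th) (q v : ℝ × ℝ) :
    fderiv ℝ (fun z => c * s z * Real.cos (κ * th z)) q v =
      c * fderiv ℝ s q v * Real.cos (κ * th q) -
        c * s q * (κ * fderiv ℝ th q v) * Real.sin (κ * th q) := by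
  have h1 : HasFDerivAt s (fderiv ℝ s q) q := (hs.differentiable (by simp) q).hasFDerivAt
  have h2 : HasFDerivAt th (fderiv ℝ th q) q := (ht.differentiable (by simp) q).hasFDerivAt
  have h3 : HasFDerivAt (fun z => c * s z * Real.cos (κ * th z)) _ q :=
    (h1.const_mul c).mul (h2.const_mul κ).cos
  rw [h3.fderiv]
  simp only [add_apply, smul_apply, smul_eq_mul]
  ring

theorem fderiv_sin_term {c κ : ℝ} {s th : ℝ × ℝ → ℝ} (hs : ContDiff ℝ ∞ s)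
    (ht : ContDiff ℝ ∞ th) (q v : ℝ × ℝ) :
    fderiv ℝ (fun z => c * s z * Real.sin (κ * th z)) q v =
      c * fderiv ℝ s q v * Real.sin (κ * th q) +
        c * s q * (κ * fderiv ℝ th q v) * Real.cos (κ * th q) := by
  have h1 : HasFDerivAt s (fderiv ℝ s q) q := (hs.differentiable (by simp) q).hasFDerivAt
  have h2 : HasFDerivAt th (fderiv ℝ th q) q := (ht.differentiable (by simp) q).hasFDerivAt
  have h3 : HasFDerivAt (fun z => c * s z * Real.sin (κ * th z)) _ q :=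
    (h1.const_mul c).mul (h2.const_mul κ).sin
  rw [h3.fderiv]
  simp only [add_apply, smul_apply, smul_eq_mul]
  ring

theorem mapF_inner {c κ : ℝ} (hcκ : c * κ = 1) {s1 s2 th1 th2 : ℝ × ℝ → ℝ}
    (h1 : ContDiff ℝ ∞ s1) (h2 : ContDiff ℝ ∞ s2) (h3 : ContDiff ℝ ∞ th1) (h4 : ContDiff ℝ ∞ th2)
    (q v w : ℝ × ℝ) :
    inner ℝ (fderiv ℝ (mapF c κ s1 s2 th1 th2) q v) (fderiv ℝ (mapF c κ s1 s2 th1 th2) q w) =
      c ^ 2 * (fderiv ℝ s1 q v * fderiv ℝ s1 q w + fderiv ℝ s2 q v * fderiv ℝ s2 q w) +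
      s1 q ^ 2 * (fderiv ℝ th1 q v * fderiv ℝ th1 q w) +
      s2 q ^ 2 * (fderiv ℝ th2 q v * fderiv ℝ th2 q w) := by
  have hFs := mapF_contDiff (c := c) (κ := κ) h1 h2 h3 h4
  have hFd := (hFs.differentiable (by simp) q).hasFDerivAt
  have hcompo : ∀ (i : Fin 4), HasFDerivAt (fun z => (mapF c κ s1 s2 th1 th2 z).ofLp i)
      ((PiLp.proj 2 (fun _ : Fin 4 => ℝ) i).toContinuousLinearMap ∘L
        fderiv ℝ (mapF c κ s1 s2 th1 th2) q) q := by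
    intro i
    exact ((PiLp.proj 2 (fun _ : Fin 4 => ℝ) i).hasFDerivAt).comp q hFd
  have hval : ∀ (i : Fin 4) (u : ℝ × ℝ),
      (fderiv ℝ (mapF c κ s1 s2 th1 th2) q u).ofLp i =
        fderiv ℝ (fun z => (mapF c κ s1 s2 th1 th2 z).ofLp i) q u := by
    intro i u
    rw [(hcompo i).fderiv]
    rfl
  rw [PiLp.inner_apply, Fin.sum_univ_four]
  simp only [RCLike.inner_apply, conj_trivial]
  rw [hval, hval, hval, hval, hval, hval, hval, hval]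
  have e0 : (fun z => (mapF c κ s1 s2 th1 th2 z).ofLp 0) =
    fun z => c * s1 z * Real.cos (κ * th1 z) := rfl
  have e1 : (fun z => (mapF c κ s1 s2 th1 th2 z).ofLp 1) =
    fun z => c * s1 z * Real.sin (κ * th1 z) := rfl
  have e2 : (fun z => (mapF c κ s1 s2 th1 th2 z).ofLp 2) =
    fun z => c * s2 z * Real.cos (κ * th2 z) := rfl
  have e3 : (fun z => (mapF c κ s1 s2 th1 th2 z).ofLp 3) =
    fun z => c * s2 z * Real.sin (κ * th2 z) := rfl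
  rw [e0, e1, e2, e3]
  simp only [fderiv_cos_term h1 h3, fderiv_sin_term h1 h3, fderiv_cos_term h2 h4,
    fderiv_sin_term h2 h4]
  have a1 := Real.sin_sq_add_cos_sq (κ * th1 q)
  have a2 := Real.sin_sq_add_cos_sq (κ * th2 q)
  generalize Real.sin (κ * th1 q) = s₁ at *
  generalize Real.cos (κ * th1 q) = c₁ at *
  generalize Real.sin (κ * th2 q) = s₂ at *
  generalize Real.cos (κ * th2 q) = c₂ at *
  generalize fderiv ℝ s1 q v = A1 at *
  generalize fderiv ℝ s1 q w = A2 at *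
  generalize fderiv ℝ s2 q v = B1 at *
  generalize fderiv ℝ s2 q w = B2 at *
  generalize fderiv ℝ th1 q v = P1 at *
  generalize fderiv ℝ th1 q w = P2 at *
  generalize fderiv ℝ th2 q v = Q1 at *
  generalize fderiv ℝ th2 q w = Q2 at *
  generalize s1 q = S1 at *
  generalize s2 q = S2 at *
  have e5 : c * S1 * (κ * P1) = S1 * P1 * (c * κ) := by ring
  have e6 : c * S1 * (κ * P2) = S1 * P2 * (c * κ) := by ring
  have e7 : c * S2 * (κ * Q1) = S2 * Q1 * (c * κ) := by ring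
  have e8 : c * S2 * (κ * Q2) = S2 * Q2 * (c * κ) := by ring
  rw [e5, e6, e7, e8, hcκ]
  linear_combination
    ((c * A1) * (c * A2) + (S1 * P1) * (S1 * P2)) * a1 +
    ((c * B1) * (c * B2) + (S2 * Q1) * (S2 * Q2)) * a2

theorem mapF_periodic {c κ : ℝ} {s1 s2 th1 th2 : ℝ × ℝ → ℝ} {z z' : ℝ × ℝ}
    (h1 : s1 z' = s1 z) (h2 : s2 z' = s2 z) {n1 n2 : ℤ}
    (h3 : κ * th1 z' = κ * th1 z + n1 * (2 * π)) (h4 : κ * th2 z' = κ * th2 z + n2 * (2 * π)) :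
    mapF c κ s1 s2 th1 th2 z' = mapF c κ s1 s2 th1 th2 z := by
  unfold mapF
  rw [h1, h2, h3, h4, Real.cos_add_int_mul_two_pi, Real.sin_add_int_mul_two_pi,
    Real.cos_add_int_mul_two_pi, Real.sin_add_int_mul_two_pi]

/-! ### The periodic function with mean zero derivative of the profile -/

/-- The periodic part of the primitive of the Poisson kernel. -/
noncomputable def gg (r t : ℝ) : ℝ := Real.arctan (r * Real.sin t / (1 + r * Real.cos t))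

theorem gg_den_pos {r : ℝ} (h0 : 0 ≤ r) (h1 : r < 1) (t : ℝ) : 0 < 1 + r * Real.cos t := by
  have := Real.neg_one_le_cos t
  nlinarith

theorem gg_den2_pos {r : ℝ} (h0 : 0 ≤ r) (h1 : r < 1) (t : ℝ) :
    0 < 1 + 2 * r * Real.cos t + r ^ 2 := by
  have := Real.neg_one_le_cos t
  nlinarith [sq_nonneg (1 - r)]

theorem contDiff_gg {r : ℝ} (h0 : 0 ≤ r) (h1 : r < 1) : ContDiff ℝ ∞ (gg r) := by
  unfold gg
  refine Real.contDiff_arctan.comp ?_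
  exact (contDiff_const.mul Real.contDiff_sin).div
    (contDiff_const.add (contDiff_const.mul Real.contDiff_cos)) (fun t => (gg_den_pos h0 h1 t).ne')

theorem hasDerivAt_gg {r : ℝ} (h0 : 0 ≤ r) (h1 : r < 1) (t : ℝ) :
    HasDerivAt (gg r) (r * (r + Real.cos t) / (1 + 2 * r * Real.cos t + r ^ 2)) t := by
  have hd := gg_den_pos h0 h1 t
  have hd2 := gg_den2_pos h0 h1 t
  have h2 : HasDerivAt (fun t => r * Real.sin t) (r * Real.cos t) t :=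
    (Real.hasDerivAt_sin t).const_mul r
  have h3 : HasDerivAt (fun t => 1 + r * Real.cos t) (r * (-Real.sin t)) t :=
    ((Real.hasDerivAt_cos t).const_mul r).const_add 1
  have h4 := (h2.div h3 hd.ne').arctan
  refine h4.congr_deriv ?_
  have e : 1 + (r * Real.sin t / (1 + r * Real.cos t)) ^ 2 =
      (1 + 2 * r * Real.cos t + r ^ 2) / (1 + r * Real.cos t) ^ 2 := by
    have := Real.sin_sq_add_cos_sq t
    field_simp
    nlinarith
  simp only [Pi.div_apply]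
  rw [e]
  have := Real.sin_sq_add_cos_sq t
  field_simp
  linear_combination (r ^ 2 ) * this

theorem gg_periodic (r t : ℝ) : gg r (t + 2 * π) = gg r t := by
  unfold gg
  rw [Real.sin_add_two_pi, Real.cos_add_two_pi]

/-! ### The parameter of the Poisson kernel -/

theorem exists_r {P : ℝ} (hP : 2 ≤ P) : ∃ r : ℝ, 0 ≤ r ∧ r < 1 ∧
    (1 - r ^ 2) * P = 1 + r ^ 2 ∧ bbF P * (1 + r ^ 2) = 2 * r := by
  have hP0 : 0 < P := by linarith
  have hq : 0 ≤ (P - 1) / (P + 1) := by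
    apply div_nonneg <;> linarith
  refine ⟨Real.sqrt ((P - 1) / (P + 1)), Real.sqrt_nonneg _, ?_, ?_, ?_⟩
  · rw [Real.sqrt_lt' (by norm_num)]
    rw [div_lt_iff₀ (by linarith)]
    linarith
  · rw [Real.sq_sqrt hq]
    field_simp
    ring
  · have hr := Real.sq_sqrt hq
    set r := Real.sqrt ((P - 1) / (P + 1)) with hrdef
    have hb : bbF P = r * (P + 1) / P := by
      unfold bbF
      rw [Real.sqrt_eq_iff_mul_self_eq_of_pos]
      · have hne : P + 1 ≠ 0 := by linarith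
        have : r * (P + 1) / P * (r * (P + 1) / P) = r ^ 2 * (P + 1) ^ 2 / P ^ 2 := by
          field_simp
        rw [this, hr]
        field_simp
        ring
      · have hrpos : 0 < r := by
          apply Real.sqrt_pos.mpr
          apply div_pos <;> linarith
        positivity
    rw [hb, hr]
    have hne : P + 1 ≠ 0 := by linarith
    field_simp
    ring

/-! ### The phases -/

/-- The deformed second coordinate. -/
noncomputable def Yf (e t2 : ℝ) (ψ : S) (p : ℝ × ℝ) : ℝ := p.2 + e * ev ψ p / t2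

/-- The deformed first flat coordinate. -/
noncomputable def Phf (u11 u12 e : ℝ) (ψ : S) (p : ℝ × ℝ) : ℝ := u11 * p.1 + u12 * p.2 + e * ev ψ p

/-- The first phase. -/
noncomputable def Af (u11 u12 e t2 π₁ bb : ℝ) (ψ₁ ψ₂ : S) (p : ℝ × ℝ) : ℝ :=
  (Phf u11 u12 e ψ₁ p + t2 * π₁ * (Yf e t2 ψ₂ p + bb / (2 * π) * Real.sin (2 * π * Yf e t2 ψ₂ p))) /
    u11

/-- The second phase. -/
noncomputable def Bf (u11 u12 e t2 π₂ r : ℝ) (ψ₁ ψ₂ : S) (p : ℝ × ℝ) : ℝ :=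
  (Phf u11 u12 e ψ₁ p - t2 * π₂ * (Yf e t2 ψ₂ p - (1 / π) * gg r (2 * π * Yf e t2 ψ₂ p))) / u11

theorem contDiff_Yf (e t2 : ℝ) (ψ : S) : ContDiff ℝ ∞ (Yf e t2 ψ) :=
  contDiff_snd.add ((contDiff_const.mul (contDiff_ev ψ)).div_const t2)

theorem contDiff_Phf (u11 u12 e : ℝ) (ψ : S) : ContDiff ℝ ∞ (Phf u11 u12 e ψ) :=
  ((contDiff_const.mul contDiff_fst).add (contDiff_const.mul contDiff_snd)).add
    (contDiff_const.mul (contDiff_ev ψ))

theorem contDiff_Af (u11 u12 e t2 π₁ bb : ℝ) (ψ₁ ψ₂ : S) :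
    ContDiff ℝ ∞ (Af u11 u12 e t2 π₁ bb ψ₁ ψ₂) :=
  ((contDiff_Phf u11 u12 e ψ₁).add (contDiff_const.mul ((contDiff_Yf e t2 ψ₂).add
    (contDiff_const.mul (Real.contDiff_sin.comp
      (contDiff_const.mul (contDiff_Yf e t2 ψ₂))))))).div_const u11

theorem contDiff_Bf (u11 u12 e t2 π₂ : ℝ) {r : ℝ} (h0 : 0 ≤ r) (h1 : r < 1) (ψ₁ ψ₂ : S) :
    ContDiff ℝ ∞ (Bf u11 u12 e t2 π₂ r ψ₁ ψ₂) :=
  ((contDiff_Phf u11 u12 e ψ₁).sub (contDiff_const.mul ((contDiff_Yf e t2 ψ₂).sub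
    (contDiff_const.mul ((contDiff_gg h0 h1).comp
      (contDiff_const.mul (contDiff_Yf e t2 ψ₂))))))).div_const u11

theorem fderiv_ev_apply (a : S) (q v : ℝ × ℝ) : fderiv ℝ (ev a) q v = ev (Dir v.1 v.2 a) q := by
  rw [fderiv_ev, dev_apply]

theorem fderiv_Yf (e t2 : ℝ) (ψ : S) (q v : ℝ × ℝ) :
    fderiv ℝ (Yf e t2 ψ) q v = v.2 + e * ev (Dir v.1 v.2 ψ) q / t2 := by
  have h1 : HasFDerivAt (ev ψ) (dev ψ q) q := hasFDerivAt_ev ψ q
  have h2 : HasFDerivAt (Yf e t2 ψ) _ q :=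
    (hasFDerivAt_snd (p := q)).add ((h1.const_mul e).mul_const (t2⁻¹)) |>.congr_of_eventuallyEq
      (Filter.Eventually.of_forall fun p => by simp [Yf, div_eq_mul_inv])
  rw [h2.fderiv]
  simp [dev_apply, div_eq_mul_inv]
  ring

theorem fderiv_Phf (u11 u12 e : ℝ) (ψ : S) (q v : ℝ × ℝ) :
    fderiv ℝ (Phf u11 u12 e ψ) q v = u11 * v.1 + u12 * v.2 + e * ev (Dir v.1 v.2 ψ) q := by
  have h1 : HasFDerivAt (ev ψ) (dev ψ q) q := hasFDerivAt_ev ψ q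
  have h2 : HasFDerivAt (Phf u11 u12 e ψ) _ q :=
    (((hasFDerivAt_fst (p := q)).const_mul u11).add
      ((hasFDerivAt_snd (p := q)).const_mul u12)).add (h1.const_mul e)
  rw [h2.fderiv]
  simp [dev_apply]

theorem fderiv_Af (u11 u12 e t2 π₁ bb : ℝ) (ψ₁ ψ₂ : S) (q v : ℝ × ℝ) :
    fderiv ℝ (Af u11 u12 e t2 π₁ bb ψ₁ ψ₂) q v =
      (fderiv ℝ (Phf u11 u12 e ψ₁) q v + t2 * π₁ * (1 + bb * Real.cos (2 * π * Yf e t2 ψ₂ q)) *
        fderiv ℝ (Yf e t2 ψ₂) q v) / u11 := by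
  have hY : HasFDerivAt (Yf e t2 ψ₂) (fderiv ℝ (Yf e t2 ψ₂) q) q :=
    ((contDiff_Yf e t2 ψ₂).differentiable (by simp) q).hasFDerivAt
  have hP : HasFDerivAt (Phf u11 u12 e ψ₁) (fderiv ℝ (Phf u11 u12 e ψ₁) q) q :=
    ((contDiff_Phf u11 u12 e ψ₁).differentiable (by simp) q).hasFDerivAt
  have h2 : HasFDerivAt (Af u11 u12 e t2 π₁ bb ψ₁ ψ₂) _ q :=
    ((hP.add ((hY.add ((hY.const_mul (2 * π)).sin.const_mul (bb / (2 * π)))).const_mul
      (t2 * π₁))).mul_const (u11⁻¹)).congr_of_eventuallyEq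
      (Filter.Eventually.of_forall fun p => by simp [Af, div_eq_mul_inv])
  rw [h2.fderiv]
  have hpi : π ≠ 0 := Real.pi_ne_zero
  simp only [add_apply, smul_apply, smul_eq_mul]
  field_simp

theorem fderiv_Bf (u11 u12 e t2 π₂ : ℝ) {r : ℝ} (h0 : 0 ≤ r) (h1 : r < 1) (ψ₁ ψ₂ : S)
    (q v : ℝ × ℝ) :
    fderiv ℝ (Bf u11 u12 e t2 π₂ r ψ₁ ψ₂) q v =
      (fderiv ℝ (Phf u11 u12 e ψ₁) q v - t2 * π₂ *
        (1 - 2 * (r * (r + Real.cos (2 * π * Yf e t2 ψ₂ q)) /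
          (1 + 2 * r * Real.cos (2 * π * Yf e t2 ψ₂ q) + r ^ 2))) *
        fderiv ℝ (Yf e t2 ψ₂) q v) / u11 := by
  have hY : HasFDerivAt (Yf e t2 ψ₂) (fderiv ℝ (Yf e t2 ψ₂) q) q :=
    ((contDiff_Yf e t2 ψ₂).differentiable (by simp) q).hasFDerivAt
  have hP : HasFDerivAt (Phf u11 u12 e ψ₁) (fderiv ℝ (Phf u11 u12 e ψ₁) q) q :=
    ((contDiff_Phf u11 u12 e ψ₁).differentiable (by simp) q).hasFDerivAt
  have hg := (hasDerivAt_gg h0 h1 (2 * π * Yf e t2 ψ₂ q)).comp_hasFDerivAt q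
    (hY.const_mul (2 * π))
  have h2 : HasFDerivAt (Bf u11 u12 e t2 π₂ r ψ₁ ψ₂) _ q :=
    ((hP.sub ((hY.sub (hg.const_mul (1 / π))).const_mul (t2 * π₂))).mul_const
      (u11⁻¹)).congr_of_eventuallyEq
      (Filter.Eventually.of_forall fun p => by simp [Bf, div_eq_mul_inv])
  rw [h2.fderiv]
  have hpi : π ≠ 0 := Real.pi_ne_zero
  have hd := gg_den2_pos h0 h1 (2 * π * Yf e t2 ψ₂ q)
  simp only [sub_apply, smul_apply, smul_eq_mul]
  field_simp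

theorem Yf_shift1 (e t2 : ℝ) (ψ : S) (x y : ℝ) : Yf e t2 ψ (x + 1, y) = Yf e t2 ψ (x, y) := by
  simp only [Yf, ev_periodic_fst]

theorem Yf_shift2 (e t2 : ℝ) (ψ : S) (x y : ℝ) : Yf e t2 ψ (x, y + 1) = Yf e t2 ψ (x, y) + 1 := by
  simp only [Yf, ev_periodic_snd]
  ring

theorem Phf_shift1 (u11 u12 e : ℝ) (ψ : S) (x y : ℝ) :
    Phf u11 u12 e ψ (x + 1, y) = Phf u11 u12 e ψ (x, y) + u11 := by
  simp only [Phf, ev_periodic_fst]
  ring

theorem Phf_shift2 (u11 u12 e : ℝ) (ψ : S) (x y : ℝ) :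
    Phf u11 u12 e ψ (x, y + 1) = Phf u11 u12 e ψ (x, y) + u12 := by
  simp only [Phf, ev_periodic_snd]
  ring

theorem Af_shift1 {u11 : ℝ} (hu : u11 ≠ 0) (u12 e t2 π₁ bb : ℝ) (ψ₁ ψ₂ : S) (x y : ℝ) :
    Af u11 u12 e t2 π₁ bb ψ₁ ψ₂ (x + 1, y) = Af u11 u12 e t2 π₁ bb ψ₁ ψ₂ (x, y) + 1 := by
  simp only [Af, Yf_shift1, Phf_shift1]
  field_simp
  ring

theorem Bf_shift1 {u11 : ℝ} (hu : u11 ≠ 0) (u12 e t2 π₂ r : ℝ) (ψ₁ ψ₂ : S) (x y : ℝ) :
    Bf u11 u12 e t2 π₂ r ψ₁ ψ₂ (x + 1, y) = Bf u11 u12 e t2 π₂ r ψ₁ ψ₂ (x, y) + 1 := by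
  simp only [Bf, Yf_shift1, Phf_shift1]
  field_simp
  ring

theorem Af_shift2 {u11 : ℝ} (hu : u11 ≠ 0) {u12 t2 π₁ mc : ℝ}
    (hmc : t2 * π₁ = mc * u11 - u12) (e bb : ℝ) (ψ₁ ψ₂ : S) (x y : ℝ) :
    Af u11 u12 e t2 π₁ bb ψ₁ ψ₂ (x, y + 1) = Af u11 u12 e t2 π₁ bb ψ₁ ψ₂ (x, y) + mc := by
  have h2 : 2 * π * Yf e t2 ψ₂ (x, y + 1) = 2 * π * Yf e t2 ψ₂ (x, y) + 2 * π := by
    rw [Yf_shift2]
    ring
  simp only [Af, Phf_shift2]
  rw [h2, Real.sin_add_two_pi, Yf_shift2]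
  generalize bb / (2 * π) * Real.sin (2 * π * Yf e t2 ψ₂ (x, y)) = c
  generalize Yf e t2 ψ₂ (x, y) = Y
  generalize Phf u11 u12 e ψ₁ (x, y) = P
  field_simp
  linear_combination hmc

theorem Bf_shift2 {u11 : ℝ} (hu : u11 ≠ 0) {u12 t2 π₂ nc : ℝ}
    (hnc : t2 * π₂ = u12 - nc * u11) (e r : ℝ) (ψ₁ ψ₂ : S) (x y : ℝ) :
    Bf u11 u12 e t2 π₂ r ψ₁ ψ₂ (x, y + 1) = Bf u11 u12 e t2 π₂ r ψ₁ ψ₂ (x, y) + nc := by
  have h2 : 2 * π * Yf e t2 ψ₂ (x, y + 1) = 2 * π * Yf e t2 ψ₂ (x, y) + 2 * π := by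
    rw [Yf_shift2]
    ring
  simp only [Bf, Phf_shift2]
  rw [h2, gg_periodic, Yf_shift2]
  generalize (1 / π) * gg r (2 * π * Yf e t2 ψ₂ (x, y)) = c
  generalize Yf e t2 ψ₂ (x, y) = Y
  generalize Phf u11 u12 e ψ₁ (x, y) = P
  field_simp
  linear_combination -hnc

/-- The pointwise algebra of the final identity. -/
theorem final_alg {e u s1 s2 ϕ y Om a1 a2 b1 b2 q11 q12 q22 x1 x2 z1 z2 α β α' β' : ℝ}
    (hs2 : s2 = ϕ * s1) (hs1 : s1 ^ 2 * (1 + ϕ ^ 2) = y * u ^ 2) (hu : u ≠ 0) (hϕ : ϕ ≠ 0)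
    (hq11 : q11 = x1 * x1 + z1 * z1) (hq12 : q12 = x1 * x2 + z1 * z2)
    (hq22 : q22 = x2 * x2 + z2 * z2)
    (E1 : Om - (e * e) * q11 - y * (a1 * a1 + b1 * b1) = 0)
    (E2 : -((e * e) * q12) - y * (a1 * a2 + b1 * b2) = 0)
    (E3 : Om - (e * e) * q22 - y * (a2 * a2 + b2 * b2) = 0) :
    e ^ 2 * ((α * x1 + β * x2) * (α' * x1 + β' * x2) + (α * z1 + β * z2) * (α' * z1 + β' * z2)) +
      s1 ^ 2 * (((α * a1 + β * a2 + ϕ * (α * b1 + β * b2)) / u) *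
        ((α' * a1 + β' * a2 + ϕ * (α' * b1 + β' * b2)) / u)) +
      s2 ^ 2 * (((α * a1 + β * a2 - (1 / ϕ) * (α * b1 + β * b2)) / u) *
        ((α' * a1 + β' * a2 - (1 / ϕ) * (α' * b1 + β' * b2)) / u)) =
      Om * (α * α' + β * β') := by
  subst hs2 hq11 hq12 hq22
  have h1 : s1 ^ 2 * (((α * a1 + β * a2 + ϕ * (α * b1 + β * b2)) / u) *
        ((α' * a1 + β' * a2 + ϕ * (α' * b1 + β' * b2)) / u)) +
      (ϕ * s1) ^ 2 * (((α * a1 + β * a2 - (1 / ϕ) * (α * b1 + β * b2)) / u) *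
        ((α' * a1 + β' * a2 - (1 / ϕ) * (α' * b1 + β' * b2)) / u)) =
      (s1 ^ 2 * (1 + ϕ ^ 2)) / u ^ 2 * ((α * a1 + β * a2) * (α' * a1 + β' * a2) +
        (α * b1 + β * b2) * (α' * b1 + β' * b2)) := by
    field_simp
    ring
  rw [add_assoc, h1, hs1]
  have h2 : y * u ^ 2 / u ^ 2 = y := by
    field_simp
  rw [h2]
  linear_combination (-(α * α')) * E1 + (-(α * β' + β * α')) * E2 + (-(β * β')) * E3

namespace Dat

/-- The map into four-space. -/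
theorem final (d : Dat)
    (hrho : ∀ p : ℝ × ℝ, ev (tS d.rho0) p *
      (1 + (d.Pi1 0 0 0 * (1 + d.Bb 0 0 0 * Real.cos (2 * π * p.2))) ^ 2) = 1)
    (hsg : ∀ p : ℝ × ℝ, ev (tS d.sg0) p ^ 2 = ev (tS d.Om) p * ev (tS d.rho0) p)
    (mi ni : ℤ) (hm : d.mc = mi) (hn : d.nc = ni) :
    ∃ F : ℝ × ℝ → EuclideanSpace ℝ (Fin 4), ContDiff ℝ ∞ F ∧
      (∀ x y, F (x + 1, y) = F (x, y)) ∧ (∀ x y, F (x, y + 1) = F (x, y)) ∧
      ∀ q v w : ℝ × ℝ, inner ℝ (fderiv ℝ F q v) (fderiv ℝ F q w) =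
        ev (tS d.Om) q * ((v.1 + d.G.t1 * v.2) * (w.1 + d.G.t1 * w.2) +
          (d.G.t2 * v.2) * (d.G.t2 * w.2)) := by
  obtain ⟨e1, he1, hsol⟩ := d.solution hrho hsg
  have hpi : 0 < π := Real.pi_pos
  obtain ⟨N, hN⟩ := exists_nat_gt (1 / (2 * π * e1))
  have hNpos : (0 : ℝ) < N := lt_trans (by positivity) hN
  obtain ⟨e', he'⟩ : ∃ e' : ℝ, e' = 1 / (2 * π * N) := ⟨_, rfl⟩
  have he'0 : 0 < e' := by
    rw [he']
    positivity
  have he'1 : e' ≤ e1 := by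
    rw [he', div_le_iff₀ (by positivity)]
    rw [div_lt_iff₀ (by positivity)] at hN
    nlinarith
  have hκ : e' * (2 * π * N) = 1 := by
    rw [he']
    field_simp
  obtain ⟨σ, hOm, he, hE1, hE2, hE3, hm1, hm2, hs2, hs1⟩ := hsol e' he'0 he'1
  have ht2 := d.G.t2pos
  obtain ⟨u11, hu11⟩ : ∃ u : ℝ, u = U11 e' σ.m1 := ⟨_, rfl⟩
  obtain ⟨u12, hu12⟩ : ∃ u : ℝ, u = d.U12 e' σ.m1 σ.m2 := ⟨_, rfl⟩
  obtain ⟨p1', hp1'⟩ : ∃ u : ℝ, u = d.Pi1 e' σ.m1 σ.m2 := ⟨_, rfl⟩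
  obtain ⟨p2', hp2'⟩ : ∃ u : ℝ, u = d.Pi2 e' σ.m1 σ.m2 := ⟨_, rfl⟩
  obtain ⟨bb, hbb⟩ : ∃ u : ℝ, u = d.Bb e' σ.m1 σ.m2 := ⟨_, rfl⟩
  have hP := d.Pi_ge hm1 hm2
  obtain ⟨r, hr0, hr1, hr2, hr3⟩ := exists_r hP
  rw [← hp1', ← hp2'] at hr2
  have hr3' : bb * (1 + r ^ 2) = 2 * r := by
    rw [hbb]
    exact hr3
  have hu : 7 / 8 ≤ u11 := by
    rw [hu11]
    unfold U11
    have := (abs_le.mp hm1).1
    linarith
  have hu0 : u11 ≠ 0 := by
    intro h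
    rw [h] at hu
    norm_num at hu
  have hπ1 : 13 / 8 ≤ p1' := by
    rw [hp1']
    exact d.Pi1_ge hm1 hm2
  have hπ2 : 13 / 8 ≤ p2' := by
    rw [hp2']
    exact d.Pi2_ge hm1 hm2
  have hmc : d.G.t2 * p1' = (mi : ℝ) * u11 - u12 := by
    rw [hp1', hu11, hu12, ← hm]
    unfold Pi1
    field_simp
  have hnc : d.G.t2 * p2' = u12 - (ni : ℝ) * u11 := by
    rw [hp2', hu11, hu12, ← hn]
    unfold Pi2
    field_simp
  have hA := contDiff_Af u11 u12 e' d.G.t2 p1' bb σ.p1 σ.p2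
  have hB := contDiff_Bf u11 u12 e' d.G.t2 p2' hr0 hr1 σ.p1 σ.p2
  refine ⟨mapF e' (2 * π * N) (ev σ.s1) (ev σ.s2) (Af u11 u12 e' d.G.t2 p1' bb σ.p1 σ.p2)
    (Bf u11 u12 e' d.G.t2 p2' r σ.p1 σ.p2),
    mapF_contDiff (contDiff_ev _) (contDiff_ev _) hA hB, ?_, ?_, ?_⟩
  · intro x y
    refine mapF_periodic (n1 := N) (n2 := N) (ev_periodic_fst _ _ _) (ev_periodic_fst _ _ _) ?_ ?_
    · rw [Af_shift1 hu0]
      push_cast
      ring
    · rw [Bf_shift1 hu0]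
      push_cast
      ring
  · intro x y
    refine mapF_periodic (n1 := N * mi) (n2 := N * ni) (ev_periodic_snd _ _ _)
      (ev_periodic_snd _ _ _) ?_ ?_
    · rw [Af_shift2 hu0 hmc]
      push_cast
      ring
    · rw [Bf_shift2 hu0 hnc]
      push_cast
      ring
  · intro q v w
    rw [mapF_inner hκ (contDiff_ev _) (contDiff_ev _) hA hB]
    -- the flat frame
    have hframe : ∀ (a : S) (u : ℝ × ℝ), ev (Dir u.1 u.2 a) q =
        (u.1 + d.G.t1 * u.2) * ev (d.G.D1 a) q + (d.G.t2 * u.2) * ev (d.G.D2 a) q := by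
      intro a u
      have h1 : Dir u.1 u.2 a = u.1 • Dir 1 0 a + u.2 • Dir 0 1 a := Dir_linear _ _ _
      have h2 : d.G.D2 a = d.G.a2 • Dir 1 0 a + d.G.b2 • Dir 0 1 a := Dir_linear _ _ _
      have h3 : d.G.D1 a = Dir 1 0 a := rfl
      rw [h1, h2, h3]
      simp only [ev_add, ev_smul]
      simp only [Geo.a2, Geo.b2]
      field_simp
      ring
    -- names for the values at the point
    obtain ⟨Y, hY⟩ : ∃ Y : ℝ, Y = Yf e' d.G.t2 σ.p2 q := ⟨_, rfl⟩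
    have hphi : PhiF d e' σ.m1 σ.m2 σ.p2 q = p1' * (1 + bb * Real.cos (2 * π * Y)) := by
      rw [hY, hp1', hbb]
      rfl
    obtain ⟨ϕ, hϕdef⟩ : ∃ ϕ : ℝ, ϕ = p1' * (1 + bb * Real.cos (2 * π * Y)) := ⟨_, rfl⟩
    rw [← hϕdef] at hphi
    have hs2' := hs2 q
    have hs1' := hs1 q
    rw [hphi] at hs2' hs1'
    rw [← hu11] at hs1'
    obtain ⟨c', hc'⟩ : ∃ c' : ℝ, c' = Real.cos (2 * π * Y) := ⟨_, rfl⟩
    have hcl := Real.cos_le_one (2 * π * Y)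
    have hcg := Real.neg_one_le_cos (2 * π * Y)
    rw [← hc'] at hcl hcg
    have hden : 0 < 1 + 2 * r * c' + r ^ 2 := by
      rw [hc']
      exact gg_den2_pos hr0 hr1 _
    have hrr : 0 < 1 + r ^ 2 := by positivity
    have h1bb : 1 + bb * c' = (1 + 2 * r * c' + r ^ 2) / (1 + r ^ 2) := by
      field_simp
      linear_combination c' * hr3'
    have hϕpos : 0 < ϕ := by
      rw [hϕdef, ← hc', h1bb]
      have : 0 < p1' := by linarith
      positivity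
    have hinv : p2' * (1 - 2 * (r * (r + c') / (1 + 2 * r * c' + r ^ 2))) = 1 / ϕ := by
      rw [hϕdef, ← hc', h1bb]
      have h0 : p1' ≠ 0 := by
        intro h
        rw [h] at hπ1
        norm_num at hπ1
      have h3 : (1 - 2 * (r * (r + c') / (1 + 2 * r * c' + r ^ 2))) =
          (1 - r ^ 2) / (1 + 2 * r * c' + r ^ 2) := by
        field_simp
        ring
      rw [h3]
      have hp1pos : 0 < p1' := by linarith
      rw [eq_div_iff (by positivity)]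
      have h5 : p2' * ((1 - r ^ 2) / (1 + 2 * r * c' + r ^ 2)) *
          (p1' * ((1 + 2 * r * c' + r ^ 2) / (1 + r ^ 2))) =
          ((1 - r ^ 2) * (p1' * p2')) / (1 + r ^ 2) := by
        have hD0 := hden.ne'
        generalize 1 + 2 * r * c' + r ^ 2 = D at hD0
        field_simp
      rw [h5, hr2]
      exact div_self hrr.ne'
    -- derivative formulas
    have dA : ∀ u : ℝ × ℝ, fderiv ℝ (Af u11 u12 e' d.G.t2 p1' bb σ.p1 σ.p2) q u =
        (fderiv ℝ (Phf u11 u12 e' σ.p1) q u + ϕ * (d.G.t2 * fderiv ℝ (Yf e' d.G.t2 σ.p2) q u)) / u11 := by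
      intro u
      rw [fderiv_Af, ← hY, hϕdef]
      ring
    have dB : ∀ u : ℝ × ℝ, fderiv ℝ (Bf u11 u12 e' d.G.t2 p2' r σ.p1 σ.p2) q u =
        (fderiv ℝ (Phf u11 u12 e' σ.p1) q u - (1 / ϕ) * (d.G.t2 * fderiv ℝ (Yf e' d.G.t2 σ.p2) q u)) / u11 := by
      intro u
      rw [fderiv_Bf _ _ _ _ _ hr0 hr1, ← hY, ← hc', ← hinv]
      ring
    have da : ∀ u : ℝ × ℝ, fderiv ℝ (Phf u11 u12 e' σ.p1) q u =
        (u.1 + d.G.t1 * u.2) * ev (Sy.a1 d.G σ) q + (d.G.t2 * u.2) * ev (Sy.a2 d.G σ) q := by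
      intro u
      rw [fderiv_Phf, hframe]
      simp only [Sy.a1, Sy.a2, Sy.v11, Sy.v12, ev_add, ev_smul, ev_one, ev_cst, he]
      rw [hu11, hu12]
      unfold Dat.U12 U11
      ring
    have db : ∀ u : ℝ × ℝ, d.G.t2 * fderiv ℝ (Yf e' d.G.t2 σ.p2) q u =
        (u.1 + d.G.t1 * u.2) * ev (Sy.b1 d.G σ) q + (d.G.t2 * u.2) * ev (Sy.b2 d.G σ) q := by
      intro u
      rw [fderiv_Yf, hframe]
      simp only [Sy.b1, Sy.b2, Sy.v21, Sy.v22, ev_add, ev_smul, ev_one, he]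
      field_simp
      ring
    rw [dA v, dA w, dB v, dB w, da v, da w, db v, db w]
    rw [fderiv_ev_apply, fderiv_ev_apply, fderiv_ev_apply, fderiv_ev_apply, hframe, hframe, hframe,
      hframe]
    have E1 := congrArg (fun a => ev a q) hE1
    have E2 := congrArg (fun a => ev a q) hE2
    have E3 := congrArg (fun a => ev a q) hE3
    simp only [Sy.E11, Sy.E12, Sy.E22, Sy.G11, Sy.G12, Sy.G22, ev_sub, ev_neg, ev_mul, ev_add,
      ev_smul, ev_zero, he, hOm] at E1 E2 E3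
    exact final_alg hs2' hs1' hu0 hϕpos.ne'
      (by simp only [Sy.Q11, ev_add, ev_mul]) (by simp only [Sy.Q12, ev_add, ev_mul])
      (by simp only [Sy.Q22, ev_add, ev_mul]) E1 E2 E3

end Dat

end Vale.Agent.Lib.P205.Tor
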