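import Mathlib
import Vale.Agent.Lib.P205.Tor.Weight

/-!
Every rapidly summable nonnegative sequence is summable against a submultiplicative weight of
superpolynomial growth.
-/

open scoped BigOperators Topology

namespace Vale.Agent.Lib.P205.Tor

namespace WeightEx

/-- The `ℓ¹` size of a mode. -/
noncomputable def xn (k : K2) : ℝ := |(k.1 : ℝ)| + |(k.2 : ℝ)|

theorem xn_nonneg (k : K2) : 0 ≤ xn k := by
  unfold xn; positivity

theorem kn_eq (k : K2) : kn k = 1 + xn k := by
  unfold kn xn; ring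

theorem xn_add_le (a b : K2) : xn (a + b) ≤ xn a + xn b := by
  unfold xn
  have h1 : |((a + b).1 : ℝ)| ≤ |(a.1 : ℝ)| + |(b.1 : ℝ)| := by
    simpa using abs_add_le (a.1 : ℝ) (b.1 : ℝ)
  have h2 : |((a + b).2 : ℝ)| ≤ |(a.2 : ℝ)| + |(b.2 : ℝ)| := by
    simpa using abs_add_le (a.2 : ℝ) (b.2 : ℝ)
  linarith

theorem xn_neg (k : K2) : xn (-k) = xn k := by
  simp [xn]

theorem xn_zero : xn 0 = 0 := by
  simp [xn]

/-- The logarithm of the weight. -/
noncomputable def phi (n : ℕ → ℝ) (x : ℝ) : ℝ := ∑' j, Real.log (1 + x / n j)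

section

variable {n : ℕ → ℝ} (h1 : ∀ j, (2 : ℝ) ^ j ≤ n j) (h2 : ∀ j i, (2 : ℝ) ^ i * n j ≤ n (j + i))

include h1

theorem n_pos (j : ℕ) : 0 < n j := lt_of_lt_of_le (by positivity) (h1 j)

theorem one_le_n (j : ℕ) : 1 ≤ n j := le_trans (one_le_pow₀ (by norm_num)) (h1 j)

theorem log_term_nonneg {x : ℝ} (hx : 0 ≤ x) (j : ℕ) : 0 ≤ Real.log (1 + x / n j) := by
  apply Real.log_nonneg
  have := div_nonneg hx (n_pos h1 j).le
  linarith

theorem log_term_le {x : ℝ} (hx : 0 ≤ x) (j : ℕ) : Real.log (1 + x / n j) ≤ x / n j := by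
  have hp := div_nonneg hx (n_pos h1 j).le
  have := Real.log_le_sub_one_of_pos (show 0 < 1 + x / n j by linarith)
  linarith

theorem phi_summable {x : ℝ} (hx : 0 ≤ x) : Summable fun j => Real.log (1 + x / n j) := by
  refine Summable.of_nonneg_of_le (log_term_nonneg h1 hx) (fun j => ?_)
    ((summable_geometric_two).mul_left x)
  refine (log_term_le h1 hx j).trans ?_
  have hj : (0 : ℝ) < 2 ^ j := by positivity
  have : x / n j ≤ x / 2 ^ j := div_le_div_of_nonneg_left hx hj (h1 j)
  refine this.trans (le_of_eq ?_)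
  rw [one_div, inv_pow]
  field_simp

theorem phi_nonneg {x : ℝ} (hx : 0 ≤ x) : 0 ≤ phi n x :=
  tsum_nonneg (log_term_nonneg h1 hx)

theorem phi_add_le {x y z : ℝ} (hx : 0 ≤ x) (hy : 0 ≤ y) (hz : 0 ≤ z) (h : z ≤ x + y) :
    phi n z ≤ phi n x + phi n y := by
  unfold phi
  rw [← (phi_summable h1 hx).tsum_add (phi_summable h1 hy)]
  refine (phi_summable h1 hz).tsum_le_tsum (fun j => ?_)
    ((phi_summable h1 hx).add (phi_summable h1 hy))
  have hn := n_pos h1 j
  have hx' := div_nonneg hx hn.le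
  have hy' := div_nonneg hy hn.le
  have hz' := div_nonneg hz hn.le
  rw [← Real.log_mul (by positivity) (by positivity)]
  apply Real.log_le_log (by positivity)
  have : z / n j ≤ x / n j + y / n j := by
    rw [← add_div]
    exact div_le_div_of_nonneg_right h hn.le
  nlinarith [mul_nonneg hx' hy']

theorem pow_le_exp_phi (m : ℕ) {x : ℝ} (hx : 0 ≤ x) :
    (1 + x) ^ m ≤ (∏ j ∈ Finset.range m, n j) * Real.exp (phi n x) := by
  have h3 : ∑ j ∈ Finset.range m, Real.log (1 + x / n j) ≤ phi n x :=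
    (phi_summable h1 hx).sum_le_tsum _ (fun j _ => log_term_nonneg h1 hx j)
  have h4 := Real.exp_le_exp.mpr h3
  rw [Real.exp_sum] at h4
  have h5 : ∀ j ∈ Finset.range m, Real.exp (Real.log (1 + x / n j)) = 1 + x / n j := by
    intro j _
    apply Real.exp_log
    have := div_nonneg hx (n_pos h1 j).le
    linarith
  rw [Finset.prod_congr rfl h5] at h4
  have hP : 0 ≤ ∏ j ∈ Finset.range m, n j :=
    Finset.prod_nonneg (fun j _ => (n_pos h1 j).le)
  calc (1 + x) ^ m = ∏ _j ∈ Finset.range m, (1 + x) := by simp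
    _ ≤ ∏ j ∈ Finset.range m, (n j * (1 + x / n j)) := by
        apply Finset.prod_le_prod
        · intro j _; linarith
        · intro j _
          have hn := n_pos h1 j
          have hn1 := one_le_n h1 j
          have : n j * (1 + x / n j) = n j + x := by field_simp
          rw [this]
          linarith
    _ = (∏ j ∈ Finset.range m, n j) * ∏ j ∈ Finset.range m, (1 + x / n j) :=
        Finset.prod_mul_distrib
    _ ≤ _ := mul_le_mul_of_nonneg_left h4 hP

include h2

theorem exp_phi_le {x : ℝ} (hx : 0 ≤ x) {J : ℕ} (hJ : x < n J) :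
    Real.exp (phi n x) ≤ Real.exp 2 * (1 + x) ^ J := by
  have hs := phi_summable h1 hx
  have hsplit := hs.sum_add_tsum_nat_add J
  have h3 : ∑ j ∈ Finset.range J, Real.log (1 + x / n j) ≤ J * Real.log (1 + x) := by
    have : ∀ j ∈ Finset.range J, Real.log (1 + x / n j) ≤ Real.log (1 + x) := by
      intro j _
      have hn := n_pos h1 j
      have hn1 := one_le_n h1 j
      have h0 := div_nonneg hx hn.le
      apply Real.log_le_log (by linarith)
      have : x / n j ≤ x := div_le_self hx hn1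
      linarith
    have := Finset.sum_le_sum this
    simpa using this
  have h4 : ∑' i, Real.log (1 + x / n (i + J)) ≤ 2 := by
    have hsu : Summable fun i => Real.log (1 + x / n (i + J)) := (summable_nat_add_iff J).mpr hs
    have h5 : ∀ i, Real.log (1 + x / n (i + J)) ≤ (1 / 2 : ℝ) ^ i := by
      intro i
      refine (log_term_le h1 hx (i + J)).trans ?_
      have hnJ := n_pos h1 J
      have h6 := h2 J i
      rw [add_comm i J]
      have hi : (0 : ℝ) < 2 ^ i := by positivity
      rw [div_le_iff₀ (n_pos h1 (J + i)), one_div, inv_pow]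
      have : x ≤ (2 ^ i)⁻¹ * (2 ^ i * n J) := by
        rw [← mul_assoc, inv_mul_cancel₀ hi.ne', one_mul]
        exact hJ.le
      refine this.trans ?_
      exact mul_le_mul_of_nonneg_left h6 (by positivity)
    have := hsu.tsum_le_tsum h5 summable_geometric_two
    rwa [tsum_geometric_two] at this
  have h7 : phi n x ≤ 2 + J * Real.log (1 + x) := by
    unfold phi
    linarith
  have h8 : (1 + x) ^ J = Real.exp (J * Real.log (1 + x)) := by
    rw [mul_comm, Real.exp_mul, Real.exp_log (by linarith), Real.rpow_natCast]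
  rw [h8, ← Real.exp_add]
  exact Real.exp_le_exp.mpr h7

end

/-- The weight attached to a fast growing sequence. -/
noncomputable def mkWt (n : ℕ → ℝ) (h1 : ∀ j, (2 : ℝ) ^ j ≤ n j) : Wt where
  w k := Real.exp (phi n (xn k))
  one_le k := Real.one_le_exp (phi_nonneg h1 (xn_nonneg k))
  w_zero := by
    rw [xn_zero]
    simp [phi]
  sub a b := by
    rw [← Real.exp_add]
    exact Real.exp_le_exp.mpr
      (phi_add_le h1 (xn_nonneg a) (xn_nonneg b) (xn_nonneg _) (xn_add_le a b))
  neg k := by rw [xn_neg]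
  superpoly m := by
    refine ⟨∏ j ∈ Finset.range m, n j, fun k => ?_⟩
    rw [kn_eq]
    exact pow_le_exp_phi h1 m (xn_nonneg k)

/-- Tail choice. -/
theorem exists_tail {f : K2 → ℝ} (hf0 : ∀ k, 0 ≤ f k) (hf : Summable f) {ε : ℝ} (hε : 0 < ε) :
    ∃ N : ℕ, (Summable fun k => if (N : ℝ) ≤ xn k then f k else 0) ∧
      (∑' k, if (N : ℝ) ≤ xn k then f k else 0) ≤ ε := by
  have ht := tendsto_tsum_compl_atTop_zero f
  have hev := (tendsto_order.1 ht).2 ε hε
  obtain ⟨s, hs⟩ := hev.exists
  obtain ⟨N, hN⟩ : ∃ N : ℕ, ∀ k ∈ s, xn k < N := by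
    classical
    refine Finset.induction_on s ⟨0, by simp⟩ ?_
    intro a t _ ih
    obtain ⟨N, hN⟩ := ih
    obtain ⟨M, hM⟩ := exists_nat_gt (xn a)
    refine ⟨max N M, fun k hk => ?_⟩
    rcases Finset.mem_insert.mp hk with rfl | hk
    · exact lt_of_lt_of_le hM (by exact_mod_cast le_max_right N M)
    · exact lt_of_lt_of_le (hN k hk) (by exact_mod_cast le_max_left N M)
  have hle : ∀ k, (if (N : ℝ) ≤ xn k then f k else 0) ≤ f k := by
    intro k
    split_ifs
    · exact le_rfl
    · exact hf0 k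
  have hnn : ∀ k, 0 ≤ (if (N : ℝ) ≤ xn k then f k else 0) := by
    intro k
    split_ifs
    · exact hf0 k
    · exact le_rfl
  have hsum : Summable fun k => if (N : ℝ) ≤ xn k then f k else 0 :=
    Summable.of_nonneg_of_le hnn hle hf
  refine ⟨N, hsum, le_trans ?_ hs.le⟩
  have hsc : Summable fun a : {x // x ∉ s} => f a := hf.subtype _
  rw [show (∑' a : {x // x ∉ s}, f a) =
      ∑' k, Set.indicator {x | x ∉ s} f k from tsum_subtype {x | x ∉ s} f]
  refine hsum.tsum_le_tsum (fun k => ?_) (hf.indicator _)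
  by_cases hk : k ∈ s
  · have : ¬ (N : ℝ) ≤ xn k := not_le.mpr (hN k hk)
    simp [hk, this]
  · have : k ∈ {x | x ∉ s} := hk
    rw [Set.indicator_of_mem this]
    exact hle k

/-- Every rapidly summable nonnegative sequence is summable against a weight. -/
theorem exists_weight_aux (r : K2 → ℝ) (hr0 : ∀ k, 0 ≤ r k)
    (hr : ∀ m, Summable fun k => r k * kn k ^ m) :
    ∃ W : Wt, Summable fun k => r k * W.wj 2 k := by
  have hf0 : ∀ m k, 0 ≤ r k * kn k ^ (m + 3) := fun m k =>
    mul_nonneg (hr0 k) (pow_nonneg (kn_pos k).le _)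
  have htail : ∀ m : ℕ, ∃ N : ℕ, (Summable fun k => if (N : ℝ) ≤ xn k then r k * kn k ^ (m + 3) else 0) ∧
      (∑' k, if (N : ℝ) ≤ xn k then r k * kn k ^ (m + 3) else 0) ≤ (1 / 2 : ℝ) ^ m := fun m =>
    exists_tail (hf0 m) (hr (m + 3)) (by positivity)
  choose N hNs hN using htail
  -- the fast growing sequence
  let n : ℕ → ℕ := fun j => Nat.rec (max 1 (N 0)) (fun j nj => max (2 * nj) (N (j + 1))) j
  have hn0 : n 0 = max 1 (N 0) := rfl
  have hnS : ∀ j, n (j + 1) = max (2 * n j) (N (j + 1)) := fun j => rfl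
  have hnN : ∀ j, N j ≤ n j := by
    intro j
    cases j with
    | zero => rw [hn0]; exact le_max_right _ _
    | succ j => rw [hnS]; exact le_max_right _ _
  have hdouble : ∀ j, 2 * n j ≤ n (j + 1) := fun j => by rw [hnS]; exact le_max_left _ _
  have hgrow : ∀ j i, 2 ^ i * n j ≤ n (j + i) := by
    intro j i
    induction i with
    | zero => simp
    | succ i ih =>
      calc 2 ^ (i + 1) * n j = 2 * (2 ^ i * n j) := by ring
        _ ≤ 2 * n (j + i) := by omega
        _ ≤ n (j + i + 1) := hdouble _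
  have hone : 1 ≤ n 0 := by rw [hn0]; exact le_max_left _ _
  have hpow : ∀ j, 2 ^ j ≤ n j := by
    intro j
    have := hgrow 0 j
    simp only [zero_add] at this
    calc 2 ^ j = 2 ^ j * 1 := by ring
      _ ≤ 2 ^ j * n 0 := Nat.mul_le_mul_left _ hone
      _ ≤ n j := this
  let nr : ℕ → ℝ := fun j => Nat.cast (n j)
  have h1 : ∀ j, (2 : ℝ) ^ j ≤ nr j := fun j => by
    have := hpow j
    show (2 : ℝ) ^ j ≤ (n j : ℝ)
    exact_mod_cast this
  have h2 : ∀ j i, (2 : ℝ) ^ i * nr j ≤ nr (j + i) := fun j i => by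
    have := hgrow j i
    show (2 : ℝ) ^ i * (n j : ℝ) ≤ (n (j + i) : ℝ)
    exact_mod_cast this
  refine ⟨mkWt nr h1, ?_⟩
  -- the double series
  let G : ℕ × K2 → ℝ := fun p => if nr p.1 ≤ xn p.2 then r p.2 * kn p.2 ^ (p.1 + 3) else 0
  have hG0 : 0 ≤ G := by
    intro p
    show 0 ≤ (if nr p.1 ≤ xn p.2 then r p.2 * kn p.2 ^ (p.1 + 3) else 0)
    split_ifs
    · exact hf0 _ _
    · exact le_rfl
  have hGle : ∀ i k, G (i, k) ≤ (if (N i : ℝ) ≤ xn k then r k * kn k ^ (i + 3) else 0) := by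
    intro i k
    show (if nr i ≤ xn k then r k * kn k ^ (i + 3) else 0) ≤ _
    by_cases h : nr i ≤ xn k
    · have hNi : (N i : ℝ) ≤ nr i := Nat.cast_le.mpr (hnN i)
      have h' : (N i : ℝ) ≤ xn k := le_trans hNi h
      rw [if_pos h, if_pos h']
    · rw [if_neg h]
      split_ifs
      · exact hf0 _ _
      · exact le_rfl
  have hGi : ∀ i, Summable fun k => G (i, k) := fun i =>
    Summable.of_nonneg_of_le (fun k => hG0 (i, k)) (hGle i) (hNs i)
  have hGt : ∀ i, ∑' k, G (i, k) ≤ (1 / 2 : ℝ) ^ i := fun i =>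
    ((hGi i).tsum_le_tsum (hGle i) (hNs i)).trans (hN i)
  have hGs : Summable G := by
    rw [summable_prod_of_nonneg hG0]
    refine ⟨hGi, ?_⟩
    exact Summable.of_nonneg_of_le (fun i => tsum_nonneg (fun k => hG0 (i, k))) hGt
      summable_geometric_two
  have hGs' : Summable fun p : K2 × ℕ => G p.swap := (Equiv.prodComm K2 ℕ).summable_iff.mpr hGs
  have hH : Summable fun k : K2 => ∑' i, G (i, k) := hGs'.prod
  have hHk : ∀ k : K2, Summable fun i => G (i, k) := fun k => hGs'.prod_factor k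
  -- the main comparison
  have hmain : ∀ k, r k * (mkWt nr h1).wj 2 k ≤
      Real.exp 2 * (r k * kn k ^ 2 + ∑' i, G (i, k)) := by
    intro k
    have hx := xn_nonneg k
    classical
    have hex : ∃ J, xn k < nr J := by
      obtain ⟨J, hJ⟩ := pow_unbounded_of_one_lt (xn k) (one_lt_two : (1 : ℝ) < 2)
      exact ⟨J, lt_of_lt_of_le hJ (h1 J)⟩
    have hJ := Nat.find_spec hex
    have hmin := fun i (hi : i < Nat.find hex) => Nat.find_min hex hi
    set J := Nat.find hex with hJdef
    have hb := exp_phi_le h1 h2 hx hJ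
    have hw : (mkWt nr h1).wj 2 k = Real.exp (phi nr (xn k)) * kn k ^ 2 := rfl
    have hk1 : kn k = 1 + xn k := kn_eq k
    have hkp : 0 ≤ kn k ^ 2 := pow_nonneg (kn_pos k).le 2
    have hHnn : 0 ≤ ∑' i, G (i, k) := tsum_nonneg (fun i => hG0 (i, k))
    have hrk := hr0 k
    have hE := Real.exp_pos 2
    have hstep : r k * (mkWt nr h1).wj 2 k ≤ Real.exp 2 * (r k * kn k ^ (J + 2)) := by
      rw [hw]
      calc r k * (Real.exp (phi nr (xn k)) * kn k ^ 2)
          ≤ r k * ((Real.exp 2 * kn k ^ J) * kn k ^ 2) := by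
            apply mul_le_mul_of_nonneg_left _ hrk
            apply mul_le_mul_of_nonneg_right _ hkp
            rw [hk1]
            exact hb
        _ = Real.exp 2 * (r k * kn k ^ (J + 2)) := by rw [pow_add]; ring
    refine hstep.trans (mul_le_mul_of_nonneg_left ?_ hE.le)
    rcases Nat.eq_zero_or_pos J with h0 | hpos
    · rw [h0]
      simp only [zero_add]
      have := mul_nonneg hrk hkp
      linarith
    · obtain ⟨i, hi⟩ : ∃ i, J = i + 1 := ⟨J - 1, by omega⟩
      have hle : nr i ≤ xn k := not_lt.mp (hmin i (by omega))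
      have hGik : G (i, k) = r k * kn k ^ (J + 2) := by
        show (if nr i ≤ xn k then r k * kn k ^ (i + 3) else 0) = _
        rw [if_pos hle, hi]
      have h3 : G (i, k) ≤ ∑' i, G (i, k) :=
        (hHk k).le_tsum i (fun j _ => hG0 (j, k))
      have := mul_nonneg hrk hkp
      rw [← hGik]
      linarith
  have hnn : ∀ k, 0 ≤ r k * (mkWt nr h1).wj 2 k := fun k =>
    mul_nonneg (hr0 k) (Wt.wj_pos _ 2 k).le
  exact Summable.of_nonneg_of_le hnn hmain (((hr 2).add hH).mul_left _)

end WeightEx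

/-- Every rapidly summable nonnegative sequence is summable against a weight. -/
theorem exists_weight (r : K2 → ℝ) (hr0 : ∀ k, 0 ≤ r k)
    (hr : ∀ m, Summable fun k => r k * kn k ^ m) :
    ∃ W : Wt, Summable fun k => r k * W.wj 2 k :=
  WeightEx.exists_weight_aux r hr0 hr

end Vale.Agent.Lib.P205.Tor
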