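import Mathlib
import Vale.Agent.Lib.P205.Tor.Final
import Vale.Agent.Lib.P205.Tor.Input
import Vale.Agent.Lib.P205.Tor.WeightEx

/-!
Every metric on the two-torus which is conformal to a flat metric of the standard lattice has a
smooth isometric immersion into four-space.
-/

open scoped BigOperators ComplexConjugate Real ContDiff

namespace Vale.Agent.Lib.P205.Tor

/-- Six elements of the ring lie in a common weighted space. -/
theorem exists_common_weight (a1 a2 a3 a4 a5 a6 : S) : ∃ W : Wt,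
    (Summable fun k => ‖a1.1 k‖ * W.wj 2 k) ∧ (Summable fun k => ‖a2.1 k‖ * W.wj 2 k) ∧
    (Summable fun k => ‖a3.1 k‖ * W.wj 2 k) ∧ (Summable fun k => ‖a4.1 k‖ * W.wj 2 k) ∧
    (Summable fun k => ‖a5.1 k‖ * W.wj 2 k) ∧ (Summable fun k => ‖a6.1 k‖ * W.wj 2 k) := by
  obtain ⟨W, hW⟩ := exists_weight
    (fun k => ‖a1.1 k‖ + ‖a2.1 k‖ + ‖a3.1 k‖ + ‖a4.1 k‖ + ‖a5.1 k‖ + ‖a6.1 k‖)
    (fun k => by positivity)
    (fun m => by
      have h := (((((a1.rapid m).add (a2.rapid m)).add (a3.rapid m)).add (a4.rapid m)).add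
        (a5.rapid m)).add (a6.rapid m)
      refine h.congr (fun k => ?_)
      ring)
  have hw : ∀ k, 0 ≤ W.wj 2 k := fun k => (W.wj_pos 2 k).le
  have hn : ∀ (a : S) k, 0 ≤ ‖a.1 k‖ := fun a k => norm_nonneg _
  refine ⟨W, ?_, ?_, ?_, ?_, ?_, ?_⟩ <;>
  · refine Summable.of_nonneg_of_le (fun k => mul_nonneg (norm_nonneg _) (hw k)) (fun k => ?_) hW
    refine mul_le_mul_of_nonneg_right ?_ (hw k)
    have h1 := hn a1 k
    have h2 := hn a2 k
    have h3 := hn a3 k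
    have h4 := hn a4 k
    have h5 := hn a5 k
    have h6 := hn a6 k
    linarith

theorem cos_two_pi_periodic (t : ℝ) : Real.cos (2 * π * (t + 1)) = Real.cos (2 * π * t) := by
  have : 2 * π * (t + 1) = 2 * π * t + 2 * π := by ring
  rw [this, Real.cos_add_two_pi]

/-- The main theorem in the normalized form. -/
theorem torus_conformal_normalized (G : Geo) (Om : ℝ × ℝ → ℝ) (hOm : ContDiff ℝ ∞ Om)
    (hpos : ∀ p, 0 < Om p) (h1 : ∀ s t, Om (s + 1, t) = Om (s, t))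
    (h2 : ∀ s t, Om (s, t + 1) = Om (s, t)) :
    ∃ F : ℝ × ℝ → EuclideanSpace ℝ (Fin 4), ContDiff ℝ ∞ F ∧
      (∀ x y, F (x + 1, y) = F (x, y)) ∧ (∀ x y, F (x, y + 1) = F (x, y)) ∧
      ∀ q v w : ℝ × ℝ, inner ℝ (fderiv ℝ F q v) (fderiv ℝ F q w) =
        Om q * ((v.1 + G.t1 * v.2) * (w.1 + G.t1 * w.2) + (G.t2 * v.2) * (G.t2 * w.2)) := by
  have ht := G.t2pos
  obtain ⟨mi, hmi⟩ : ∃ mi : ℤ, mi = ⌈G.t1 + 2 * G.t2⌉ := ⟨_, rfl⟩
  obtain ⟨ni, hni⟩ : ∃ ni : ℤ, ni = ⌊G.t1 - 2 * G.t2⌋ := ⟨_, rfl⟩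
  have hm1 : G.t1 + 2 * G.t2 ≤ (mi : ℝ) := by
    rw [hmi]
    exact Int.le_ceil _
  have hn1 : (ni : ℝ) ≤ G.t1 - 2 * G.t2 := by
    rw [hni]
    exact Int.floor_le _
  have hpi1 : 2 ≤ ((mi : ℝ) - G.t1) / G.t2 := by
    rw [le_div_iff₀ ht]
    linarith
  have hpi2 : 2 ≤ (G.t1 - (ni : ℝ)) / G.t2 := by
    rw [le_div_iff₀ ht]
    linarith
  obtain ⟨P1, hP1⟩ : ∃ P1 : ℝ, P1 = ((mi : ℝ) - G.t1) / G.t2 := ⟨_, rfl⟩
  obtain ⟨P2, hP2⟩ : ∃ P2 : ℝ, P2 = (G.t1 - (ni : ℝ)) / G.t2 := ⟨_, rfl⟩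
  obtain ⟨B0, hB0⟩ : ∃ B0 : ℝ, B0 = bbF (P1 * P2) := ⟨_, rfl⟩
  let phi0 : ℝ × ℝ → ℝ := fun p => P1 * (1 + B0 * Real.cos (2 * π * p.2))
  have hphi0 : ContDiff ℝ ∞ phi0 :=
    contDiff_const.mul (contDiff_const.add (contDiff_const.mul
      (Real.contDiff_cos.comp (contDiff_const.mul contDiff_snd))))
  have hden : ∀ p, 1 + phi0 p ^ 2 ≠ 0 := fun p => by positivity
  have hden0 : ∀ p, 0 < 1 + phi0 p ^ 2 := fun p => by positivity
  -- the four functions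
  have cOi : ContDiff ℝ ∞ (fun p => 1 / Om p) :=
    contDiff_const.div hOm (fun p => (hpos p).ne')
  have crho : ContDiff ℝ ∞ (fun p => 1 / (1 + phi0 p ^ 2)) :=
    contDiff_const.div (contDiff_const.add (hphi0.pow 2)) hden
  have csg : ContDiff ℝ ∞ (fun p => Real.sqrt (Om p * (1 / (1 + phi0 p ^ 2)))) :=
    (hOm.mul crho).sqrt (fun p => by
      have := hpos p
      have := hden0 p
      positivity)
  have pphi1 : ∀ s t, phi0 (s + 1, t) = phi0 (s, t) := fun s t => rfl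
  have pphi2 : ∀ s t, phi0 (s, t + 1) = phi0 (s, t) := fun s t => by
    show P1 * (1 + B0 * Real.cos (2 * π * (t + 1))) = P1 * (1 + B0 * Real.cos (2 * π * t))
    rw [cos_two_pi_periodic]
  obtain ⟨aOm, haOm⟩ := exists_S_of_smooth Om hOm h1 h2
  obtain ⟨aOi, haOi⟩ := exists_S_of_smooth (fun p => 1 / Om p) cOi
    (fun s t => by simp only [h1]) (fun s t => by simp only [h2])
  obtain ⟨arho, harho⟩ := exists_S_of_smooth (fun p => 1 / (1 + phi0 p ^ 2)) crho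
    (fun s t => by simp only [pphi1]) (fun s t => by simp only [pphi2])
  obtain ⟨asg, hasg⟩ := exists_S_of_smooth (fun p => Real.sqrt (Om p * (1 / (1 + phi0 p ^ 2)))) csg
    (fun s t => by simp only [h1, pphi1]) (fun s t => by simp only [h2, pphi2])
  obtain ⟨W, w1, w2, w3, w4, w5, w6⟩ := exists_common_weight aOm aOi arho asg C0 S0
  let d : Dat :=
    { G := G
      W := W
      Om := mkX aOm w1
      Oi := mkX aOi w2
      sg0 := mkX asg w4
      rho0 := mkX arho w3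
      Cx := mkX C0 w5
      Sx := mkX S0 w6
      mc := mi
      nc := ni
      hC := rfl
      hS := rfl
      hpi1 := hpi1
      hpi2 := hpi2
      hO := by
        show aOm * aOi = 1
        apply ev_injective
        intro p
        rw [ev_mul, ev_one, haOm, haOi]
        have := (hpos p).ne'
        field_simp }
  have e1 : d.Pi1 0 0 0 = P1 := by
    rw [hP1]
    show ((mi : ℝ) * Dat.U11 0 0 - Dat.U12 d 0 0 0) / G.t2 = _
    show ((mi : ℝ) * Dat.U11 0 0 - (Dat.U11 0 0 * G.t1 + 0 * 0 * G.t2)) / G.t2 = _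
    simp [Dat.U11]
  have e2 : d.Pi2 0 0 0 = P2 := by
    rw [hP2]
    show (Dat.U12 d 0 0 0 - (ni : ℝ) * Dat.U11 0 0) / G.t2 = _
    show ((Dat.U11 0 0 * G.t1 + 0 * 0 * G.t2) - (ni : ℝ) * Dat.U11 0 0) / G.t2 = _
    simp [Dat.U11]
  have e3 : d.Bb 0 0 0 = B0 := by
    show bbF (d.Pi1 0 0 0 * d.Pi2 0 0 0) = _
    rw [e1, e2, hB0]
  have hrho : ∀ p : ℝ × ℝ, ev (tS d.rho0) p *
      (1 + (d.Pi1 0 0 0 * (1 + d.Bb 0 0 0 * Real.cos (2 * π * p.2))) ^ 2) = 1 := by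
    intro p
    rw [e1, e3]
    show ev arho p * (1 + phi0 p ^ 2) = 1
    rw [harho]
    have := hden p
    field_simp
  have hsg : ∀ p : ℝ × ℝ, ev (tS d.sg0) p ^ 2 = ev (tS d.Om) p * ev (tS d.rho0) p := by
    intro p
    show ev asg p ^ 2 = ev aOm p * ev arho p
    rw [hasg, haOm, harho, Real.sq_sqrt]
    have := hpos p
    have := hden0 p
    positivity
  obtain ⟨F, hF1, hF2, hF3, hF4⟩ := d.final hrho hsg mi ni rfl rfl
  refine ⟨F, hF1, hF2, hF3, fun q v w => ?_⟩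
  rw [hF4 q v w]
  show ev aOm q * _ = _
  rw [haOm]

/-- The main theorem: a metric conformal to a constant one on the standard torus. -/
theorem torus_conformal (a b c : ℝ) (ha : 0 < a) (hd : 0 < a * c - b ^ 2) (Om : ℝ × ℝ → ℝ)
    (hOm : ContDiff ℝ ∞ Om) (hpos : ∀ p, 0 < Om p) (h1 : ∀ s t, Om (s + 1, t) = Om (s, t))
    (h2 : ∀ s t, Om (s, t + 1) = Om (s, t)) :
    ∃ F : ℝ × ℝ → EuclideanSpace ℝ (Fin 4), ContDiff ℝ ∞ F ∧
      (∀ x y, F (x + 1, y) = F (x, y)) ∧ (∀ x y, F (x, y + 1) = F (x, y)) ∧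
      ∀ q v w : ℝ × ℝ, inner ℝ (fderiv ℝ F q v) (fderiv ℝ F q w) =
        Om q * (a * v.1 * w.1 + b * (v.1 * w.2 + v.2 * w.1) + c * v.2 * w.2) := by
  have hsq : 0 < Real.sqrt (a * c - b ^ 2) := Real.sqrt_pos.mpr hd
  let G : Geo := ⟨b / a, Real.sqrt (a * c - b ^ 2) / a, by positivity⟩
  obtain ⟨F, hF1, hF2, hF3, hF4⟩ := torus_conformal_normalized G (fun p => a * Om p)
    (contDiff_const.mul hOm) (fun p => mul_pos ha (hpos p))
    (fun s t => by simp only [h1]) (fun s t => by simp only [h2])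
  refine ⟨F, hF1, hF2, hF3, fun q v w => ?_⟩
  rw [hF4 q v w]
  show a * Om q * ((v.1 + b / a * v.2) * (w.1 + b / a * w.2) +
    (Real.sqrt (a * c - b ^ 2) / a * v.2) * (Real.sqrt (a * c - b ^ 2) / a * w.2)) = _
  have e : Real.sqrt (a * c - b ^ 2) * Real.sqrt (a * c - b ^ 2) = a * c - b ^ 2 :=
    Real.mul_self_sqrt hd.le
  have e2 : (Real.sqrt (a * c - b ^ 2) / a * v.2) * (Real.sqrt (a * c - b ^ 2) / a * w.2) =
      (a * c - b ^ 2) / a ^ 2 * (v.2 * w.2) := by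
    have e3 : (Real.sqrt (a * c - b ^ 2) / a * v.2) * (Real.sqrt (a * c - b ^ 2) / a * w.2) =
        (Real.sqrt (a * c - b ^ 2) * Real.sqrt (a * c - b ^ 2)) / a ^ 2 * (v.2 * w.2) := by
      ring
    rw [e3, e]
  rw [e2]
  field_simp
  ring

end Vale.Agent.Lib.P205.Tor
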