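import Mathlib
import Vale.Agent.Lib.P205.Tor.Lap
import Vale.Agent.Lib.P205.Tor.Input

/-!
Isothermal coordinates on the torus, from the solvability of the divergence form scalar equation.
-/

open scoped BigOperators ComplexConjugate Real ContDiff

namespace Vale.Agent.Lib.P205.Tor
namespace Iso

/-- The statement of the solvability of the divergence form equation. -/
def EllStmt : Prop := ∀ (A11 A12 A22 f : S) (c : ℝ) (_ : 0 < c)
  (_ : ∀ p (x y : ℝ), c * (x ^ 2 + y ^ 2) ≤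
    ev A11 p * x ^ 2 + 2 * ev A12 p * (x * y) + ev A22 p * y ^ 2) (_ : mean f = 0),
  ∃ u : S, Dir 1 0 (A11 * Dir 1 0 u + A12 * Dir 0 1 u) +
    Dir 0 1 (A12 * Dir 1 0 u + A22 * Dir 0 1 u) = f

theorem Dir_eq_of (w L : S) (x y : ℝ) (F' : ℝ × ℝ → (ℝ × ℝ) →L[ℝ] ℝ)
    (h : ∀ p, HasFDerivAt (ev w) (F' p) p) (hL : ∀ p, ev L p = F' p (x, y)) : Dir x y w = L := by
  apply ev_injective
  intro p
  rw [hL, (h p).unique (hasFDerivAt_ev w p), dev_apply]

theorem exists_exp (u : S) : ∃ r : S, (∀ p, 0 < ev r p) ∧ ∀ x y, Dir x y r = r * Dir x y u := by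
  obtain ⟨r, hr⟩ := exists_S_of_smooth (fun p => Real.exp (ev u p))
    (Real.contDiff_exp.comp (contDiff_ev u))
    (fun s t => by simp only [ev_periodic_fst]) (fun s t => by simp only [ev_periodic_snd])
  refine ⟨r, fun p => by rw [hr]; exact Real.exp_pos _, fun x y => ?_⟩
  have hfun : ev r = fun p => Real.exp (ev u p) := funext hr
  refine Dir_eq_of r _ x y (fun p => Real.exp (ev u p) • dev u p) (fun p => ?_) (fun p => ?_)
  · rw [hfun]
    exact (hasFDerivAt_ev u p).exp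
  · rw [ev_mul, hr]
    simp only [smul_apply, smul_eq_mul, dev_apply]

theorem exists_rot (v : S) (n1 n2 : ℤ) : ∃ C T : S, C * C + T * T = 1 ∧
    (∀ x y, Dir x y C = - (T * (Dir x y v + cst (2 * π * (n1 * x + n2 * y))))) ∧
    (∀ x y, Dir x y T = C * (Dir x y v + cst (2 * π * (n1 * x + n2 * y)))) := by
  let φ : ℝ × ℝ → ℝ := fun p => ev v p + 2 * π * (n1 * p.1 + n2 * p.2)
  have hφ : ContDiff ℝ ∞ φ := by
    apply (contDiff_ev v).add
    fun_prop
  have e1 : ∀ s t, φ (s + 1, t) = φ (s, t) + n1 * (2 * π) := fun s t => by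
    simp only [φ, ev_periodic_fst]
    ring
  have e2 : ∀ s t, φ (s, t + 1) = φ (s, t) + n2 * (2 * π) := fun s t => by
    simp only [φ, ev_periodic_snd]
    ring
  obtain ⟨C, hC⟩ := exists_S_of_smooth (fun p => Real.cos (φ p)) (Real.contDiff_cos.comp hφ)
    (fun s t => by simp only [e1, Real.cos_add_int_mul_two_pi])
    (fun s t => by simp only [e2, Real.cos_add_int_mul_two_pi])
  obtain ⟨T, hT⟩ := exists_S_of_smooth (fun p => Real.sin (φ p)) (Real.contDiff_sin.comp hφ)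
    (fun s t => by simp only [e1, Real.sin_add_int_mul_two_pi])
    (fun s t => by simp only [e2, Real.sin_add_int_mul_two_pi])
  have hd : ∀ p, HasFDerivAt φ (dev v p + (2 * π) • ((n1 : ℝ) • ContinuousLinearMap.fst ℝ ℝ ℝ +
      (n2 : ℝ) • ContinuousLinearMap.snd ℝ ℝ ℝ)) p := by
    intro p
    apply (hasFDerivAt_ev v p).add
    apply HasFDerivAt.const_mul
    apply HasFDerivAt.add
    · exact (hasFDerivAt_fst (p := p)).const_mul _
    · exact (hasFDerivAt_snd (p := p)).const_mul _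
  have hCf : ev C = fun p => Real.cos (φ p) := funext hC
  have hTf : ev T = fun p => Real.sin (φ p) := funext hT
  refine ⟨C, T, ?_, fun x y => ?_, fun x y => ?_⟩
  · apply ev_injective
    intro p
    simp only [ev_add, ev_mul, ev_one, hC, hT]
    nlinarith [Real.sin_sq_add_cos_sq (φ p)]
  · refine Dir_eq_of C _ x y (fun p => (- Real.sin (φ p)) • (dev v p + (2 * π) • ((n1 : ℝ) •
      ContinuousLinearMap.fst ℝ ℝ ℝ + (n2 : ℝ) • ContinuousLinearMap.snd ℝ ℝ ℝ)))
      (fun p => ?_) (fun p => ?_)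
    · rw [hCf]
      simpa using (hd p).cos
    · simp only [ev_neg, ev_mul, ev_add, ev_cst, hT, smul_apply,
        add_apply, dev_apply, ContinuousLinearMap.coe_fst',
        ContinuousLinearMap.coe_snd', smul_eq_mul]
      ring
  · refine Dir_eq_of T _ x y (fun p => (Real.cos (φ p)) • (dev v p + (2 * π) • ((n1 : ℝ) •
      ContinuousLinearMap.fst ℝ ℝ ℝ + (n2 : ℝ) • ContinuousLinearMap.snd ℝ ℝ ℝ)))
      (fun p => ?_) (fun p => ?_)
    · rw [hTf]
      simpa using (hd p).sin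
    · simp only [ev_mul, ev_add, ev_cst, hC, smul_apply,
        add_apply, dev_apply, ContinuousLinearMap.coe_fst',
        ContinuousLinearMap.coe_snd', smul_eq_mul]

theorem exists_sqrt (E : S) (hE : ∀ p, 0 < ev E p) :
    ∃ s : S, (∀ p, 0 < ev s p) ∧ s * s = E := by
  obtain ⟨s, hs⟩ := exists_S_of_smooth (fun p => Real.sqrt (ev E p))
    ((contDiff_ev E).sqrt (fun p => (hE p).ne'))
    (fun s t => by simp only [ev_periodic_fst]) (fun s t => by simp only [ev_periodic_snd])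
  refine ⟨s, fun p => by rw [hs]; exact Real.sqrt_pos.mpr (hE p), ?_⟩
  apply ev_injective
  intro p
  rw [ev_mul, hs]
  exact Real.mul_self_sqrt (hE p).le

theorem exists_inv (E : S) (hE : ∀ p, 0 < ev E p) :
    ∃ r : S, (∀ p, 0 < ev r p) ∧ r * E = 1 := by
  obtain ⟨s, hs⟩ := exists_S_of_smooth (fun p => (ev E p)⁻¹)
    ((contDiff_ev E).inv (fun p => (hE p).ne'))
    (fun s t => by simp only [ev_periodic_fst]) (fun s t => by simp only [ev_periodic_snd])
  refine ⟨s, fun p => by rw [hs]; exact inv_pos.mpr (hE p), ?_⟩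
  apply ev_injective
  intro p
  rw [ev_mul, hs, ev_one]
  exact inv_mul_cancel₀ (hE p).ne'

/-- The mean of a positive function is positive. -/
theorem mean_pos (w : S) (hw : ∀ p, 0 < ev w p) : 0 < mean w := by
  have hper : Input.IsPer (ev w) := ⟨contDiff_ev w, ev_periodic_fst w, ev_periodic_snd w⟩
  have h0 : Input.toS hper = w := ev_injective (Input.ev_toS hper)
  have h1 : w.1 0 = Input.coef (ev w) 0 := by
    conv_lhs => rw [← h0]
    rfl
  have hee : ∀ x, Input.ee 0 x = 1 := fun x => by simp [Input.ee]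
  have hcont : Continuous fun q : ℝ × ℝ => ev w (q.2, q.1) :=
    (contDiff_ev w).continuous.comp (continuous_snd.prodMk continuous_fst)
  have h2 : Input.coef (ev w) 0 = ((∫ t in (0 : ℝ)..1, ∫ s in (0 : ℝ)..1, ev w (s, t) : ℝ) : ℂ) := by
    unfold Input.coef Input.coefT
    simp only [Prod.fst_zero, Prod.snd_zero, neg_zero, hee, one_mul]
    rw [← intervalIntegral.integral_ofReal]
    apply intervalIntegral.integral_congr
    intro t _
    simp only
    rw [intervalIntegral.integral_ofReal]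
  have hG : Continuous fun t : ℝ => ∫ s in (0 : ℝ)..1, ev w (s, t) :=
    intervalIntegral.continuous_parametric_intervalIntegral_of_continuous' hcont 0 1
  have h3 : 0 < ∫ t in (0 : ℝ)..1, ∫ s in (0 : ℝ)..1, ev w (s, t) := by
    apply intervalIntegral.intervalIntegral_pos_of_pos (hG.intervalIntegrable _ _) _ zero_lt_one
    intro t
    apply intervalIntegral.intervalIntegral_pos_of_pos _ _ zero_lt_one
    · exact ((contDiff_ev w).continuous.comp
        (continuous_id.prodMk continuous_const)).intervalIntegrable _ _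
    · intro s
      exact hw _
  unfold mean
  rw [h1, h2, Complex.ofReal_re]
  exact h3

/-- The first Poincare lemma on the torus. -/
theorem exists_prim (P Q : S) (h : Dir 0 1 P = Dir 1 0 Q) :
    ∃ v : S, P = cst (mean P) + Dir 1 0 v ∧ Q = cst (mean Q) + Dir 0 1 v := by
  let G : Geo := ⟨0, 1, one_pos⟩
  have ha : G.a2 = 0 := by simp [Geo.a2, G]
  have hb : G.b2 = 1 := by simp [Geo.b2, G]
  have hD1 : G.D1 = Dir 1 0 := rfl
  have hD2 : G.D2 = Dir 0 1 := by
    unfold Geo.D2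
    rw [ha, hb]
  have hcomm : ∀ x y (a : S), Dir x y (G.Lp a) = G.Lp (Dir x y a) := by
    intro x y a
    apply S.ext
    intro k
    show dsym x y k * (G.lsym k * a.1 k) = G.lsym k * (dsym x y k * a.1 k)
    ring
  have hlap := G.lap_Lp
  rw [hD1, hD2] at hlap
  refine ⟨G.Lp (Dir 1 0 P + Dir 0 1 Q), ?_, ?_⟩
  · have h1 := hlap P
    have h2 : Dir 1 0 (G.Lp (Dir 1 0 P + Dir 0 1 Q)) = P - cst (mean P) := by
      rw [← h1]
      simp only [hcomm, map_add]
      rw [Dir_comm 1 0 0 1 Q, ← h]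
    rw [h2]
    abel
  · have h1 := hlap Q
    have h2 : Dir 0 1 (G.Lp (Dir 1 0 P + Dir 0 1 Q)) = Q - cst (mean Q) := by
      rw [← h1]
      simp only [hcomm, map_add]
      rw [Dir_comm 0 1 1 0 P, h]
    rw [h2]
    abel

theorem cst_mul_apply (c : ℝ) (a : S) (k : K2) : (cst c * a).1 k = (c : ℂ) * a.1 k := by
  rw [← smul_eq_cst_mul]
  show c • a.1 k = _
  simp

/-- Parseval. -/
theorem hasSum_parseval (a b : S) :
    HasSum (fun k => b.1 k * conj (a.1 k)) ((mean (b * a) : ℝ) : ℂ) := by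
  have h1 : Summable fun k => ‖b.1 k * a.1 (0 - k)‖ :=
    summable_inner b.summable_norm a.summable_norm 0
  have h2 : Summable fun k => b.1 k * a.1 (0 - k) := h1.of_norm
  have h3 := h2.hasSum
  have h4 : (∑' k, b.1 k * a.1 (0 - k)) = ((mean (b * a) : ℝ) : ℂ) := by
    rw [← coeff_zero_eq, mul_apply]
    rfl
  rw [h4] at h3
  have h5 : (fun k => b.1 k * a.1 (0 - k)) = fun k => b.1 k * conj (a.1 k) := by
    funext k
    rw [zero_sub, a.sym]
  rwa [h5] at h3

/-- The holonomy of a twisted closed pair vanishes in the mean, if the twist is not integral. -/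
theorem hol (x1 x2 y1 y2 : S) (c1 c2 : ℝ)
    (h1 : Dir 0 1 x1 - cst c2 * x2 = Dir 1 0 y1 - cst c1 * y2)
    (h2 : Dir 0 1 x2 + cst c2 * x1 = Dir 1 0 y2 + cst c1 * y1)
    (hne : ∀ k : K2, ¬ (c1 + 2 * π * k.1 = 0 ∧ c2 + 2 * π * k.2 = 0)) :
    mean (y2 * x1) - mean (y1 * x2) = 0 := by
  -- the sum of the terms
  have s1 := hasSum_parseval x1 y1
  have s2 := hasSum_parseval x2 y2
  have s3 := hasSum_parseval x1 y2
  have s4 := hasSum_parseval x2 y1
  have s5 := ((s1.add s2).add ((s3.sub s4).mul_left Complex.I))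
  have s6 := Complex.hasSum_im s5
  have hsum : ((((mean (y1 * x1) : ℝ) : ℂ) + ((mean (y2 * x2) : ℝ) : ℂ)) +
      Complex.I * (((mean (y2 * x1) : ℝ) : ℂ) - ((mean (y1 * x2) : ℝ) : ℂ))).im =
      mean (y2 * x1) - mean (y1 * x2) := by
    simp
  rw [hsum] at s6
  have hterm : ∀ k : K2, (y1.1 k * conj (x1.1 k) + y2.1 k * conj (x2.1 k) +
      Complex.I * (y2.1 k * conj (x1.1 k) - y1.1 k * conj (x2.1 k))).im = 0 := by
    intro k
    have e1 := congrArg (fun a : S => a.1 k) h1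
    have e2 := congrArg (fun a : S => a.1 k) h2
    have sub_coe : ∀ a b : S, (a - b).1 k = a.1 k - b.1 k := fun _ _ => rfl
    simp only [sub_coe, add_coe, cst_mul_apply, Dir_apply] at e1 e2
    set Z : ℂ := x1.1 k + Complex.I * x2.1 k with hZ
    set W : ℂ := y1.1 k + Complex.I * y2.1 k with hW
    set xi1 : ℝ := c1 + 2 * π * k.1 with hxi1
    set xi2 : ℝ := c2 + 2 * π * k.2 with hxi2
    have hrel : (xi2 : ℂ) * Z = (xi1 : ℂ) * W := by
      have hI : Complex.I * Complex.I = -1 := Complex.I_mul_I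
      have hIne : Complex.I ≠ 0 := Complex.I_ne_zero
      have : Complex.I * ((xi2 : ℂ) * Z - (xi1 : ℂ) * W) = 0 := by
        simp only [dsym] at e1 e2
        push_cast at e1 e2
        simp only [hZ, hW, hxi1, hxi2]
        push_cast
        linear_combination e1 + Complex.I * e2 + ((c2 : ℂ) * x2.1 k - (c1 : ℂ) * y2.1 k) * hI
      have h3 := (mul_eq_zero.mp this).resolve_left hIne
      linear_combination h3
    have hreal : (conj Z * W).im = 0 := by
      by_cases h0 : xi1 = 0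
      · have h20 : xi2 ≠ 0 := fun h => hne k ⟨h0, h⟩
        have hZ0 : Z = 0 := by
          rw [h0] at hrel
          simp only [Complex.ofReal_zero, zero_mul] at hrel
          have h21 : (xi2 : ℂ) ≠ 0 := by exact_mod_cast h20
          exact (mul_eq_zero.mp hrel).resolve_left h21
        rw [hZ0]
        simp
      · have h10 : (xi1 : ℂ) ≠ 0 := by exact_mod_cast h0
        have hW0 : W = ((xi2 / xi1 : ℝ) : ℂ) * Z := by
          push_cast
          field_simp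
          linear_combination -hrel
        rw [hW0]
        have : conj Z * (((xi2 / xi1 : ℝ) : ℂ) * Z) = ((xi2 / xi1 * Complex.normSq Z : ℝ) : ℂ) := by
          push_cast
          rw [Complex.normSq_eq_conj_mul_self]
          ring
        rw [this, Complex.ofReal_im]
    have hexp : y1.1 k * conj (x1.1 k) + y2.1 k * conj (x2.1 k) +
        Complex.I * (y2.1 k * conj (x1.1 k) - y1.1 k * conj (x2.1 k)) = conj Z * W := by
      simp only [hZ, hW, map_add, map_mul, Complex.conj_I]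
      have hI : Complex.I * Complex.I = -1 := Complex.I_mul_I
      linear_combination (y2.1 k * conj (x2.1 k)) * hI
    rw [hexp]
    exact hreal
  simp only [hterm] at s6
  exact s6.unique hasSum_zero

/-- The twisted closedness identities. -/
theorem twist (a b1 b2 r C T U1 U2 P Q : S) (c1 c2 : ℝ)
    (hr1 : Dir 1 0 r = r * U1) (hr2 : Dir 0 1 r = r * U2)
    (hC1 : Dir 1 0 C = - (T * (P - cst c1))) (hC2 : Dir 0 1 C = - (T * (Q - cst c2)))
    (hT1 : Dir 1 0 T = C * (P - cst c1)) (hT2 : Dir 0 1 T = C * (Q - cst c2))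
    (hR : b2 * P = b1 * U1 - a * U2 + Dir 1 0 b1 - Dir 0 1 a)
    (hI : a * Q = b2 * U1 + P * b1 + Dir 1 0 b2) :
    Dir 0 1 (r * a * C) - cst c2 * (r * a * T) =
      Dir 1 0 (r * (b1 * C - b2 * T)) - cst c1 * (r * (b1 * T + b2 * C)) ∧
    Dir 0 1 (r * a * T) + cst c2 * (r * a * C) =
      Dir 1 0 (r * (b1 * T + b2 * C)) + cst c1 * (r * (b1 * C - b2 * T)) := by
  constructor
  · simp only [Dir_mul, map_sub, hr1, hr2, hC1, hC2, hT1]
    linear_combination r * C * hR - r * T * hI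
  · simp only [Dir_mul, map_add, hr1, hr2, hC1, hT1, hT2]
    linear_combination r * T * hR + r * C * hI

theorem sub_zero_cst (P : S) : P - cst 0 = P := by
  apply ev_injective
  intro p
  rw [ev_sub, ev_cst, sub_zero]

theorem cst_zero_mul (a : S) : cst 0 * a = 0 := by
  apply ev_injective
  intro p
  rw [ev_mul, ev_cst, zero_mul, ev_zero]

theorem mean_cst_mul (c : ℝ) (a : S) : mean (cst c * a) = c * mean a := by
  rw [← smul_eq_cst_mul, mean_smul]

/-- Isothermal coordinates on the torus. -/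
theorem exists_isothermal_of (hell : EllStmt) (E G H : S) (hE : ∀ p, 0 < ev E p)
    (hD : ∀ p, 0 < ev E p * ev H p - ev G p ^ 2) :
    ∃ (w11 w12 w21 w22 : ℝ) (z1 z2 lam : S), 0 < w11 * w22 - w12 * w21 ∧ (∀ p, 0 < ev lam p) ∧
      E = lam * ((cst w11 + Dir 1 0 z1) * (cst w11 + Dir 1 0 z1) +
        (cst w21 + Dir 1 0 z2) * (cst w21 + Dir 1 0 z2)) ∧
      G = lam * ((cst w11 + Dir 1 0 z1) * (cst w12 + Dir 0 1 z1) +
        (cst w21 + Dir 1 0 z2) * (cst w22 + Dir 0 1 z2)) ∧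
      H = lam * ((cst w12 + Dir 0 1 z1) * (cst w12 + Dir 0 1 z1) +
        (cst w22 + Dir 0 1 z2) * (cst w22 + Dir 0 1 z2)) := by
  -- the frame
  obtain ⟨a, ha, haa⟩ := exists_sqrt E hE
  obtain ⟨ra, hra, hraa⟩ := exists_inv a ha
  have hDD : ∀ p, 0 < ev (E * H - G * G) p := by
    intro p
    rw [ev_sub, ev_mul, ev_mul]
    have := hD p
    nlinarith
  obtain ⟨sD, hsD, hsDD⟩ := exists_sqrt _ hDD
  obtain ⟨b1, hb1⟩ : ∃ b1 : S, b1 = G * ra := ⟨_, rfl⟩
  obtain ⟨b2, hb2⟩ : ∃ b2 : S, b2 = sD * ra := ⟨_, rfl⟩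
  have hb2pos : ∀ p, 0 < ev b2 p := fun p => by
    rw [hb2, ev_mul]
    exact mul_pos (hsD p) (hra p)
  obtain ⟨rb, hrb, hrbb⟩ := exists_inv b2 hb2pos
  have eG : a * b1 = G := by
    rw [hb1]
    linear_combination G * hraa
  have eE : a * a = E := haa
  have eH : b1 * b1 + b2 * b2 = H := by
    rw [hb1, hb2]
    linear_combination ra * ra * hsDD - ra * ra * H * haa + (ra * a + 1) * H * hraa
  -- the coefficients of the equation
  obtain ⟨A11, hA11⟩ : ∃ A11 : S, A11 = (b1 * b1 + b2 * b2) * ra * rb := ⟨_, rfl⟩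
  obtain ⟨A12, hA12⟩ : ∃ A12 : S, A12 = - (b1 * rb) := ⟨_, rfl⟩
  obtain ⟨A22, hA22⟩ : ∃ A22 : S, A22 = a * rb := ⟨_, rfl⟩
  obtain ⟨p0, hp0⟩ : ∃ p0 : S, p0 = rb * (Dir 1 0 b1 - Dir 0 1 a) := ⟨_, rfl⟩
  obtain ⟨q0, hq0⟩ : ∃ q0 : S, q0 = ra * (b1 * p0 + Dir 1 0 b2) := ⟨_, rfl⟩
  -- ellipticity
  have hdet : A11 * A22 - A12 * A12 = 1 := by
    rw [hA11, hA12, hA22]
    linear_combination (b1 * b1 + b2 * b2) * rb * rb * hraa + (rb * b2 + 1) * hrbb
  have hAp : ∀ p, 0 < ev A22 p := fun p => by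
    rw [hA22, ev_mul]
    exact mul_pos (ha p) (hrb p)
  have hdetp : ∀ p, ev A11 p * ev A22 p - ev A12 p * ev A12 p = 1 := fun p => by
    have h := congrArg (fun w : S => ev w p) hdet
    simpa only [ev_sub, ev_mul, ev_one] using h
  obtain ⟨B, hB⟩ : ∃ B : ℝ, B = ∑' k, ‖(A11 + A22).1 k‖ := ⟨_, rfl⟩
  have hBle : ∀ p, ev A11 p + ev A22 p ≤ B := fun p => by
    have h := abs_ev_le (A11 + A22) p
    rw [ev_add, ← hB] at h
    exact (le_abs_self _).trans h
  have hform : ∀ p (x y : ℝ), 0 ≤ ev A11 p * x ^ 2 + 2 * ev A12 p * (x * y) + ev A22 p * y ^ 2 ∧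
      x ^ 2 + y ^ 2 ≤ (ev A11 p + ev A22 p) *
        (ev A11 p * x ^ 2 + 2 * ev A12 p * (x * y) + ev A22 p * y ^ 2) := by
    intro p x y
    have h1 := hdetp p
    have h2 := hAp p
    set α := ev A11 p
    set β := ev A12 p
    set γ := ev A22 p
    constructor
    · have h3 : γ * (α * x ^ 2 + 2 * β * (x * y) + γ * y ^ 2) = (β * x + γ * y) ^ 2 + x ^ 2 := by
        linear_combination x ^ 2 * h1
      have h4 : 0 ≤ γ * (α * x ^ 2 + 2 * β * (x * y) + γ * y ^ 2) := by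
        rw [h3]
        positivity
      exact nonneg_of_mul_nonneg_right h4 h2
    · have h3 : (α + γ) * (α * x ^ 2 + 2 * β * (x * y) + γ * y ^ 2) - (x ^ 2 + y ^ 2) =
          (α * x + β * y) ^ 2 + (β * x + γ * y) ^ 2 := by
        linear_combination (x ^ 2 + y ^ 2) * h1
      have h4 : 0 ≤ (α * x + β * y) ^ 2 + (β * x + γ * y) ^ 2 := by positivity
      linarith
  have hBpos : 0 < B := by
    have h1 := hBle (0, 0)
    have h2 := (hform (0, 0) 1 0).2
    have h3 := (hform (0, 0) 1 0).1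
    by_contra hc
    push Not at hc
    have h4 : ev A11 (0, 0) + ev A22 (0, 0) ≤ 0 := h1.trans hc
    nlinarith
  have hell' : ∀ p (x y : ℝ), (1 / B) * (x ^ 2 + y ^ 2) ≤
      ev A11 p * x ^ 2 + 2 * ev A12 p * (x * y) + ev A22 p * y ^ 2 := by
    intro p x y
    obtain ⟨h1, h2⟩ := hform p x y
    have h3 : x ^ 2 + y ^ 2 ≤ B * (ev A11 p * x ^ 2 + 2 * ev A12 p * (x * y) + ev A22 p * y ^ 2) :=
      h2.trans (mul_le_mul_of_nonneg_right (hBle p) h1)
    rw [one_div, inv_mul_le_iff₀ hBpos]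
    exact h3
  have hmean : mean (Dir 0 1 p0 - Dir 1 0 q0) = 0 := by
    rw [mean_sub, mean_Dir, mean_Dir, sub_zero]
  obtain ⟨u, hu⟩ := hell A11 A12 A22 _ (1 / B) (by positivity) hell' hmean
  obtain ⟨U1, hU1⟩ : ∃ U1 : S, U1 = Dir 1 0 u := ⟨_, rfl⟩
  obtain ⟨U2, hU2⟩ : ∃ U2 : S, U2 = Dir 0 1 u := ⟨_, rfl⟩
  rw [← hU1, ← hU2] at hu
  obtain ⟨P, hP⟩ : ∃ P : S, P = - (A12 * U1 + A22 * U2) + p0 := ⟨_, rfl⟩
  obtain ⟨Q, hQ⟩ : ∃ Q : S, Q = A11 * U1 + A12 * U2 + q0 := ⟨_, rfl⟩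
  have hcl : Dir 0 1 P = Dir 1 0 Q := by
    rw [hP, hQ]
    simp only [map_add, map_neg] at hu ⊢
    linear_combination -hu
  have hR : b2 * P = b1 * U1 - a * U2 + Dir 1 0 b1 - Dir 0 1 a := by
    rw [hP, hA12, hA22, hp0]
    linear_combination (b1 * U1 - a * U2 + Dir 1 0 b1 - Dir 0 1 a) * hrbb
  have hI : a * Q = b2 * U1 + P * b1 + Dir 1 0 b2 := by
    rw [hP, hQ, hA11, hA12, hA22, hq0]
    linear_combination ((b1 * b1 + b2 * b2) * rb * U1 + b1 * p0 + Dir 1 0 b2) * hraa +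
      b2 * U1 * hrbb
  obtain ⟨r, hrpos, hrd⟩ := exists_exp u
  have hr1 : Dir 1 0 r = r * U1 := by rw [hU1]; exact hrd 1 0
  have hr2 : Dir 0 1 r = r * U2 := by rw [hU2]; exact hrd 0 1
  obtain ⟨v0, hv1, hv2⟩ := exists_prim P Q hcl
  obtain ⟨c1, hc1⟩ : ∃ c1 : ℝ, c1 = mean P := ⟨_, rfl⟩
  obtain ⟨c2, hc2⟩ : ∃ c2 : ℝ, c2 = mean Q := ⟨_, rfl⟩
  rw [← hc1] at hv1
  rw [← hc2] at hv2
  have hshift : ∀ (v P : S) (c d : ℝ), P = cst c + v → v + cst d = P - cst (c - d) := by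
    intro v P c d h
    apply ev_injective
    intro p
    rw [h]
    simp only [ev_add, ev_sub, ev_cst]
    ring
  have hjac : ∀ C T : S, C * C + T * T = 1 →
      (r * (b1 * T + b2 * C)) * (r * a * C) - (r * (b1 * C - b2 * T)) * (r * a * T) =
        r * r * a * b2 := by
    intro C T h
    linear_combination r * r * a * b2 * h
  have hjacpos : ∀ p, 0 < ev (r * r * a * b2) p := fun p => by
    simp only [ev_mul]
    exact mul_pos (mul_pos (mul_pos (hrpos p) (hrpos p)) (ha p)) (hb2pos p)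
  -- the holonomy is integral
  have hint : ∃ k : K2, c1 + 2 * π * k.1 = 0 ∧ c2 + 2 * π * k.2 = 0 := by
    by_contra hne
    push Not at hne
    obtain ⟨C, T, hsq, hC, hT⟩ := exists_rot v0 0 0
    have e1 : (0 : ℝ) = 2 * π * (((0 : ℤ) : ℝ) * 1 + ((0 : ℤ) : ℝ) * 0) := by simp
    have e2 : (0 : ℝ) = 2 * π * (((0 : ℤ) : ℝ) * 0 + ((0 : ℤ) : ℝ) * 1) := by simp
    have h1 := hshift _ _ c1 0 hv1
    have h2 := hshift _ _ c2 0 hv2
    rw [sub_zero] at h1 h2
    have hC1 := hC 1 0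
    have hC2 := hC 0 1
    have hT1 := hT 1 0
    have hT2 := hT 0 1
    rw [← e1, h1] at hC1 hT1
    rw [← e2, h2] at hC2 hT2
    obtain ⟨t1, t2⟩ := twist a b1 b2 r C T U1 U2 P Q c1 c2 hr1 hr2 hC1 hC2 hT1 hT2 hR hI
    have h3 := hol _ _ _ _ c1 c2 t1 t2 (fun k hk => by
      have := hne k hk.1
      exact this hk.2)
    rw [← mean_sub, hjac C T hsq] at h3
    exact (mean_pos _ hjacpos).ne' h3
  obtain ⟨k, hk1, hk2⟩ := hint
  obtain ⟨C, T, hsq, hC, hT⟩ := exists_rot v0 (-k.1) (-k.2)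
  have e1 : c1 = 2 * π * (((-k.1 : ℤ) : ℝ) * 1 + ((-k.2 : ℤ) : ℝ) * 0) := by
    push_cast
    linarith
  have e2 : c2 = 2 * π * (((-k.1 : ℤ) : ℝ) * 0 + ((-k.2 : ℤ) : ℝ) * 1) := by
    push_cast
    linarith
  have h1 := hshift _ _ c1 c1 hv1
  have h2 := hshift _ _ c2 c2 hv2
  rw [sub_self] at h1 h2
  have hC1 := hC 1 0
  have hC2 := hC 0 1
  have hT1 := hT 1 0
  have hT2 := hT 0 1
  rw [← e1, h1] at hC1 hT1
  rw [← e2, h2] at hC2 hT2
  obtain ⟨t1, t2⟩ := twist a b1 b2 r C T U1 U2 P Q 0 0 hr1 hr2 hC1 hC2 hT1 hT2 hR hI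
  simp only [cst_zero_mul, sub_zero, add_zero] at t1 t2
  have hjac2 := hjac C T hsq
  obtain ⟨x1, hx1⟩ : ∃ x1 : S, x1 = r * a * C := ⟨_, rfl⟩
  obtain ⟨x2, hx2⟩ : ∃ x2 : S, x2 = r * a * T := ⟨_, rfl⟩
  obtain ⟨y1, hy1⟩ : ∃ y1 : S, y1 = r * (b1 * C - b2 * T) := ⟨_, rfl⟩
  obtain ⟨y2, hy2⟩ : ∃ y2 : S, y2 = r * (b1 * T + b2 * C) := ⟨_, rfl⟩
  rw [← hx1, ← hy1] at t1
  rw [← hx2, ← hy2] at t2
  rw [← hx1, ← hx2, ← hy1, ← hy2] at hjac2
  obtain ⟨z1, hz11, hz12⟩ := exists_prim x1 y1 t1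
  obtain ⟨z2, hz21, hz22⟩ := exists_prim x2 y2 t2
  obtain ⟨w11, hw11⟩ : ∃ w : ℝ, w = mean x1 := ⟨_, rfl⟩
  obtain ⟨w21, hw21⟩ : ∃ w : ℝ, w = mean x2 := ⟨_, rfl⟩
  obtain ⟨w12, hw12⟩ : ∃ w : ℝ, w = mean y1 := ⟨_, rfl⟩
  obtain ⟨w22, hw22⟩ : ∃ w : ℝ, w = mean y2 := ⟨_, rfl⟩
  rw [← hw11] at hz11
  rw [← hw12] at hz12
  rw [← hw21] at hz21
  rw [← hw22] at hz22
  obtain ⟨r', hr'pos, hr'⟩ := exists_inv r hrpos
  have hdetw : w11 * w22 - w12 * w21 = mean (y2 * x1 - y1 * x2) := by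
    have hdiv : y2 * x1 - y1 * x2 = cst (w11 * w22 - w12 * w21) +
        (Dir 1 0 (cst w22 * z1 - cst w12 * z2 + z1 * Dir 0 1 z2) +
         Dir 0 1 (cst w11 * z2 - cst w21 * z1 - z1 * Dir 1 0 z2)) := by
      have hcomm : Dir 1 0 (Dir 0 1 z2) = Dir 0 1 (Dir 1 0 z2) := Dir_comm _ _ _ _ _
      rw [hz22, hz11, hz12, hz21]
      simp only [map_add, map_sub, Dir_mul, Dir_cst, zero_mul, add_zero, zero_add, hcomm]
      have ecst : cst (w11 * w22 - w12 * w21) = cst w11 * cst w22 - cst w12 * cst w21 := by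
        apply ev_injective
        intro p
        simp only [ev_sub, ev_mul, ev_cst]
      rw [ecst]
      ring
    rw [hdiv, mean_add, mean_add, mean_Dir, mean_Dir, mean_cst, add_zero, add_zero]
  refine ⟨w11, w12, w21, w22, z1, z2, r' * r', ?_, fun p => ?_, ?_, ?_, ?_⟩
  · rw [hdetw, hjac2]
    exact mean_pos _ hjacpos
  · rw [ev_mul]
    exact mul_pos (hr'pos p) (hr'pos p)
  · rw [← hz11, ← hz21, hx1, hx2]
    linear_combination - eE - a * a * (r' * r + 1) * hr' - a * a * r' * r' * r * r * hsq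
  · rw [← hz11, ← hz21, ← hz12, ← hz22, hx1, hx2, hy1, hy2]
    linear_combination - eG - a * b1 * (r' * r + 1) * hr' - a * b1 * r' * r' * r * r * hsq
  · rw [← hz12, ← hz22, hy1, hy2]
    linear_combination - eH - (b1 * b1 + b2 * b2) * (r' * r + 1) * hr' -
      (b1 * b1 + b2 * b2) * r' * r' * r * r * hsq

end Iso
end Vale.Agent.Lib.P205.Tor
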