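import Mathlib
import Vale.Agent.Lib.P205.Tor.Main
import Vale.Agent.Lib.P205.Tor.Uniformize
import Vale.Agent.Lib.P205.Tor.Elliptic
import Vale.Agent.Lib.P205.Tor.Global

/-!
From the conformally flat case to all metrics on the torus.
-/

open scoped BigOperators ComplexConjugate Real ContDiff

namespace Vale.Agent.Lib.P205.Tor

/-- The statement of the isothermal coordinates. -/
def IsoStmt : Prop := ∀ (E G H : S) (_ : ∀ p, 0 < ev E p)
  (_ : ∀ p, 0 < ev E p * ev H p - ev G p ^ 2),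
  ∃ (w11 w12 w21 w22 : ℝ) (z1 z2 lam : S), 0 < w11 * w22 - w12 * w21 ∧ (∀ p, 0 < ev lam p) ∧
    E = lam * ((cst w11 + Dir 1 0 z1) * (cst w11 + Dir 1 0 z1) +
      (cst w21 + Dir 1 0 z2) * (cst w21 + Dir 1 0 z2)) ∧
    G = lam * ((cst w11 + Dir 1 0 z1) * (cst w12 + Dir 0 1 z1) +
      (cst w21 + Dir 1 0 z2) * (cst w22 + Dir 0 1 z2)) ∧
    H = lam * ((cst w12 + Dir 0 1 z1) * (cst w12 + Dir 0 1 z1) +
      (cst w22 + Dir 0 1 z2) * (cst w22 + Dir 0 1 z2))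

/-- The statement of the global inverse. -/
def GlobStmt : Prop := ∀ (f g : ℝ × ℝ → ℝ) (_ : ContDiff ℝ ∞ f) (_ : ContDiff ℝ ∞ g)
  (_ : ∀ x y, f (x + 1, y) = f (x, y)) (_ : ∀ x y, f (x, y + 1) = f (x, y))
  (_ : ∀ x y, g (x + 1, y) = g (x, y)) (_ : ∀ x y, g (x, y + 1) = g (x, y))
  (_ : ∀ p, (1 + fderiv ℝ f p (1, 0)) * (1 + fderiv ℝ g p (0, 1)) -
    fderiv ℝ f p (0, 1) * fderiv ℝ g p (1, 0) ≠ 0),
  ∃ Φ : ℝ × ℝ → ℝ × ℝ, ContDiff ℝ ∞ Φ ∧ (∀ p, Φ (p.1 + f p, p.2 + g p) = p) ∧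
    (∀ p, (Φ p).1 + f (Φ p) = p.1 ∧ (Φ p).2 + g (Φ p) = p.2)

theorem all_metrics_of_modules (hiso : IsoStmt) (hglob : GlobStmt)
    (E G H : ℝ × ℝ → ℝ) (hE : ContDiff ℝ ∞ E) (hG : ContDiff ℝ ∞ G) (hH : ContDiff ℝ ∞ H)
    (E1 : ∀ s t, E (s + 1, t) = E (s, t)) (E2 : ∀ s t, E (s, t + 1) = E (s, t))
    (G1 : ∀ s t, G (s + 1, t) = G (s, t)) (G2 : ∀ s t, G (s, t + 1) = G (s, t))
    (H1 : ∀ s t, H (s + 1, t) = H (s, t)) (H2 : ∀ s t, H (s, t + 1) = H (s, t))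
    (hpos : ∀ p, 0 < E p) (hdet : ∀ p, 0 < E p * H p - G p ^ 2) :
    ∃ F : ℝ × ℝ → EuclideanSpace ℝ (Fin 4), ContDiff ℝ ∞ F ∧
      (∀ x y, F (x + 1, y) = F (x, y)) ∧ (∀ x y, F (x, y + 1) = F (x, y)) ∧
      ∀ q v w : ℝ × ℝ, inner ℝ (fderiv ℝ F q v) (fderiv ℝ F q w) =
        E q * v.1 * w.1 + G q * (v.1 * w.2 + v.2 * w.1) + H q * v.2 * w.2 := by
  obtain ⟨aE, haE⟩ := exists_S_of_smooth E hE E1 E2
  obtain ⟨aG, haG⟩ := exists_S_of_smooth G hG G1 G2
  obtain ⟨aH, haH⟩ := exists_S_of_smooth H hH H1 H2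
  obtain ⟨w11, w12, w21, w22, z1, z2, lam, hW, hlam, eE, eG, eH⟩ := hiso aE aG aH
    (fun p => by rw [haE]; exact hpos p)
    (fun p => by rw [haE, haG, haH]; exact hdet p)
  obtain ⟨dW, hdW⟩ : ∃ dW : ℝ, dW = w11 * w22 - w12 * w21 := ⟨_, rfl⟩
  rw [← hdW] at hW
  -- the two displacement functions
  let f : ℝ × ℝ → ℝ := fun p => (w22 * ev z1 p - w12 * ev z2 p) / dW
  let g : ℝ × ℝ → ℝ := fun p => (w11 * ev z2 p - w21 * ev z1 p) / dW
  have hf : ContDiff ℝ ∞ f :=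
    ((contDiff_const.mul (contDiff_ev z1)).sub (contDiff_const.mul (contDiff_ev z2))).div_const _
  have hg : ContDiff ℝ ∞ g :=
    ((contDiff_const.mul (contDiff_ev z2)).sub (contDiff_const.mul (contDiff_ev z1))).div_const _
  have f1 : ∀ x y, f (x + 1, y) = f (x, y) := fun x y => by
    simp only [f, ev_periodic_fst]
  have f2 : ∀ x y, f (x, y + 1) = f (x, y) := fun x y => by
    simp only [f, ev_periodic_snd]
  have g1 : ∀ x y, g (x + 1, y) = g (x, y) := fun x y => by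
    simp only [g, ev_periodic_fst]
  have g2 : ∀ x y, g (x, y + 1) = g (x, y) := fun x y => by
    simp only [g, ev_periodic_snd]
  have dz : ∀ (a : S) (p v : ℝ × ℝ), fderiv ℝ (ev a) p v =
      v.1 * ev (Dir 1 0 a) p + v.2 * ev (Dir 0 1 a) p := by
    intro a p v
    rw [fderiv_ev, dev_apply, Dir_linear v.1 v.2 a, ev_add, ev_smul, ev_smul]
  have df : ∀ p v : ℝ × ℝ, fderiv ℝ f p v =
      (w22 * fderiv ℝ (ev z1) p v - w12 * fderiv ℝ (ev z2) p v) / dW := by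
    intro p v
    have h1 := (hasFDerivAt_ev z1 p).const_mul w22
    have h2 := (hasFDerivAt_ev z2 p).const_mul w12
    have h3 : HasFDerivAt f _ p := (h1.sub h2).mul_const (dW⁻¹) |>.congr_of_eventuallyEq
      (Filter.Eventually.of_forall fun q => by simp [f, div_eq_mul_inv])
    rw [h3.fderiv, fderiv_ev, fderiv_ev]
    simp [div_eq_mul_inv]
    ring
  have dg : ∀ p v : ℝ × ℝ, fderiv ℝ g p v =
      (w11 * fderiv ℝ (ev z2) p v - w21 * fderiv ℝ (ev z1) p v) / dW := by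
    intro p v
    have h1 := (hasFDerivAt_ev z2 p).const_mul w11
    have h2 := (hasFDerivAt_ev z1 p).const_mul w21
    have h3 : HasFDerivAt g _ p := (h1.sub h2).mul_const (dW⁻¹) |>.congr_of_eventuallyEq
      (Filter.Eventually.of_forall fun q => by simp [g, div_eq_mul_inv])
    rw [h3.fderiv, fderiv_ev, fderiv_ev]
    simp [div_eq_mul_inv]
    ring
  -- pointwise values of the four frame coefficients
  let x1 : ℝ × ℝ → ℝ := fun p => w11 + ev (Dir 1 0 z1) p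
  let y1 : ℝ × ℝ → ℝ := fun p => w12 + ev (Dir 0 1 z1) p
  let x2 : ℝ × ℝ → ℝ := fun p => w21 + ev (Dir 1 0 z2) p
  let y2 : ℝ × ℝ → ℝ := fun p => w22 + ev (Dir 0 1 z2) p
  have pE : ∀ p, E p = ev lam p * (x1 p * x1 p + x2 p * x2 p) := by
    intro p
    rw [← haE, eE]
    simp only [ev_mul, ev_add, ev_cst, x1, x2]
  have pG : ∀ p, G p = ev lam p * (x1 p * y1 p + x2 p * y2 p) := by
    intro p
    rw [← haG, eG]
    simp only [ev_mul, ev_add, ev_cst, x1, x2, y1, y2]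
  have pH : ∀ p, H p = ev lam p * (y1 p * y1 p + y2 p * y2 p) := by
    intro p
    rw [← haH, eH]
    simp only [ev_mul, ev_add, ev_cst, y1, y2]
  have hnd : ∀ p, (1 + fderiv ℝ f p (1, 0)) * (1 + fderiv ℝ g p (0, 1)) -
      fderiv ℝ f p (0, 1) * fderiv ℝ g p (1, 0) ≠ 0 := by
    intro p hzero
    have h0 := hdet p
    rw [pE, pG, pH] at h0
    simp only [df, dg, dz] at hzero
    simp only [one_mul, zero_mul, add_zero, zero_add] at hzero
    have hd0 : dW ≠ 0 := hW.ne'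
    have h2 : x1 p * y2 p - x2 p * y1 p = 0 := by
      have h3 : (1 + (w22 * ev (Dir 1 0 z1) p - w12 * ev (Dir 1 0 z2) p) / dW) *
          (1 + (w11 * ev (Dir 0 1 z2) p - w21 * ev (Dir 0 1 z1) p) / dW) -
          (w22 * ev (Dir 0 1 z1) p - w12 * ev (Dir 0 1 z2) p) / dW *
          ((w11 * ev (Dir 1 0 z2) p - w21 * ev (Dir 1 0 z1) p) / dW) =
          (x1 p * y2 p - x2 p * y1 p) / dW := by
        simp only [x1, x2, y1, y2]
        field_simp
        rw [hdW]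
        ring
      rw [h3] at hzero
      exact (div_eq_zero_iff.mp hzero).resolve_right hd0
    have h4 : ev lam p * (x1 p * x1 p + x2 p * x2 p) * (ev lam p * (y1 p * y1 p + y2 p * y2 p)) -
        (ev lam p * (x1 p * y1 p + x2 p * y2 p)) ^ 2 = (ev lam p) ^ 2 * (x1 p * y2 p - x2 p * y1 p) ^ 2 := by
      ring
    rw [h4, h2] at h0
    simp at h0
  obtain ⟨Φ, hΦ, hΦ1, hΦ2⟩ := hglob f g hf hg f1 f2 g1 g2 hnd
  -- the conformal factor on the target
  let Om : ℝ × ℝ → ℝ := fun q => ev lam (Φ q)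
  have hOm : ContDiff ℝ ∞ Om := (contDiff_ev lam).comp hΦ
  have hΦs1 : ∀ s t, Φ (s + 1, t) = ((Φ (s, t)).1 + 1, (Φ (s, t)).2) := by
    intro s t
    have h := hΦ2 (s, t)
    have e : (((Φ (s, t)).1 + 1) + f ((Φ (s, t)).1 + 1, (Φ (s, t)).2),
        (Φ (s, t)).2 + g ((Φ (s, t)).1 + 1, (Φ (s, t)).2)) = (s + 1, t) := by
      rw [f1, g1]
      have h1 := h.1
      have h2 := h.2
      simp only at h1 h2
      ext
      · simp only
        linarith
      · simp only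
        linarith
    have h3 := hΦ1 ((Φ (s, t)).1 + 1, (Φ (s, t)).2)
    simp only at h3
    rw [e] at h3
    exact h3
  have hΦs2 : ∀ s t, Φ (s, t + 1) = ((Φ (s, t)).1, (Φ (s, t)).2 + 1) := by
    intro s t
    have h := hΦ2 (s, t)
    have e : ((Φ (s, t)).1 + f ((Φ (s, t)).1, (Φ (s, t)).2 + 1),
        ((Φ (s, t)).2 + 1) + g ((Φ (s, t)).1, (Φ (s, t)).2 + 1)) = (s, t + 1) := by
      rw [f2, g2]
      have h1 := h.1
      have h2 := h.2
      simp only at h1 h2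
      ext
      · simp only
        linarith
      · simp only
        linarith
    have h3 := hΦ1 ((Φ (s, t)).1, (Φ (s, t)).2 + 1)
    simp only at h3
    rw [e] at h3
    exact h3
  have Om1 : ∀ s t, Om (s + 1, t) = Om (s, t) := by
    intro s t
    show ev lam (Φ (s + 1, t)) = ev lam (Φ (s, t))
    rw [hΦs1]
    exact ev_periodic_fst _ _ _
  have Om2 : ∀ s t, Om (s, t + 1) = Om (s, t) := by
    intro s t
    show ev lam (Φ (s, t + 1)) = ev lam (Φ (s, t))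
    rw [hΦs2]
    exact ev_periodic_snd _ _ _
  have hOmpos : ∀ p, 0 < Om p := fun p => hlam _
  have ha : 0 < w11 ^ 2 + w21 ^ 2 := by
    by_contra hc
    have h1 : w11 = 0 := by nlinarith [sq_nonneg w11, sq_nonneg w21]
    have h2 : w21 = 0 := by nlinarith [sq_nonneg w11, sq_nonneg w21]
    rw [hdW, h1, h2] at hW
    simp at hW
  have hac : 0 < (w11 ^ 2 + w21 ^ 2) * (w12 ^ 2 + w22 ^ 2) -
      (w11 * w12 + w21 * w22) ^ 2 := by
    have : (w11 ^ 2 + w21 ^ 2) * (w12 ^ 2 + w22 ^ 2) - (w11 * w12 + w21 * w22) ^ 2 = dW ^ 2 := by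
      rw [hdW]
      ring
    rw [this]
    positivity
  obtain ⟨F0, hF1, hF2, hF3, hF4⟩ := torus_conformal _ _ _ ha hac Om hOm hOmpos Om1 Om2
  let Ψ : ℝ × ℝ → ℝ × ℝ := fun p => (p.1 + f p, p.2 + g p)
  have hΨ : ContDiff ℝ ∞ Ψ := (contDiff_fst.add hf).prodMk (contDiff_snd.add hg)
  refine ⟨F0 ∘ Ψ, hF1.comp hΨ, ?_, ?_, ?_⟩
  · intro x y
    show F0 (x + 1 + f (x + 1, y), y + g (x + 1, y)) = F0 (x + f (x, y), y + g (x, y))
    rw [f1, g1]
    have e : x + 1 + f (x, y) = (x + f (x, y)) + 1 := by ring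
    rw [e, hF2]
  · intro x y
    show F0 (x + f (x, y + 1), y + 1 + g (x, y + 1)) = F0 (x + f (x, y), y + g (x, y))
    rw [f2, g2]
    have e : y + 1 + g (x, y) = (y + g (x, y)) + 1 := by ring
    rw [e, hF3]
  · intro q v w
    have hd1 : HasFDerivAt F0 (fderiv ℝ F0 (Ψ q)) (Ψ q) :=
      (hF1.differentiable (by simp) _).hasFDerivAt
    have hd2 : HasFDerivAt Ψ (fderiv ℝ Ψ q) q := (hΨ.differentiable (by simp) _).hasFDerivAt
    have hd3 := hd1.comp q hd2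
    rw [hd3.fderiv]
    simp only [ContinuousLinearMap.comp_apply]
    rw [hF4]
    have hΨv : ∀ u : ℝ × ℝ, fderiv ℝ Ψ q u = (u.1 + fderiv ℝ f q u, u.2 + fderiv ℝ g q u) := by
      intro u
      have h1 : HasFDerivAt f (fderiv ℝ f q) q := (hf.differentiable (by simp) _).hasFDerivAt
      have h2 : HasFDerivAt g (fderiv ℝ g q) q := (hg.differentiable (by simp) _).hasFDerivAt
      have h3 : HasFDerivAt Ψ _ q := ((hasFDerivAt_fst (p := q)).add h1).prodMk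
        ((hasFDerivAt_snd (p := q)).add h2)
      rw [h3.fderiv]
      simp
    rw [hΨv v, hΨv w]
    have hOmq : Om (Ψ q) = ev lam q := by
      show ev lam (Φ (q.1 + f q, q.2 + g q)) = _
      rw [hΦ1]
    rw [hOmq]
    simp only [df, dg, dz]
    rw [pE, pG, pH]
    simp only [x1, x2, y1, y2]
    have hd0 : dW ≠ 0 := hW.ne'
    field_simp
    rw [hdW]
    ring

theorem iso_holds : IsoStmt := fun E G H hE hD =>
  Iso.exists_isothermal_of (fun A11 A12 A22 f c hc hell hf => elliptic_solve A11 A12 A22 f c hc hell hf)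
    E G H hE hD

theorem det_ne_of (L : ℝ × ℝ →L[ℝ] ℝ × ℝ)
    (h : (L (1, 0)).1 * (L (0, 1)).2 - (L (0, 1)).1 * (L (1, 0)).2 ≠ 0) : L.det ≠ 0 := by
  have h1 : L.det = LinearMap.det (L : ℝ × ℝ →ₗ[ℝ] ℝ × ℝ) := rfl
  rw [h1, ← LinearMap.det_toMatrix (Module.Basis.finTwoProd ℝ), Matrix.det_fin_two]
  simp [LinearMap.toMatrix_apply, Module.Basis.finTwoProd_zero, Module.Basis.finTwoProd_one]
  exact h

theorem glob_holds : GlobStmt := by
  intro f g hf hg f1 f2 g1 g2 hnd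
  refine global_inverse f g hf hg f1 f2 g1 g2 (fun p => ?_)
  apply det_ne_of
  have hfd : HasFDerivAt f (fderiv ℝ f p) p := (hf.differentiable (by simp) p).hasFDerivAt
  have hgd : HasFDerivAt g (fderiv ℝ g p) p := (hg.differentiable (by simp) p).hasFDerivAt
  have h3 : HasFDerivAt (fun q : ℝ × ℝ => (q.1 + f q, q.2 + g q)) _ p :=
    ((hasFDerivAt_fst (p := p)).add hfd).prodMk ((hasFDerivAt_snd (p := p)).add hgd)
  rw [h3.fderiv]
  have h4 := hnd p
  simpa using h4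

/-- Every smooth Riemannian metric on the standard two-torus has a smooth isometric immersion into
four-space. -/
theorem all_metrics (E G H : ℝ × ℝ → ℝ) (hE : ContDiff ℝ ∞ E) (hG : ContDiff ℝ ∞ G)
    (hH : ContDiff ℝ ∞ H)
    (E1 : ∀ s t, E (s + 1, t) = E (s, t)) (E2 : ∀ s t, E (s, t + 1) = E (s, t))
    (G1 : ∀ s t, G (s + 1, t) = G (s, t)) (G2 : ∀ s t, G (s, t + 1) = G (s, t))
    (H1 : ∀ s t, H (s + 1, t) = H (s, t)) (H2 : ∀ s t, H (s, t + 1) = H (s, t))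
    (hpos : ∀ p, 0 < E p) (hdet : ∀ p, 0 < E p * H p - G p ^ 2) :
    ∃ F : ℝ × ℝ → EuclideanSpace ℝ (Fin 4), ContDiff ℝ ∞ F ∧
      (∀ x y, F (x + 1, y) = F (x, y)) ∧ (∀ x y, F (x, y + 1) = F (x, y)) ∧
      ∀ q v w : ℝ × ℝ, inner ℝ (fderiv ℝ F q v) (fderiv ℝ F q w) =
        E q * v.1 * w.1 + G q * (v.1 * w.2 + v.2 * w.1) + H q * v.2 * w.2 :=
  all_metrics_of_modules iso_holds glob_holds E G H hE hG hH E1 E2 G1 G2 H1 H2 hpos hdet

end Vale.Agent.Lib.P205.Tor
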