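import Mathlib
import Vale.Agent.Lib.P205.Tor.All
import Vale.Agent.Lib.P205.Tor.Global

/-!
The global inverse statement in the form used by the assembly for all metrics.
-/

open scoped ContDiff

namespace Vale.Agent.Lib.P205.Tor

theorem det_fderiv_shift (f g : ℝ × ℝ → ℝ) (hf : ContDiff ℝ ∞ f) (hg : ContDiff ℝ ∞ g) (p : ℝ × ℝ) :
    (fderiv ℝ (fun q : ℝ × ℝ => (q.1 + f q, q.2 + g q)) p).det =
      (1 + fderiv ℝ f p (1, 0)) * (1 + fderiv ℝ g p (0, 1)) -
        fderiv ℝ f p (0, 1) * fderiv ℝ g p (1, 0) := by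
  have hfd : DifferentiableAt ℝ f p := (hf.differentiable (by simp)) p
  have hgd : DifferentiableAt ℝ g p := (hg.differentiable (by simp)) p
  have hD : HasFDerivAt (fun q : ℝ × ℝ => (q.1 + f q, q.2 + g q))
      (((ContinuousLinearMap.fst ℝ ℝ ℝ) + fderiv ℝ f p).prod
        ((ContinuousLinearMap.snd ℝ ℝ ℝ) + fderiv ℝ g p)) p :=
    ((hasFDerivAt_fst).add hfd.hasFDerivAt).prodMk ((hasFDerivAt_snd).add hgd.hasFDerivAt)
  rw [hD.fderiv]
  set L := (((ContinuousLinearMap.fst ℝ ℝ ℝ) + fderiv ℝ f p).prod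
        ((ContinuousLinearMap.snd ℝ ℝ ℝ) + fderiv ℝ g p)) with hL
  show LinearMap.det (L : (ℝ × ℝ) →ₗ[ℝ] (ℝ × ℝ)) = _
  rw [← LinearMap.det_toMatrix (Module.Basis.finTwoProd ℝ), Matrix.det_fin_two]
  simp [LinearMap.toMatrix_apply, hL, Module.Basis.finTwoProd]

theorem globStmt : GlobStmt := by
  intro f g hf hg f1 f2 g1 g2 h
  exact global_inverse f g hf hg f1 f2 g1 g2 (fun p => by
    rw [det_fderiv_shift f g hf hg p]; exact h p)

end Vale.Agent.Lib.P205.Tor
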